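import Mathlib

set_option autoImplicit false

open Set Filter Topology

namespace Crest.Agent.H7.Mt

/-- A block structure on a type. -/
structure Blk (α : Type) where
  b : α → ℕ
  n : ℕ → ℝ
  pos : ∀ k, 0 < n k
  fin : ∀ k, {x | b x ≤ k}.Finite
  inv : Tendsto (fun k => 1 / n k) atTop (𝓝 0)
  small : Tendsto (fun k => (({x | b x < k}.ncard : ℕ) : ℝ) / n k) atTop (𝓝 0)

namespace Blk

variable {α : Type} (S : Blk α)

noncomputable def blk (W : Set α) (k : ℕ) : ℕ := (W ∩ {x | S.b x = k}).ncard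
noncomputable def cnt (W : Set α) (k : ℕ) : ℕ := (W ∩ {x | S.b x ≤ k}).ncard

def Null (W : Set α) : Prop := Tendsto (fun k => (S.blk W k : ℝ) / S.n k) atTop (𝓝 0)

lemma fin_le (W : Set α) (k : ℕ) : (W ∩ {x | S.b x ≤ k}).Finite :=
  (S.fin k).subset inter_subset_right

lemma fin_eq (W : Set α) (k : ℕ) : (W ∩ {x | S.b x = k}).Finite :=
  (S.fin k).subset (fun _ hx => le_of_eq hx.2)

lemma blk_mono {W W' : Set α} (h : W ⊆ W') (k : ℕ) : S.blk W k ≤ S.blk W' k :=
  ncard_le_ncard (inter_subset_inter_left _ h) (S.fin_eq _ _)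

lemma cnt_mono {W W' : Set α} (h : W ⊆ W') (k : ℕ) : S.cnt W k ≤ S.cnt W' k :=
  ncard_le_ncard (inter_subset_inter_left _ h) (S.fin_le _ _)

lemma blk_union_le (W W' : Set α) (k : ℕ) : S.blk (W ∪ W') k ≤ S.blk W k + S.blk W' k := by
  unfold blk
  rw [union_inter_distrib_right]
  exact ncard_union_le _ _

lemma cnt_union (W W' : Set α) (h : Disjoint W W') (k : ℕ) :
    S.cnt (W ∪ W') k = S.cnt W k + S.cnt W' k := by
  unfold cnt
  rw [union_inter_distrib_right]
  exact ncard_union_eq (h.mono inter_subset_left inter_subset_left) (S.fin_le _ _) (S.fin_le _ _)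

lemma cnt_union_le (W W' : Set α) (k : ℕ) : S.cnt (W ∪ W') k ≤ S.cnt W k + S.cnt W' k := by
  unfold cnt
  rw [union_inter_distrib_right]
  exact ncard_union_le _ _

lemma blk_le_cnt (W : Set α) (k : ℕ) : S.blk W k ≤ S.cnt W k :=
  ncard_le_ncard (inter_subset_inter_right _ (fun _ hx => le_of_eq hx)) (S.fin_le _ _)

lemma cnt_le (W : Set α) (k : ℕ) : S.cnt W k ≤ S.blk W k + {x | S.b x < k}.ncard := by
  unfold cnt blk
  refine le_trans (ncard_le_ncard ?_ ?_) (ncard_union_le _ _)
  · intro x hx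
    rcases lt_or_eq_of_le (show S.b x ≤ k from hx.2) with h | h
    · exact Or.inr h
    · exact Or.inl ⟨hx.1, h⟩
  · exact (S.fin_eq _ _).union ((S.fin k).subset (fun x (hx : S.b x < k) => (le_of_lt hx : S.b x ≤ k)))

lemma Null.mono {S : Blk α} {W W' : Set α} (h : S.Null W') (hs : W ⊆ W') : S.Null W := by
  refine squeeze_zero (fun k => div_nonneg (Nat.cast_nonneg _) (S.pos k).le) (fun k => ?_) h
  exact div_le_div_of_nonneg_right (by exact_mod_cast S.blk_mono hs k) (S.pos k).le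

lemma Null.union {S : Blk α} {W W' : Set α} (h : S.Null W) (h' : S.Null W') : S.Null (W ∪ W') := by
  have := h.add h'
  rw [add_zero] at this
  refine squeeze_zero (fun k => div_nonneg (Nat.cast_nonneg _) (S.pos k).le) (fun k => ?_) this
  rw [← add_div]
  exact div_le_div_of_nonneg_right (by exact_mod_cast S.blk_union_le W W' k) (S.pos k).le

lemma null_empty : S.Null ∅ := by
  unfold Null blk
  simp

lemma null_singleton (e : α) : S.Null {e} := by
  refine squeeze_zero (fun k => div_nonneg (Nat.cast_nonneg _) (S.pos k).le) (fun k => ?_) S.inv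
  refine div_le_div_of_nonneg_right ?_ (S.pos k).le
  have : S.blk {e} k ≤ 1 := by
    unfold blk
    calc _ ≤ ({e} : Set α).ncard := ncard_le_ncard inter_subset_left (finite_singleton _)
      _ = 1 := ncard_singleton _
  exact_mod_cast this

lemma Null.cnt {S : Blk α} {W : Set α} (h : S.Null W) :
    Tendsto (fun k => (S.cnt W k : ℝ) / S.n k) atTop (𝓝 0) := by
  have := h.add S.small
  rw [add_zero] at this
  refine squeeze_zero (fun k => div_nonneg (Nat.cast_nonneg _) (S.pos k).le) (fun k => ?_) this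
  rw [← add_div]
  exact div_le_div_of_nonneg_right (by exact_mod_cast S.cnt_le W k) (S.pos k).le

/-- congruence mod the ideal -/
def Eqv (B C : Set α) : Prop := S.Null (B \ C) ∧ S.Null (C \ B)

/-- deviation of `B` from `C` -/
noncomputable def dev (C B : Set α) (k : ℕ) : ℝ := (S.cnt B k : ℝ) - S.cnt C k

lemma dev_tendsto {C B : Set α} (h : S.Eqv B C) :
    Tendsto (fun k => S.dev C B k / S.n k) atTop (𝓝 0) := by
  have h1 := h.1.cnt.sub h.2.cnt
  rw [sub_zero] at h1
  refine h1.congr (fun k => ?_)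
  rw [← sub_div]
  congr 1
  have e1 : S.cnt B k = S.cnt (B \ C) k + S.cnt (B ∩ C) k := by
    rw [← S.cnt_union _ _ disjoint_sdiff_inter, sdiff_union_inter]
  have e2 : S.cnt C k = S.cnt (C \ B) k + S.cnt (B ∩ C) k := by
    rw [inter_comm B C, ← S.cnt_union _ _ disjoint_sdiff_inter, sdiff_union_inter]
  unfold dev
  rw [e1, e2]; push_cast; ring

lemma dev_mono {C B B' : Set α} (h : B ⊆ B') (k : ℕ) : S.dev C B k ≤ S.dev C B' k := by
  unfold dev
  have : (S.cnt B k : ℝ) ≤ S.cnt B' k := by exact_mod_cast S.cnt_mono h k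
  linarith

lemma dev_union {C B Y : Set α} (h : Disjoint B Y) (k : ℕ) :
    S.dev C (B ∪ Y) k = S.dev C B k + S.cnt Y k := by
  unfold dev
  rw [S.cnt_union _ _ h]; push_cast; ring

lemma cnt_singleton (e : α) (k : ℕ) : S.cnt {e} k = if S.b e ≤ k then 1 else 0 := by
  unfold cnt
  split_ifs with h
  · rw [inter_eq_left.2 (by simpa using h), ncard_singleton]
  · rw [show ({e} : Set α) ∩ {x | S.b x ≤ k} = ∅ by
      ext x; simp only [mem_inter_iff, mem_singleton_iff, mem_ofPred_eq, mem_empty_iff_false,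
        iff_false, not_and]; rintro rfl; exact h]
    simp

lemma dev_insert {C B : Set α} {e : α} (he : e ∉ B) (k : ℕ) :
    S.dev C (insert e B) k = S.dev C B k + if S.b e ≤ k then 1 else 0 := by
  rw [← union_singleton, S.dev_union (by simpa using he), cnt_singleton]
  split_ifs <;> simp

lemma dev_congr {C B B' : Set α} {k : ℕ} (h : ∀ x, S.b x ≤ k → (x ∈ B ↔ x ∈ B')) :
    S.dev C B k = S.dev C B' k := by
  unfold dev cnt
  have : B ∩ {x | S.b x ≤ k} = B' ∩ {x | S.b x ≤ k} := by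
    ext x
    simp only [mem_inter_iff, mem_ofPred_eq]
    constructor
    · rintro ⟨a, b⟩; exact ⟨(h x b).1 a, b⟩
    · rintro ⟨a, b⟩; exact ⟨(h x b).2 a, b⟩
  rw [this]

/-- the records rule -/
def Ind (d : ℕ → ℝ) : Prop := ∀ᶠ s in atTop, ∃ s', s ≤ s' ∧ d s / S.n s + d s' / S.n s' ≤ 0

lemma Ind.mono {S : Blk α} {d d' : ℕ → ℝ} (h : S.Ind d') (hd : ∀ᶠ s in atTop, d s ≤ d' s) :
    S.Ind d := by
  obtain ⟨t, ht⟩ := eventually_atTop.1 hd
  filter_upwards [h, eventually_ge_atTop t] with s hs hst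
  obtain ⟨s', h1, h2⟩ := hs
  refine ⟨s', h1, le_trans (add_le_add ?_ ?_) h2⟩
  · exact div_le_div_of_nonneg_right (ht s hst) (S.pos _).le
  · exact div_le_div_of_nonneg_right (ht s' (hst.trans h1)) (S.pos _).le

/-- bases of the class of `C` -/
def Good (C B : Set α) : Prop :=
  S.Eqv B C ∧ S.Ind (S.dev C B) ∧ ¬ S.Ind (fun k => S.dev C B k + 1)

lemma Good.eq_of_subset {S : Blk α} {C B B' : Set α} (h : S.Good C B) (h' : S.Good C B')
    (hs : B ⊆ B') : B = B' := by
  by_contra hne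
  obtain ⟨e, he', he⟩ : ∃ e, e ∈ B' ∧ e ∉ B := by
    by_contra hc
    push Not at hc
    exact hne (hs.antisymm hc)
  apply h.2.2
  refine h'.2.1.mono ?_
  filter_upwards [eventually_ge_atTop (S.b e)] with s hs'
  have h1 := S.dev_insert (C := C) he s
  rw [if_pos hs'] at h1
  rw [← h1]
  exact S.dev_mono (insert_subset he' hs) s

lemma Eqv.exchange {S : Blk α} {C B : Set α} (h : S.Eqv B C) (e f : α) :
    S.Eqv (insert f (B \ {e})) C := by
  constructor
  · refine (h.1.union (S.null_singleton f)).mono ?_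
    rintro x ⟨hx | hx, hc⟩
    · exact Or.inr hx
    · exact Or.inl ⟨hx.1, hc⟩
  · refine (h.2.union (S.null_singleton e)).mono ?_
    rintro x ⟨hx, hc⟩
    by_cases hxe : x = e
    · exact Or.inr hxe
    · exact Or.inl ⟨hx, fun hb => hc (Or.inr ⟨hb, hxe⟩)⟩

lemma Good.exchange {S : Blk α} {C B : Set α} (h : S.Good C B) {e f : α} (he : e ∈ B)
    (hf : f ∉ B) : S.Good C (insert f (B \ {e})) := by
  have key : ∀ᶠ s in atTop, S.dev C (insert f (B \ {e})) s = S.dev C B s := by
    filter_upwards [eventually_ge_atTop (S.b e), eventually_ge_atTop (S.b f)] with s h1 h2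
    have a1 := S.dev_insert (C := C) (B := B \ {e}) (e := f) (fun hh => hf hh.1) s
    have a2 := S.dev_insert (C := C) (B := B \ {e}) (e := e) (fun hh => hh.2 rfl) s
    rw [if_pos h2] at a1
    rw [if_pos h1, insert_sdiff_singleton, insert_eq_of_mem he] at a2
    rw [a1, a2]
  refine ⟨h.1.exchange e f, h.2.1.mono ?_, fun hc => h.2.2 (hc.mono ?_)⟩
  · filter_upwards [key] with s hs using hs.le
  · filter_upwards [key] with s hs using by rw [hs]

lemma Eqv.between {S : Blk α} {C I X R : Set α} (hI : S.Eqv I C) (hX : S.Eqv X C)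
    (h1 : I ⊆ R) (h2 : R ⊆ X) : S.Eqv R C :=
  ⟨hX.1.mono (sdiff_subset_sdiff_left h2), hI.2.mono (sdiff_subset_sdiff_right h1)⟩

/-- finite stepping -/
lemma ivt_fin {C : Set α} (F : Set α) (hF : F.Finite) :
    ∀ I : Set α, S.Eqv I C → S.Eqv (I ∪ F) C → S.Ind (S.dev C I) → ¬ S.Ind (S.dev C (I ∪ F)) →
      ∃ B, S.Good C B ∧ I ⊆ B ∧ B ⊆ I ∪ F := by
  induction F, hF using Set.Finite.induction_on with
  | empty => intro I _ _ h1 h2; rw [union_empty] at h2; exact absurd h1 h2
  | @insert e F heF hF ih =>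
    intro I hI hX h1 h2
    have hsub : I ∪ F ⊆ I ∪ insert e F := union_subset_union_right _ (subset_insert _ _)
    have hIF : S.Eqv (I ∪ F) C := hI.between hX subset_union_left hsub
    by_cases hc : S.Ind (S.dev C (I ∪ F))
    · refine ⟨I ∪ F, ⟨hIF, hc, fun hh => h2 (hh.mono ?_)⟩, subset_union_left, hsub⟩
      refine Eventually.of_forall (fun s => ?_)
      by_cases he : e ∈ I ∪ F
      · rw [union_insert, insert_eq_of_mem he]; linarith
      · rw [union_insert, S.dev_insert he]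
        split_ifs <;> linarith
    · obtain ⟨B, a, b, c⟩ := ih I hI hIF h1 hc
      exact ⟨B, a, b, c.trans hsub⟩

/-- intermediate value property inside a class -/
lemma ivt {C I X : Set α} (hI : S.Eqv I C) (hX : S.Eqv X C) (hIX : I ⊆ X)
    (h1 : S.Ind (S.dev C I)) (h2 : ¬ S.Ind (S.dev C X)) : ∃ B, S.Good C B ∧ I ⊆ B ∧ B ⊆ X := by
  obtain ⟨t₀, ht₀⟩ := eventually_atTop.1 h1
  let P : Set (Set α) := {R | I ⊆ R ∧ R ⊆ X ∧
    ∀ s ≥ t₀, ∃ s', s ≤ s' ∧ S.dev C R s / S.n s + S.dev C R s' / S.n s' ≤ 0}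
  have hIP : I ∈ P := ⟨Subset.rfl, hIX, ht₀⟩
  obtain ⟨R, -, hR⟩ : ∃ m, I ⊆ m ∧ Maximal (· ∈ P) m := by
    refine zorn_subset_nonempty P (fun c hc hch hne => ?_) I hIP
    refine ⟨⋃₀ c, ⟨?_, ?_, ?_⟩, fun s hs => subset_sUnion_of_mem hs⟩
    · obtain ⟨r, hr⟩ := hne
      exact (hc hr).1.trans (subset_sUnion_of_mem hr)
    · exact sUnion_subset (fun r hr => (hc hr).2.1)
    · -- finite approximation
      have happrox : ∀ m : ℕ, ∃ r ∈ c, ∀ x, S.b x ≤ m → (x ∈ r ↔ x ∈ ⋃₀ c) := by
        intro m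
        have hfin : ((⋃₀ c) ∩ {x | S.b x ≤ m}).Finite := S.fin_le _ _
        obtain ⟨r, hr, hsub⟩ : ∃ r ∈ c, (⋃₀ c) ∩ {x | S.b x ≤ m} ⊆ r :=
          hch.directedOn.exists_mem_subset_of_finite_of_subset_sUnion hne hfin inter_subset_left
        exact ⟨r, hr, fun x hx => ⟨fun h => subset_sUnion_of_mem hr h, fun h => hsub ⟨h, hx⟩⟩⟩
      intro s hs
      by_cases hd : S.dev C (⋃₀ c) s / S.n s ≤ 0
      · exact ⟨s, le_rfl, by linarith⟩
      · push Not at hd
        have ht := S.dev_tendsto hI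
        have := (ht.eventually (lt_mem_nhds (neg_lt_zero.2 hd)))
        obtain ⟨m, hm⟩ := eventually_atTop.1 this
        obtain ⟨r, hr, hrm⟩ := happrox (max m s)
        obtain ⟨s', hs1, hs2⟩ := (hc hr).2.2 s hs
        have e1 : S.dev C r s = S.dev C (⋃₀ c) s :=
          S.dev_congr (fun x hx => hrm x (hx.trans (le_max_right _ _)))
        have hs'm : s' < m := by
          by_contra hcon
          push Not at hcon
          have a1 := hm s' hcon
          have a2 : S.dev C I s' / S.n s' ≤ S.dev C r s' / S.n s' :=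
            div_le_div_of_nonneg_right (S.dev_mono (hc hr).1 s') (S.pos _).le
          rw [e1] at hs2
          linarith
        have e2 : S.dev C r s' = S.dev C (⋃₀ c) s' :=
          S.dev_congr (fun x hx => hrm x (hx.trans (hs'm.le.trans (le_max_left _ _))))
        exact ⟨s', hs1, by rw [← e1, ← e2]; exact hs2⟩
  have hRP := hR.prop
  have hRC : S.Eqv R C := hI.between hX hRP.1 hRP.2.1
  have hRind : S.Ind (S.dev C R) := eventually_atTop.2 ⟨t₀, hRP.2.2⟩
  by_cases hfin : (X \ R).Finite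
  · have hXe : R ∪ (X \ R) = X := union_sdiff_cancel hRP.2.1
    obtain ⟨B, a, b, c⟩ := S.ivt_fin (X \ R) hfin R hRC (by rwa [hXe]) hRind (by rwa [hXe])
    exact ⟨B, a, hRP.1.trans b, by rwa [hXe] at c⟩
  · refine ⟨R, ⟨hRC, hRind, fun hh => ?_⟩, hRP.1, hRP.2.1⟩
    obtain ⟨t₁, ht₁⟩ := eventually_atTop.1 hh
    have hw : ∀ s, ∃ s', t₀ ≤ s → s ≤ s' ∧ S.dev C R s / S.n s + S.dev C R s' / S.n s' ≤ 0 := by
      intro s
      by_cases h : t₀ ≤ s
      · obtain ⟨s', hs'⟩ := hRP.2.2 s h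
        exact ⟨s', fun _ => hs'⟩
      · exact ⟨0, fun h' => absurd h' h⟩
    choose w hw using hw
    let m := (Finset.range t₁).sup w
    obtain ⟨e, he, hem⟩ : ∃ e ∈ X \ R, m < S.b e := by
      by_contra hc
      push Not at hc
      exact hfin ((S.fin m).subset hc)
    have hle : ∀ s, S.dev C (insert e R) s ≤ S.dev C R s + 1 := by
      intro s
      rw [S.dev_insert he.2]
      split_ifs <;> linarith
    have heq : ∀ s, s ≤ m → S.dev C (insert e R) s = S.dev C R s := by
      intro s hs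
      rw [S.dev_insert he.2, if_neg (by omega), add_zero]
    have hP : insert e R ∈ P := by
      refine ⟨hRP.1.trans (subset_insert _ _), insert_subset he.1 hRP.2.1, fun s hs => ?_⟩
      by_cases h : t₁ ≤ s
      · obtain ⟨s', a, b⟩ := ht₁ s h
        refine ⟨s', a, le_trans (add_le_add ?_ ?_) b⟩
        · exact div_le_div_of_nonneg_right (hle _) (S.pos _).le
        · exact div_le_div_of_nonneg_right (hle _) (S.pos _).le
      · push Not at h
        have hwm : w s ≤ m := Finset.le_sup (f := w) (Finset.mem_range.2 h)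
        obtain ⟨a, b⟩ := hw s hs
        exact ⟨w s, a, by rw [heq s (a.trans hwm), heq _ hwm]; exact b⟩
    have := hR.le_of_ge hP (subset_insert _ _)
    exact he.2 (this (mem_insert _ _))

end Blk

end Crest.Agent.H7.Mt
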