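import Crest.Agent.H7.MtA

set_option autoImplicit false

open Set Filter Topology

namespace Crest.Agent.H7.Mt

namespace Blk

variable {α : Type} (S : Blk α)

/-- a non-null set has positive density in infinitely many blocks -/
lemma exists_freq {W : Set α} (h : ¬ S.Null W) :
    ∃ ε > 0, ∃ᶠ k in atTop, ε ≤ (S.blk W k : ℝ) / S.n k := by
  by_contra hc
  push Not at hc
  apply h
  refine tendsto_order.2 ⟨fun a ha => Eventually.of_forall (fun k => ?_), fun a ha => ?_⟩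
  · exact lt_of_lt_of_le ha (div_nonneg (Nat.cast_nonneg _) (S.pos k).le)
  · exact hc a ha

/-- choose a null subset with prescribed small densities -/
lemma exists_null_subset (W : Set α) (θ : ℕ → ℝ) (hθ0 : ∀ k, 0 ≤ θ k)
    (hθ : Tendsto θ atTop (𝓝 0)) :
    ∃ Y ⊆ W, S.Null Y ∧ ∀ k, θ k ≤ (S.blk W k : ℝ) / S.n k → θ k ≤ (S.blk Y k : ℝ) / S.n k := by
  have hch : ∀ k, ∃ T ⊆ W ∩ {x | S.b x = k}, T.ncard = min (S.blk W k) ⌈θ k * S.n k⌉₊ :=
    fun k => exists_subset_card_eq (min_le_left _ _)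
  choose T hT hTc using hch
  have hb : ∀ k, S.blk (⋃ j, T j) k = min (S.blk W k) ⌈θ k * S.n k⌉₊ := by
    intro k
    rw [← hTc k]
    unfold blk
    congr 1
    ext x
    simp only [mem_inter_iff, mem_iUnion, mem_ofPred_eq]
    constructor
    · rintro ⟨⟨j, hj⟩, hx⟩
      have : S.b x = j := (hT j hj).2
      rw [hx] at this
      rwa [this]
    · intro hx
      exact ⟨⟨k, hx⟩, (hT k hx).2⟩
  refine ⟨⋃ j, T j, iUnion_subset (fun j => (hT j).trans inter_subset_left), ?_, ?_⟩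
  · have := hθ.add S.inv
    rw [add_zero] at this
    refine squeeze_zero (fun k => div_nonneg (Nat.cast_nonneg _) (S.pos k).le) (fun k => ?_) this
    rw [hb, div_le_iff₀ (S.pos k), add_mul, one_div_mul_cancel (S.pos k).ne']
    have h1 : ((min (S.blk W k) ⌈θ k * S.n k⌉₊ : ℕ) : ℝ) ≤ (⌈θ k * S.n k⌉₊ : ℝ) := by
      exact_mod_cast min_le_right _ _
    exact h1.trans (Nat.ceil_lt_add_one (mul_nonneg (hθ0 k) (S.pos k).le)).le
  · intro k hk
    rw [hb, le_div_iff₀ (S.pos k)]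
    rw [le_div_iff₀ (S.pos k)] at hk
    rcases min_choice (S.blk W k) ⌈θ k * S.n k⌉₊ with h | h
    · rw [h]; exact hk
    · rw [h]; exact Nat.le_ceil _

/-- antitone envelope of a null sequence -/
lemma exists_env (d : ℕ → ℝ) (hd : Tendsto d atTop (𝓝 0)) :
    ∃ η : ℕ → ℝ, (∀ k, 0 < η k) ∧ Tendsto η atTop (𝓝 0) ∧ ∀ s s', s ≤ s' → |d s'| ≤ η s := by
  have hab : Tendsto (fun k => |d k|) atTop (𝓝 0) := by simpa using hd.abs
  have hbdd : BddAbove (range (fun k => |d k|)) := hab.bddAbove_range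
  have hb : ∀ s, BddAbove (range (fun j => |d (s + j)|)) := by
    intro s
    refine hbdd.mono ?_
    rintro _ ⟨j, rfl⟩
    exact ⟨s + j, rfl⟩
  refine ⟨fun s => (⨆ j, |d (s + j)|) + 1 / ((s : ℝ) + 1), fun s => ?_, ?_, fun s s' h => ?_⟩
  · have : 0 ≤ ⨆ j, |d (s + j)| := le_trans (abs_nonneg _) (le_ciSup (hb s) 0)
    positivity
  · have h2 : Tendsto (fun s : ℕ => ⨆ j, |d (s + j)|) atTop (𝓝 0) := by
      refine tendsto_order.2 ⟨fun a ha => Eventually.of_forall (fun s => ?_), fun a ha => ?_⟩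
      · exact lt_of_lt_of_le ha (le_trans (abs_nonneg _) (le_ciSup (hb s) 0))
      · obtain ⟨m, hm⟩ := eventually_atTop.1 (hab.eventually (gt_mem_nhds (half_pos ha)))
        filter_upwards [eventually_ge_atTop m] with s hs
        exact lt_of_le_of_lt (ciSup_le (fun j => (hm _ (hs.trans (Nat.le_add_right _ _))).le))
          (half_lt_self ha)
    simpa using h2.add tendsto_one_div_add_atTop_nhds_zero_nat
  · obtain ⟨j, rfl⟩ := Nat.exists_eq_add_of_le h
    have : (0 : ℝ) ≤ 1 / ((s : ℝ) + 1) := by positivity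
    linarith [le_ciSup (hb s) j]

lemma upper {C I W : Set α} (hI : S.Eqv I C) (hW : ¬ S.Null W) (hd : Disjoint I W) :
    ∃ Y ⊆ W, S.Eqv (I ∪ Y) C ∧ ¬ S.Ind (S.dev C (I ∪ Y)) := by
  obtain ⟨ε, hε, hfr⟩ := S.exists_freq hW
  obtain ⟨η, hη0, hη, hle⟩ := exists_env _ (S.dev_tendsto hI)
  have h3 : Tendsto (fun k => 3 * η k) atTop (𝓝 0) := by simpa using hη.const_mul 3
  obtain ⟨Y, hYW, hY, hYb⟩ := S.exists_null_subset W (fun k => 3 * η k)
    (fun k => by have := hη0 k; positivity) h3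
  have hdY : Disjoint I Y := hd.mono_right hYW
  refine ⟨Y, hYW, ⟨(hI.1.union hY).mono ?_, hI.2.mono (sdiff_subset_sdiff_right subset_union_left)⟩,
    fun hc => ?_⟩
  · rintro x ⟨hx | hx, hc⟩
    · exact Or.inl ⟨hx, hc⟩
    · exact Or.inr hx
  · obtain ⟨s, hs1, hs2, s', hs3, hs4⟩ :=
      (hfr.and_eventually ((h3.eventually (gt_mem_nhds hε)).and hc)).exists
    have a1 := hYb s (hs2.le.trans hs1)
    rw [S.dev_union hdY, S.dev_union hdY, add_div, add_div] at hs4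
    have a2 := abs_le.1 (hle s s le_rfl)
    have a3 := abs_le.1 (hle s s' hs3)
    have a4 : (S.blk Y s : ℝ) / S.n s ≤ (S.cnt Y s : ℝ) / S.n s :=
      div_le_div_of_nonneg_right (by exact_mod_cast S.blk_le_cnt Y s) (S.pos _).le
    have a5 : 0 ≤ (S.cnt Y s' : ℝ) / S.n s' := div_nonneg (Nat.cast_nonneg _) (S.pos _).le
    have := hη0 s
    linarith

lemma lower {C X W : Set α} (hX : S.Eqv X C) (hW : ¬ S.Null W) (hd : W ⊆ X) :
    ∃ Y ⊆ W, S.Eqv (X \ Y) C ∧ S.Ind (S.dev C (X \ Y)) := by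
  classical
  obtain ⟨ε, hε, hfr⟩ := S.exists_freq hW
  obtain ⟨η, hη0, hη, hle⟩ := exists_env _ (S.dev_tendsto hX)
  let p : ℕ → Prop := fun k => ε ≤ (S.blk W k : ℝ) / S.n k
  -- previous element of the good set
  let q : ℕ → ℕ := fun k => Nat.findGreatest p (k - 1)
  have hq : Tendsto q atTop atTop := by
    refine tendsto_atTop.2 (fun m => ?_)
    obtain ⟨j, hj, hpj⟩ := frequently_atTop.1 hfr m
    filter_upwards [eventually_ge_atTop (j + 1)] with k hk
    exact hj.trans (Nat.le_findGreatest (by omega) hpj)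
  have h3 : Tendsto (fun k => 2 * η (q k)) atTop (𝓝 0) := by
    simpa using (hη.comp hq).const_mul 2
  obtain ⟨Y, hYW, hY, hYb⟩ := S.exists_null_subset W (fun k => 2 * η (q k))
    (fun k => by have := hη0 (q k); positivity) h3
  have hXe : X \ Y ∪ Y = X := sdiff_union_of_subset (hYW.trans hd)
  have hdev : ∀ k, S.dev C (X \ Y) k = S.dev C X k - S.cnt Y k := by
    intro k
    have := S.dev_union (C := C) (B := X \ Y) (Y := Y) disjoint_sdiff_left k
    rw [hXe] at this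
    linarith
  refine ⟨Y, hYW, ⟨hX.1.mono (sdiff_subset_sdiff_left sdiff_subset), (hX.2.union hY).mono ?_⟩, ?_⟩
  · rintro x ⟨hx, hc⟩
    by_cases hy : x ∈ Y
    · exact Or.inr hy
    · exact Or.inl ⟨hx, fun hh => hc ⟨hh, hy⟩⟩
  · obtain ⟨m, hm⟩ := eventually_atTop.1 (h3.eventually (gt_mem_nhds hε))
    filter_upwards [eventually_ge_atTop m] with s hs
    have hex : ∃ k, s ≤ k ∧ p k := frequently_atTop.1 hfr s
    let k := Nat.find hex
    have hk : s ≤ k ∧ p k := Nat.find_spec hex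
    have hqk : q k ≤ s := by
      by_contra hc
      push Not at hc
      have h0 : q k ≠ 0 := by omega
      have hp : p (q k) := Nat.findGreatest_of_ne_zero rfl h0
      have hl : q k ≤ k - 1 := Nat.findGreatest_le _
      have := Nat.find_min hex (m := q k) (by omega)
      exact this ⟨hc.le, hp⟩
    refine ⟨k, hk.1, ?_⟩
    have a1 := hYb k ((hm k (hs.trans hk.1)).le.trans hk.2)
    rw [hdev, hdev, sub_div, sub_div]
    have a2 := abs_le.1 (hle (q k) s hqk)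
    have a3 := abs_le.1 (hle (q k) k (hqk.trans hk.1))
    have a4 : (S.blk Y k : ℝ) / S.n k ≤ (S.cnt Y k : ℝ) / S.n k :=
      div_le_div_of_nonneg_right (by exact_mod_cast S.blk_le_cnt Y k) (S.pos _).le
    have a5 : 0 ≤ (S.cnt Y s : ℝ) / S.n s := div_nonneg (Nat.cast_nonneg _) (S.pos _).le
    linarith

lemma above {C X : Set α} (hC : ¬ S.Null Cᶜ) (hX : S.Eqv X C) (h : S.Ind (S.dev C X)) :
    ∃ B, S.Good C B ∧ X ⊆ B := by
  have hW : ¬ S.Null Xᶜ := by
    intro hc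
    apply hC
    refine (hc.union hX.1).mono (fun x hx => ?_)
    by_cases h : x ∈ X
    · exact Or.inr ⟨h, hx⟩
    · exact Or.inl h
  obtain ⟨Y, -, h1, h2⟩ := S.upper hX hW disjoint_compl_right
  obtain ⟨B, a, b, -⟩ := S.ivt hX h1 subset_union_left h h2
  exact ⟨B, a, b⟩

lemma below {C I : Set α} (hC : ¬ S.Null C) (hI : S.Eqv I C) (h : ¬ S.Ind (S.dev C I)) :
    ∃ B, S.Good C B ∧ B ⊆ I := by
  have hW : ¬ S.Null I := by
    intro hc
    apply hC
    refine (hc.union hI.2).mono (fun x hx => ?_)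
    by_cases h : x ∈ I
    · exact Or.inl h
    · exact Or.inr ⟨hx, h⟩
  obtain ⟨Y, -, h1, h2⟩ := S.lower hI hW Subset.rfl
  obtain ⟨B, a, -, b⟩ := S.ivt h1 hI sdiff_subset h2 h
  exact ⟨B, a, b⟩

lemma tri_between {C I X : Set α} (hC : ¬ S.Null C) (hC' : ¬ S.Null Cᶜ) (hIX : I ⊆ X)
    (h1 : S.Null (I \ C)) (h2 : S.Null (C \ X)) :
    ∃ B, S.Good C B ∧ (B ⊆ I ∨ X ⊆ B ∨ (I ⊆ B ∧ B ⊆ X)) := by
  let R := (C ∪ I) ∩ X
  have hIR : I ⊆ R := subset_inter subset_union_right hIX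
  have hRX : R ⊆ X := inter_subset_right
  have hR : S.Eqv R C := by
    constructor
    · refine h1.mono ?_
      rintro x ⟨⟨hx | hx, -⟩, hc⟩
      · exact absurd hx hc
      · exact ⟨hx, hc⟩
    · refine h2.mono ?_
      rintro x ⟨hx, hc⟩
      exact ⟨hx, fun hh => hc ⟨Or.inl hx, hh⟩⟩
  by_cases hind : S.Ind (S.dev C R)
  · by_cases hn : S.Null (X \ R)
    · have hX : S.Eqv X C := by
        refine ⟨(hn.union hR.1).mono (fun x hx => ?_), h2⟩
        by_cases h : x ∈ R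
        · exact Or.inr ⟨h, hx.2⟩
        · exact Or.inl ⟨hx.1, h⟩
      by_cases hx : S.Ind (S.dev C X)
      · obtain ⟨B, a, b⟩ := S.above hC' hX hx
        exact ⟨B, a, Or.inr (Or.inl b)⟩
      · obtain ⟨B, a, b, c⟩ := S.ivt hR hX hRX hind hx
        exact ⟨B, a, Or.inr (Or.inr ⟨hIR.trans b, c⟩)⟩
    · obtain ⟨Y, hY, a1, a2⟩ := S.upper hR hn disjoint_sdiff_right
      obtain ⟨B, a, b, c⟩ := S.ivt hR a1 subset_union_left hind a2
      exact ⟨B, a, Or.inr (Or.inr ⟨hIR.trans b,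
        c.trans (union_subset hRX (hY.trans sdiff_subset))⟩)⟩
  · by_cases hn : S.Null (R \ I)
    · have hI : S.Eqv I C := by
        refine ⟨h1, (hn.union hR.2).mono (fun x hx => ?_)⟩
        by_cases h : x ∈ R
        · exact Or.inl ⟨h, hx.2⟩
        · exact Or.inr ⟨hx.1, h⟩
      by_cases hx : S.Ind (S.dev C I)
      · obtain ⟨B, a, b, c⟩ := S.ivt hI hR hIR hx hind
        exact ⟨B, a, Or.inr (Or.inr ⟨b, c.trans hRX⟩)⟩
      · obtain ⟨B, a, b⟩ := S.below hC hI hx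
        exact ⟨B, a, Or.inl b⟩
    · obtain ⟨Y, hY, a1, a2⟩ := S.lower hR hn sdiff_subset
      obtain ⟨B, a, b, c⟩ := S.ivt a1 hR sdiff_subset a2 hind
      refine ⟨B, a, Or.inr (Or.inr ⟨fun x hx => b ⟨hIR hx, fun hy => (hY hy).2 hx⟩, c.trans hRX⟩)⟩

lemma tri {C I X : Set α} (hC : ¬ S.Null C) (hC' : ¬ S.Null Cᶜ) (hIX : I ⊆ X)
    (h : S.Null (C \ I) ∨ S.Null (X \ C) ∨ (S.Null (I \ C) ∧ S.Null (C \ X))) :
    ∃ B, S.Good C B ∧ (B ⊆ I ∨ X ⊆ B ∨ (I ⊆ B ∧ B ⊆ X)) := by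
  rcases h with h | h | h
  · obtain ⟨B, a, b⟩ := S.tri_between hC hC' (empty_subset I) (by simpa using S.null_empty) h
    rcases b with b | b | b
    · exact ⟨B, a, Or.inl (b.trans (empty_subset _))⟩
    · exact S.tri_between hC hC' hIX (a.1.1.mono (sdiff_subset_sdiff_left b))
        (h.mono (sdiff_subset_sdiff_right hIX))
    · exact ⟨B, a, Or.inl b.2⟩
  · obtain ⟨B, a, b⟩ := S.tri_between hC hC' (subset_univ X) h (by simpa using S.null_empty)
    rcases b with b | b | b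
    · exact S.tri_between hC hC' hIX (h.mono (sdiff_subset_sdiff_left hIX))
        (a.1.2.mono (sdiff_subset_sdiff_right b))
    · exact ⟨B, a, Or.inr (Or.inl ((subset_univ _).trans b))⟩
    · exact ⟨B, a, Or.inr (Or.inl b.1)⟩
  · exact S.tri_between hC hC' hIX h.1 h.2

lemma Eqv.compl {S : Blk α} {B C : Set α} (h : S.Eqv B C) : S.Eqv Bᶜ Cᶜ :=
  ⟨h.2.mono (fun _ hx => ⟨not_not.1 hx.2, hx.1⟩), h.1.mono (fun _ hx => ⟨not_not.1 hx.2, hx.1⟩)⟩

/-- A self-dual uniform matroid from a critical family. -/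
theorem exists_matroid [Nonempty α] (𝒞 : Set (Set α)) (hsym : ∀ C ∈ 𝒞, Cᶜ ∈ 𝒞)
    (hanti : ∀ C ∈ 𝒞, ∀ C' ∈ 𝒞, S.Null (C \ C') → C = C')
    (htask : ∀ I X : Set α, I ⊆ X → ∃ C ∈ 𝒞,
      S.Null (C \ I) ∨ S.Null (X \ C) ∨ (S.Null (I \ C) ∧ S.Null (C \ X))) :
    ∃ M : Matroid α, M.E = univ ∧ (∀ B, M.IsBase B → M.IsBase Bᶜ) ∧
      ∀ B, M.IsBase B → ∃ C ∈ 𝒞, S.Eqv B C := by
  let o : Set α → Prop := fun C => WellOrderingRel C Cᶜ
  have hne : ∀ C : Set α, C ≠ Cᶜ := by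
    intro C h
    obtain ⟨x⟩ := ‹Nonempty α›
    by_cases hx : x ∈ C
    · exact (h ▸ hx : x ∈ Cᶜ) hx
    · exact hx (h ▸ hx)
  have ho1 : ∀ C, o C ∨ o Cᶜ := by
    intro C
    rcases trichotomous_of WellOrderingRel C Cᶜ with h | h | h
    · exact Or.inl h
    · exact absurd h (hne C)
    · right; simpa [o] using h
  have ho2 : ∀ C, o C → ¬ o Cᶜ := by
    intro C h h'
    simp only [o, compl_compl] at h h'
    exact asymm h h'
  have hnn : ∀ C ∈ 𝒞, ¬ S.Null C := fun C hC h =>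
    hne C (hanti C hC _ (hsym C hC) (h.mono sdiff_subset))
  let Base : Set α → Prop := fun B => ∃ C ∈ 𝒞, o C ∧ (S.Good C B ∨ S.Good C Bᶜ)
  have hcompl : ∀ B, Base B → Base Bᶜ := by
    rintro B ⟨C, a, b, c⟩
    exact ⟨C, a, b, by rw [compl_compl]; exact c.symm⟩
  have hle : ∀ {B B' C C' : Set α}, S.Eqv B C → S.Eqv B' C' → B ⊆ B' → S.Null (C \ C') := by
    intro B B' C C' h h' hs
    refine (h.2.union h'.1).mono (fun x hx => ?_)
    by_cases hb : x ∈ B
    · exact Or.inr ⟨hs hb, hx.2⟩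
    · exact Or.inl ⟨hx.1, hb⟩
  have hA : ∀ B B', Base B → Base B' → B ⊆ B' → B = B' := by
    rintro B B' ⟨C, a, b, c⟩ ⟨C', a', b', c'⟩ hs
    rcases c with c | c <;> rcases c' with c' | c'
    · obtain rfl := hanti C a C' a' (hle c.1 c'.1 hs)
      exact c.eq_of_subset c' hs
    · have := c'.1.compl
      rw [compl_compl] at this
      obtain rfl := hanti C a _ (hsym C' a') (hle c.1 this hs)
      exact absurd b (ho2 _ b')
    · have := c.1.compl
      rw [compl_compl] at this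
      obtain rfl := hanti _ (hsym C a) C' a' (hle this c'.1 hs)
      exact absurd b' (ho2 _ b)
    · have hs' : B'ᶜ ⊆ Bᶜ := compl_subset_compl.2 hs
      obtain rfl := hanti C' a' C a (hle c'.1 c.1 hs')
      exact compl_injective (c'.eq_of_subset c hs').symm
  have hE : ∀ B e f, Base B → e ∈ B → f ∉ B → Base (insert f (B \ {e})) := by
    rintro B e f ⟨C, a, b, c⟩ he hf
    refine ⟨C, a, b, ?_⟩
    rcases c with c | c
    · exact Or.inl (c.exchange he hf)
    · right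
      have := c.exchange (e := f) (f := e) hf (fun h => h he)
      convert this using 1
      ext x
      simp only [mem_compl_iff, mem_insert_iff, Set.mem_sdiff, mem_singleton_iff]
      by_cases h1 : x = e
      · subst h1; simp; rintro rfl; exact hf he
      · by_cases h2 : x = f
        · subst h2; simp [h1]
        · simp [h1, h2]
  have hT : ∀ I X : Set α, I ⊆ X → ∃ B, Base B ∧ (B ⊆ I ∨ X ⊆ B ∨ (I ⊆ B ∧ B ⊆ X)) := by
    intro I X hIX
    obtain ⟨C, hC, h⟩ := htask I X hIX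
    rcases ho1 C with h1 | h1
    · obtain ⟨B, a, b⟩ := S.tri (hnn C hC) (hnn _ (hsym C hC)) hIX h
      exact ⟨B, ⟨C, hC, h1, Or.inl a⟩, b⟩
    · obtain ⟨B, a, b⟩ := S.tri (C := Cᶜ) (I := Xᶜ) (X := Iᶜ) (hnn _ (hsym C hC))
        (by rw [compl_compl]; exact hnn C hC) (compl_subset_compl.2 hIX) (by
          rcases h with h | h | h
          · right; left; exact h.mono (fun x hx => ⟨not_not.1 hx.2, hx.1⟩)
          · left; exact h.mono (fun x hx => ⟨not_not.1 hx.2, hx.1⟩)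
          · right; right
            exact ⟨h.2.mono (fun x hx => ⟨not_not.1 hx.2, hx.1⟩),
              h.1.mono (fun x hx => ⟨not_not.1 hx.2, hx.1⟩)⟩)
      refine ⟨Bᶜ, ⟨Cᶜ, hsym C hC, h1, Or.inr (by rwa [compl_compl])⟩, ?_⟩
      rcases b with b | b | b
      · right; left; exact subset_compl_comm.1 b
      · left; exact compl_subset_comm.1 b
      · right; right; exact ⟨subset_compl_comm.1 b.2, compl_subset_comm.1 b.1⟩
  refine ⟨⟨univ, Base, fun I => ∃ B, Base B ∧ I ⊆ B, fun _ => Iff.rfl, ?_, ?_, ?_,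
    fun _ _ => subset_univ _⟩, rfl, hcompl, ?_⟩
  · obtain ⟨B, a, -⟩ := hT ∅ ∅ Subset.rfl
    exact ⟨B, a⟩
  · intro B B' hB hB' e he
    have : ¬ B' ⊆ B := fun h => he.2 ((hA _ _ hB' hB h) ▸ he.1)
    obtain ⟨f, hf1, hf2⟩ := not_subset.1 this
    exact ⟨f, ⟨hf1, hf2⟩, hE B e f hB he.1 hf2⟩
  · rintro X - I ⟨B₀, hB₀, hI⟩ hIX
    obtain ⟨B, a, b⟩ := hT I X hIX
    have hmax : ∀ B, Base B → B ⊆ X →
        Maximal (fun K => (∃ B, Base B ∧ K ⊆ B) ∧ K ⊆ X) B := by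
      intro B hB hBX
      refine ⟨⟨⟨B, hB, Subset.rfl⟩, hBX⟩, ?_⟩
      rintro K ⟨⟨B', h1, h2⟩, -⟩ hK
      rw [hA B B' hB h1 (hK.trans h2)]
      exact h2
    rcases b with b | b | b
    · have e := hA B B₀ a hB₀ (b.trans hI)
      subst e
      exact ⟨B, hI, hmax B a (b.trans hIX)⟩
    · exact ⟨X, hIX, ⟨⟨B, a, b⟩, Subset.rfl⟩, fun K hK _ => hK.2⟩
    · exact ⟨B, b.1, hmax B a b.2⟩
  · rintro B ⟨C, a, -, c | c⟩
    · exact ⟨C, a, c.1⟩
    · refine ⟨Cᶜ, hsym C a, ?_⟩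
      have := c.1.compl
      rwa [compl_compl] at this

end Blk

end Crest.Agent.H7.Mt
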