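import Mathlib

set_option autoImplicit false

open Set Cardinal

namespace Crest.Agent.H7.Mt

theorem rec_exists {ι β : Type} [LinearOrder ι] [WellFoundedLT ι] (hι : ∀ i : ι, #(Iio i) < 𝔠)
    (Inv : Set β → Prop) (Q : ι → Set β → Set β → Prop) (Lab : ι → β → Prop)
    (hU : ∀ c : Set (Set β), IsChain (· ⊆ ·) c → (∀ s ∈ c, Inv s) → Inv (⋃₀ c))
    (hstep : ∀ i s, Inv s → #s < 𝔠 → (∀ x ∈ s, ∃ j < i, Lab j x) →
      ∃ t : Set β, t.Finite ∧ Inv (s ∪ t) ∧ (∀ x ∈ t, Lab i x) ∧ Q i s t) :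
    ∃ F : ι → Set β, Inv (⋃ i, F i) ∧ ∀ i, Q i (⋃ j < i, F j) (F i) := by
  classical
  let good : ι → Set β → Set β → Prop := fun i s t =>
    t.Finite ∧ Inv (s ∪ t) ∧ (∀ x ∈ t, Lab i x) ∧ Q i s t
  let step : (i : ι) → ((j : ι) → j < i → Set β) → Set β := fun i f =>
    if h : ∃ t, good i (⋃ j, ⋃ (hj : j < i), f j hj) t then h.choose else ∅
  let F : ι → Set β := (wellFounded_lt (α := ι)).fix step
  have hF : ∀ i, F i = step i (fun j _ => F j) := fun i => WellFounded.fix_eq _ _ _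
  have hchain : ∀ (A : Set ι), (∀ j ∈ A, good j (⋃ k < j, F k) (F j)) → IsLowerSet A →
      Inv (⋃ j ∈ A, F j) := by
    intro A hA hlow
    have := hU ((fun j => (⋃ k < j, F k) ∪ F j) '' A) ?_ ?_
    · convert this using 1
      ext x
      simp only [mem_iUnion, sUnion_image, mem_union]
      constructor
      · rintro ⟨j, hj, hx⟩; exact ⟨j, hj, Or.inr hx⟩
      · rintro ⟨j, hj, ⟨k, hk, hx⟩ | hx⟩
        · exact ⟨k, hlow hk.le hj, hx⟩
        · exact ⟨j, hj, hx⟩
    · have hm : ∀ j j', j < j' → (⋃ k < j, F k) ∪ F j ⊆ (⋃ k < j', F k) ∪ F j' := by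
        intro j j' h x hx
        left
        simp only [mem_iUnion, mem_union] at hx ⊢
        rcases hx with ⟨k, hk, hx⟩ | hx
        · exact ⟨k, hk.trans h, hx⟩
        · exact ⟨j, h, hx⟩
      rintro _ ⟨j, -, rfl⟩ _ ⟨j', -, rfl⟩ -
      rcases lt_trichotomy j j' with h | h | h
      · exact Or.inl (hm _ _ h)
      · subst h; exact Or.inl Subset.rfl
      · exact Or.inr (hm _ _ h)
    · rintro _ ⟨j, hj, rfl⟩
      exact (hA j hj).2.1
  have hgood : ∀ i, good i (⋃ j < i, F j) (F i) := by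
    intro i
    induction i using WellFoundedLT.induction with
    | ind i ih =>
      have hex : ∃ t, good i (⋃ j < i, F j) t := by
        refine hstep i _ (hchain (Iio i) ih (isLowerSet_Iio i)) ?_ ?_
        · have : (⋃ j < i, F j) = ⋃ j : Iio i, F j := by
            ext x; simp
          rw [this]
          refine lt_of_le_of_lt mk_iUnion_le_sum_mk ?_
          refine lt_of_le_of_lt (sum_le_sum _ (fun _ => ℵ₀) (fun j => ?_)) ?_
          · exact (ih j j.2).1.lt_aleph0.le
          · rw [sum_const']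
            exact mul_lt_of_lt aleph0_le_continuum (hι i) aleph0_lt_continuum
        · intro x hx
          simp only [mem_iUnion] at hx
          obtain ⟨j, hj, hx⟩ := hx
          exact ⟨j, hj, (ih j hj).2.2.1 x hx⟩
      rw [hF i]
      simp only [step]
      rw [dif_pos hex]
      exact hex.choose_spec
  refine ⟨F, ?_, fun i => (hgood i).2.2.2⟩
  have := hchain univ (fun j _ => hgood j) isLowerSet_univ
  simpa using this

theorem exists_index (T : Type) [Nonempty T] (hT : #T ≤ 𝔠) :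
    ∃ (ι : Type) (_ : LinearOrder ι) (_ : WellFoundedLT ι) (_ : Nonempty ι) (f : ι → T),
      (∀ i : ι, #(Iio i) < 𝔠) ∧ ∀ t i₀, ∃ i, i₀ < i ∧ f i = t := by
  let ι := (𝔠 : Cardinal.{0}).ord.ToType
  have hι : #ι = 𝔠 := mk_ord_toType _
  have hlt : ∀ i : ι, #(Iio i) < 𝔠 := fun i => mk_Iio_toType_ord_lt i
  have : Nonempty ι := by
    rw [← mk_ne_zero_iff, hι]; exact continuum_ne_zero
  have hle : #(T × ι) ≤ #ι := by
    rw [mk_prod, lift_id, lift_id, hι]
    calc #T * 𝔠 ≤ 𝔠 * 𝔠 := mul_le_mul_left hT _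
      _ = 𝔠 := continuum_mul_self
  obtain ⟨g⟩ := (Cardinal.le_def _ _).1 hle
  refine ⟨ι, inferInstance, inferInstance, inferInstance,
    fun i => (Function.invFun g i).1, hlt, fun t i₀ => ?_⟩
  by_contra hc
  push Not at hc
  have hsub : ∀ j : ι, g (t, j) ∈ Iic i₀ := by
    intro j
    by_contra h
    have h' : i₀ < g (t, j) := not_le.1 h
    apply hc _ h'
    rw [Function.leftInverse_invFun g.injective]
  have h1 : #ι ≤ #(Iic i₀) :=
    mk_le_of_injective (f := fun j => (⟨g (t, j), hsub j⟩ : Iic i₀)) (by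
      intro a b hab
      have := g.injective (congrArg Subtype.val hab)
      exact (Prod.ext_iff.1 this).2)
  have h2 : #(Iic i₀) < 𝔠 := by
    rw [← Iio_insert]
    exact lt_of_le_of_lt mk_insert_le
      (add_lt_of_lt aleph0_le_continuum (hlt i₀) (one_lt_aleph0.trans aleph0_lt_continuum))
  rw [hι] at h1
  exact absurd h2 (not_lt.2 h1)

end Crest.Agent.H7.Mt
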