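import Crest.Agent.H7.MtC

set_option autoImplicit false
set_option linter.unusedSectionVars false

open Set Cardinal

namespace Crest.Agent.H7.Mt

/-- An ideal with generic splitting. -/
structure Idl (L : Type) where
  N : Set L → Prop
  mono : ∀ {A B : Set L}, N B → A ⊆ B → N A
  union : ∀ {A B : Set L}, N A → N B → N (A ∪ B)
  empty : N ∅
  nuniv : ¬ N univ
  gen : ∀ A B : Set L, A ⊆ B → ∀ 𝒯 : Set (Set L), #𝒯 < 𝔠 → ∃ R, A ⊆ R ∧ R ⊆ B ∧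
    ∀ T ∈ 𝒯, (N (R \ T) → N (B \ T)) ∧ (N (T \ R) → N (T \ A))
  card : #(Set L) ≤ 𝔠

namespace Idl

variable {L : Type} (J : Idl L) {ι : Type} [LinearOrder ι] [WellFoundedLT ι]

def le (A B : Set L) : Prop := J.N (A \ B)

lemma le_of_subset {A B : Set L} (h : A ⊆ B) : J.le A B := by
  unfold le
  rw [sdiff_eq_empty.2 h]; exact J.empty

lemma le_refl (A : Set L) : J.le A A := J.le_of_subset Subset.rfl

lemma le.trans {J : Idl L} {A B C : Set L} (h : J.le A B) (h' : J.le B C) : J.le A C := by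
  refine J.mono (J.union h h') (fun x hx => ?_)
  by_cases hb : x ∈ B
  · exact Or.inr ⟨hb, hx.2⟩
  · exact Or.inl ⟨hx.1, hb⟩

lemma le.compl {J : Idl L} {A B : Set L} (h : J.le A B) : J.le Bᶜ Aᶜ :=
  J.mono h (fun _ hx => ⟨not_not.1 hx.2, hx.1⟩)

lemma le.compl_left {J : Idl L} {A B : Set L} (h : J.le Aᶜ B) : J.le Bᶜ A := by
  have := h.compl; rwa [compl_compl] at this

lemma le.compl_right {J : Idl L} {A B : Set L} (h : J.le A Bᶜ) : J.le B Aᶜ := by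
  have := h.compl; rwa [compl_compl] at this

lemma le_compl_iff {A B : Set L} : J.le A Bᶜ ↔ J.N (A ∩ B) := by
  unfold le; rw [sdiff_compl]

def le2 (S S' : Set L × Set L) : Prop := J.le S.1 S'.1 ∧ J.le S.2 S'.2

def cp (S : Set L × Set L) : Set L × Set L := (S.1ᶜ, S.2ᶜ)

@[simp] lemma cp_cp (S : Set L × Set L) : cp (cp S) = S := by simp [cp]
@[simp] lemma cp_fst (S : Set L × Set L) : (cp S).1 = S.1ᶜ := rfl
@[simp] lemma cp_snd (S : Set L × Set L) : (cp S).2 = S.2ᶜ := rfl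

lemma le2.trans {J : Idl L} {A B C : Set L × Set L} (h : J.le2 A B) (h' : J.le2 B C) :
    J.le2 A C := ⟨h.1.trans h'.1, h.2.trans h'.2⟩

lemma le2.cp {J : Idl L} {A B : Set L × Set L} (h : J.le2 A B) : J.le2 (cp B) (cp A) :=
  ⟨h.1.compl, h.2.compl⟩

lemma le2.cp_left {J : Idl L} {A B : Set L × Set L} (h : J.le2 (Idl.cp A) B) :
    J.le2 (Idl.cp B) A := by
  have := h.cp; rwa [cp_cp] at this

lemma le2.cp_right {J : Idl L} {A B : Set L × Set L} (h : J.le2 A (Idl.cp B)) :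
    J.le2 B (Idl.cp A) := by
  have := h.cp; rwa [cp_cp] at this

lemma le2_refl (A : Set L × Set L) : J.le2 A A := ⟨J.le_refl _, J.le_refl _⟩

def Plus (G : Set (Set L × ι)) (τ : Set L) (a : ι) : Prop := ∃ P, (P, a) ∈ G ∧ J.le P τ

def Dec (G : Set (Set L × ι)) (τ : Set L) : Prop := (∃ a, J.Plus G τ a) ∨ ∃ a, J.Plus G τᶜ a

lemma Plus.mono {J : Idl L} {G : Set (Set L × ι)} {τ τ' : Set L} {a : ι} (h : J.Plus G τ a)
    (h' : J.le τ τ') : J.Plus G τ' a := by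
  obtain ⟨P, a1, a2⟩ := h
  exact ⟨P, a1, a2.trans h'⟩

lemma Plus.monoG {J : Idl L} {G G' : Set (Set L × ι)} {τ : Set L} {a : ι} (h : J.Plus G τ a)
    (h' : G ⊆ G') : J.Plus G' τ a := by
  obtain ⟨P, a1, a2⟩ := h
  exact ⟨P, h' a1, a2⟩

lemma Dec.monoG {J : Idl L} {G G' : Set (Set L × ι)} {τ : Set L} (h : J.Dec G τ)
    (h' : G ⊆ G') : J.Dec G' τ := by
  rcases h with ⟨a, h⟩ | ⟨a, h⟩
  · exact Or.inl ⟨a, h.monoG h'⟩
  · exact Or.inr ⟨a, h.monoG h'⟩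

lemma Dec.compl {J : Idl L} {G : Set (Set L × ι)} {τ : Set L} (h : J.Dec G τ) : J.Dec G τᶜ := by
  rcases h with h | h
  · right; rwa [compl_compl]
  · left; exact h

structure Inv (G : Set (Set L × ι)) (𝒞 : Set (Set L × Set L)) : Prop where
  link : ∀ P a P' a', (P, a) ∈ G → (P', a') ∈ G → ¬ J.N (P ∩ P')
  sym : ∀ C ∈ 𝒞, cp C ∈ 𝒞
  anti : ∀ C ∈ 𝒞, ∀ C' ∈ 𝒞, J.le2 C C' → C = C'
  rule : ∀ C ∈ 𝒞, ∀ a, J.Plus G C.1 a → ∃ a' < a, J.Plus G C.2ᶜ a'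
  dec : ∀ C ∈ 𝒞, J.Dec G C.1

variable {J} {G : Set (Set L × ι)} {𝒞 : Set (Set L × Set L)}

lemma Inv.plus_link (h : J.Inv G 𝒞) {τ τ' : Set L} {a a' : ι} (h1 : J.Plus G τ a)
    (h2 : J.Plus G τ' a') : ¬ J.le τ τ'ᶜ := by
  obtain ⟨P, a1, a2⟩ := h1
  obtain ⟨P', b1, b2⟩ := h2
  intro hc
  exact h.link _ _ _ _ a1 b1 (J.le_compl_iff.1 ((a2.trans hc).trans b2.compl))

lemma Inv.plus_compl (h : J.Inv G 𝒞) {τ : Set L} {a a' : ι} (h1 : J.Plus G τ a)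
    (h2 : J.Plus G τᶜ a') : False :=
  h.plus_link h1 h2 (by rw [compl_compl]; exact J.le_refl _)

variable (J G 𝒞) in
def MustP (S : Set L × Set L) : Prop := ∃ a, J.Plus G S.1 a ∧ ¬ ∃ a' < a, J.Plus G S.2ᶜ a'

variable (J G 𝒞) in
def High (S : Set L × Set L) : Prop := J.MustP G S ∨ ∃ C ∈ 𝒞, J.le2 C S

lemma MustP.mono {S S' : Set L × Set L} (h : J.MustP G S) (h' : J.le2 S S') : J.MustP G S' := by
  obtain ⟨a, a1, a2⟩ := h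
  refine ⟨a, a1.mono h'.1, ?_⟩
  rintro ⟨a', b1, b2⟩
  exact a2 ⟨a', b1, b2.mono h'.2.compl⟩

lemma High.mono {S S' : Set L × Set L} (h : J.High G 𝒞 S) (h' : J.le2 S S') : J.High G 𝒞 S' := by
  rcases h with h | ⟨C, a, b⟩
  · exact Or.inl (h.mono h')
  · exact Or.inr ⟨C, a, b.trans h'⟩

lemma Inv.not_mustP (h : J.Inv G 𝒞) {C : Set L × Set L} (hC : C ∈ 𝒞) : ¬ J.MustP G C := by
  rintro ⟨a, a1, a2⟩
  exact a2 (h.rule C hC a a1)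

/-- high and low at the same time -/
lemma Inv.both (h : J.Inv G 𝒞) {S : Set L × Set L} (h1 : J.High G 𝒞 S)
    (h2 : J.High G 𝒞 (cp S)) : ∃ C ∈ 𝒞, J.le2 C S ∧ J.le2 S C := by
  rcases h1 with h1 | ⟨C, a, b⟩ <;> rcases h2 with h2 | ⟨C', a', b'⟩
  · obtain ⟨a, a1, -⟩ := h1
    obtain ⟨a', b1, -⟩ := h2
    exact (h.plus_compl a1 b1).elim
  · exact absurd (h1.mono b'.cp_right) (h.not_mustP (h.sym _ a'))
  · exact absurd (h2.mono b.cp) (h.not_mustP (h.sym _ a))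
  · have := h.anti _ a _ (h.sym _ a') (b.trans b'.cp_right)
    subst this
    exact ⟨_, a, b, b'.cp_right⟩

lemma Inv.not_le_cp (h : J.Inv G 𝒞) {S : Set L × Set L} (hd : J.Dec G S.1)
    (h2 : ¬ J.High G 𝒞 (cp S)) : ¬ J.le2 S (cp S) := by
  intro hc
  rcases hd with ⟨a, ha⟩ | ⟨a, ha⟩
  · exact h.plus_link ha ha hc.1
  · apply h2
    left
    refine ⟨a, ha, ?_⟩
    rintro ⟨a', -, b⟩
    rw [cp_snd, compl_compl] at b
    exact h.plus_link b b hc.2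

lemma Inv.addCrit (h : J.Inv G 𝒞) {S : Set L × Set L} (hd : J.Dec G S.1)
    (h1 : ¬ J.High G 𝒞 S) (h2 : ¬ J.High G 𝒞 (cp S)) : J.Inv G (𝒞 ∪ {S, cp S}) := by
  have h1' : ¬ J.High G 𝒞 (cp (cp S)) := by rwa [cp_cp]
  refine ⟨h.link, ?_, ?_, ?_, ?_⟩
  · rintro C (hC | rfl | rfl)
    · exact Or.inl (h.sym C hC)
    · exact Or.inr (Or.inr rfl)
    · exact Or.inr (Or.inl (cp_cp _))
  · rintro C (hC | rfl | rfl) C' (hC' | rfl | rfl) hle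
    · exact h.anti _ hC _ hC' hle
    · exact absurd (Or.inr ⟨C, hC, hle⟩) h1
    · exact absurd (Or.inr ⟨C, hC, hle⟩) h2
    · exact absurd (Or.inr ⟨_, h.sym _ hC', hle.cp⟩) h2
    · rfl
    · exact absurd hle (h.not_le_cp hd h2)
    · exact absurd (Or.inr ⟨_, h.sym _ hC', hle.cp_left⟩) h1
    · exact absurd (by rwa [cp_cp]) (h.not_le_cp (S := cp C') hd.compl h1')
    · rfl
  · rintro C (hC | rfl | rfl) a ha
    · exact h.rule C hC a ha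
    · by_contra hc
      exact h1 (Or.inl ⟨a, ha, hc⟩)
    · by_contra hc
      exact h2 (Or.inl ⟨a, ha, hc⟩)
  · rintro C (hC | rfl | rfl)
    · exact h.dec C hC
    · exact hd
    · exact hd.compl

lemma plus_insert {P τ : Set L} {a b : ι} (h : J.Plus (insert (P, a) G) τ b) :
    (b = a ∧ J.le P τ) ∨ J.Plus G τ b := by
  obtain ⟨P', h1 | h1, h2⟩ := h
  · obtain ⟨rfl, rfl⟩ := Prod.ext_iff.1 h1
    exact Or.inl ⟨rfl, h2⟩
  · exact Or.inr ⟨P', h1, h2⟩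

lemma Inv.addGen (h : J.Inv G 𝒞) {P : Set L} {a : ι}
    (h1 : ∀ P' a', (P', a') ∈ G → ¬ J.le P P'ᶜ) (h2 : ¬ J.N P)
    (h3 : ∀ C ∈ 𝒞, J.le P C.1 → ∃ a' < a, J.Plus G C.2ᶜ a') : J.Inv (insert (P, a) G) 𝒞 := by
  refine ⟨?_, h.sym, h.anti, ?_, fun C hC => (h.dec C hC).monoG (subset_insert _ _)⟩
  · rintro P₁ a₁ P₂ a₂ (e1 | e1) (e2 | e2)
    · obtain ⟨rfl, -⟩ := Prod.ext_iff.1 e1
      obtain ⟨rfl, -⟩ := Prod.ext_iff.1 e2
      simpa using h2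
    · obtain ⟨rfl, -⟩ := Prod.ext_iff.1 e1
      exact fun hc => h1 _ _ e2 (J.le_compl_iff.2 hc)
    · obtain ⟨rfl, -⟩ := Prod.ext_iff.1 e2
      exact fun hc => h1 _ _ e1 (J.le_compl_iff.2 (by rwa [inter_comm]))
    · exact h.link _ _ _ _ e1 e2
  · intro C hC b hb
    rcases plus_insert hb with ⟨rfl, hb'⟩ | hb
    · obtain ⟨a', x, y⟩ := h3 C hC hb'
      exact ⟨a', x, y.monoG (subset_insert _ _)⟩
    · obtain ⟨a', x, y⟩ := h.rule C hC b hb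
      exact ⟨a', x, y.monoG (subset_insert _ _)⟩

variable (J G 𝒞) in
/-- finite extension of a state satisfying a property -/
def Ext (i : ι) (p : Set (Set L × ι) → Set (Set L × Set L) → Prop) : Prop :=
  ∃ (G' : Set (Set L × ι)) (𝒞' : Set (Set L × Set L)), G'.Finite ∧ 𝒞'.Finite ∧
    (∀ x ∈ G', x.2 ≤ i) ∧ J.Inv (G ∪ G') (𝒞 ∪ 𝒞') ∧ p (G ∪ G') (𝒞 ∪ 𝒞')

lemma Ext.imp {i : ι} {p q : Set (Set L × ι) → Set (Set L × Set L) → Prop}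
    (h : J.Ext G 𝒞 i p) (hpq : ∀ G' 𝒞', J.Inv G' 𝒞' → p G' 𝒞' → q G' 𝒞') : J.Ext G 𝒞 i q := by
  obtain ⟨G', 𝒞', a, b, c, d, e⟩ := h
  exact ⟨G', 𝒞', a, b, c, d, hpq _ _ d e⟩

lemma Inv.ext_self (h : J.Inv G 𝒞) {i : ι} {p : Set (Set L × ι) → Set (Set L × Set L) → Prop}
    (hp : p G 𝒞) : J.Ext G 𝒞 i p :=
  ⟨∅, ∅, finite_empty, finite_empty, by simp, by simpa using h, by simpa using hp⟩

variable (J) in
def Btw (S₁ S₂ : Set L × Set L) (_G : Set (Set L × ι)) (𝒞 : Set (Set L × Set L)) : Prop :=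
  ∃ C ∈ 𝒞, J.le2 S₁ C ∧ J.le2 C S₂

lemma Ext.dual {i : ι} {S₁ S₂ : Set L × Set L} (h : J.Ext G 𝒞 i (J.Btw (cp S₂) (cp S₁))) :
    J.Ext G 𝒞 i (J.Btw S₁ S₂) := by
  refine h.imp ?_
  rintro G' 𝒞' hI ⟨C, a, b, c⟩
  exact ⟨cp C, hI.sym C a, c.cp_right, b.cp_left⟩

lemma Inv.ext_crit (h : J.Inv G 𝒞) (i : ι) {S : Set L × Set L} (hd : J.Dec G S.1)
    (h1 : ¬ J.High G 𝒞 S) (h2 : ¬ J.High G 𝒞 (cp S)) : J.Ext G 𝒞 i (J.Btw S S) :=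
  ⟨∅, {S, cp S}, finite_empty, toFinite _, by simp, by simpa using h.addCrit hd h1 h2,
    S, Or.inr (Or.inl rfl), J.le2_refl _, J.le2_refl _⟩

lemma Inv.ext_gen_crit (i : ι) {S : Set L × Set L} {P : Set L} {a : ι} (ha : a ≤ i)
    (h : J.Inv (insert (P, a) G) 𝒞) (hd : J.Dec (insert (P, a) G) S.1)
    (h1 : ¬ J.High (insert (P, a) G) 𝒞 S) (h2 : ¬ J.High (insert (P, a) G) 𝒞 (cp S)) :
    J.Ext G 𝒞 i (J.Btw S S) :=
  ⟨{(P, a)}, {S, cp S}, toFinite _, toFinite _, by simpa using ha,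
    by simpa using h.addCrit hd h1 h2,
    S, Or.inr (Or.inl rfl), J.le2_refl _, J.le2_refl _⟩

lemma gen' (hG : #G < 𝔠) (hC : #𝒞 < 𝔠) {A B : Set L} (hAB : A ⊆ B) (Z : Set L) :
    ∃ (R : Set L) (𝒯 : Set (Set L)), A ⊆ R ∧ R ⊆ B ∧ (∀ T ∈ 𝒯, Tᶜ ∈ 𝒯) ∧ ∅ ∈ 𝒯 ∧ Z ∈ 𝒯 ∧
      (∀ P a, (P, a) ∈ G → P ∈ 𝒯) ∧ (∀ C ∈ 𝒞, C.1 ∈ 𝒯 ∧ C.2 ∈ 𝒯) ∧
      ∀ T ∈ 𝒯, (J.le R T → J.le B T) ∧ (J.le T R → J.le T A) := by
  let 𝒯₀ : Set (Set L) := ({∅, Z} ∪ Prod.fst '' G) ∪ (Prod.fst '' 𝒞 ∪ Prod.snd '' 𝒞)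
  have hu : ∀ {s t : Set (Set L)}, #s < 𝔠 → #t < 𝔠 → #(s ∪ t : Set (Set L)) < 𝔠 :=
    fun hs ht => lt_of_le_of_lt (mk_union_le _ _) (add_lt_of_lt aleph0_le_continuum hs ht)
  have h0 : #𝒯₀ < 𝔠 :=
    hu (hu ((toFinite _).lt_aleph0.trans aleph0_lt_continuum) (mk_image_le.trans_lt hG))
      (hu (mk_image_le.trans_lt hC) (mk_image_le.trans_lt hC))
  obtain ⟨R, a, b, c⟩ := J.gen A B hAB (𝒯₀ ∪ compl '' 𝒯₀) (hu h0 (mk_image_le.trans_lt h0))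
  refine ⟨R, 𝒯₀ ∪ compl '' 𝒯₀, a, b, ?_, ?_, ?_, ?_, ?_, c⟩
  · rintro T (hT | ⟨T, hT, rfl⟩)
    · exact Or.inr ⟨T, hT, rfl⟩
    · left; rwa [compl_compl]
  · exact Or.inl (Or.inl (Or.inl (Or.inl rfl)))
  · exact Or.inl (Or.inl (Or.inl (Or.inr rfl)))
  · intro P a h
    exact Or.inl (Or.inl (Or.inr ⟨_, h, rfl⟩))
  · intro C hC
    exact ⟨Or.inl (Or.inr (Or.inl ⟨_, hC, rfl⟩)), Or.inl (Or.inr (Or.inr ⟨_, hC, rfl⟩))⟩

lemma Btw.widen {S S₁ S₂ : Set L × Set L} (h1 : J.le2 S₁ S) (h2 : J.le2 S S₂)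
    (G' : Set (Set L × ι)) (𝒞' : Set (Set L × Set L)) (_ : J.Inv G' 𝒞') (h : J.Btw S S G' 𝒞') :
    J.Btw S₁ S₂ G' 𝒞' := by
  obtain ⟨C, a, b, c⟩ := h
  exact ⟨C, a, h1.trans b, c.trans h2⟩

/-- the second coordinate is fixed and negative -/
lemma Inv.fixL (h : J.Inv G 𝒞) (hG : #G < 𝔠) (hC : #𝒞 < 𝔠) {i : ι} (hi : ∀ x ∈ G, x.2 < i)
    {R₁ R₂ L' : Set L} (hR : R₁ ⊆ R₂) (hd2 : J.Dec G R₂)
    {b : ι} (hL : J.Plus G L'ᶜ b)
    (h1 : ¬ J.High G 𝒞 (R₁, L')) (h2 : ¬ J.High G 𝒞 (cp (R₂, L'))) :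
    J.Ext G 𝒞 i (J.Btw (R₁, L') (R₂, L')) := by
  obtain ⟨R, 𝒯, a1, a2, tc, t0, -, tG, tC, hg⟩ := gen' (J := J) hG hC hR ∅
  have hlab : ∀ {τ a}, J.Plus G τ a → a < i := fun ⟨P, x, _⟩ => hi _ x
  have w1 : J.le2 (R₁, L') (R, L') := ⟨J.le_of_subset a1, J.le_refl _⟩
  have w2 : J.le2 (R, L') (R₂, L') := ⟨J.le_of_subset a2, J.le_refl _⟩
  obtain ⟨β, hβ⟩ : ∃ β, J.Plus G R₂ β := by
    rcases hd2 with hd | ⟨a, ha⟩
    · exact hd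
    · exfalso
      refine h2 (Or.inl ⟨a, ha, ?_⟩)
      rintro ⟨a', -, x⟩
      simp only [cp_snd, compl_compl] at x
      exact h.plus_compl x hL
  have c1 : ¬ ∃ C ∈ 𝒞, J.le2 C (R, L') := by
    rintro ⟨C, x, y⟩
    exact h1 (Or.inr ⟨C, x, (hg _ (tC C x).1).2 y.1, y.2⟩)
  have c2 : ¬ ∃ C ∈ 𝒞, J.le2 C (cp (R, L')) := by
    rintro ⟨C, x, y⟩
    exact h2 (Or.inr ⟨C, x, ((hg _ (tc _ (tC C x).1)).1 y.1.compl_right).compl_right, y.2⟩)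
  have hdown : ∀ a, J.Plus G R a → J.Plus G R₁ a := by
    rintro a ⟨P, x, y⟩
    exact ⟨P, x, (hg _ (tG _ _ x)).2 y⟩
  by_cases hp : ∃ a, J.Plus G R₁ a
  · obtain ⟨a, ha⟩ := hp
    have haR : J.Plus G R a := ha.mono w1.1
    refine (h.ext_crit i (S := (R, L')) (Or.inl ⟨a, haR⟩) ?_ ?_).imp (Btw.widen w1 w2)
    · rintro (⟨a', x, y⟩ | hc)
      · exact h1 (Or.inl ⟨a', hdown _ x, y⟩)
      · exact c1 hc
    · rintro (⟨a', x, -⟩ | hc)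
      · exact h.plus_compl haR x
      · exact c2 hc
  · have hI : J.Inv (insert (R, i) G) 𝒞 := by
      refine h.addGen (fun P' a' x y => ?_) (fun x => ?_) (fun C x y => ?_)
      · exact h.plus_link hβ ⟨P', x, J.le_refl _⟩ ((hg _ (tc _ (tG _ _ x))).1 y)
      · have : J.le R₂ ∅ := (hg _ t0).1 (by unfold le; simpa using x)
        exact h.plus_link hβ hβ (this.trans (J.le_of_subset (empty_subset _)))
      · obtain ⟨a', u, v⟩ := h.rule C x β (hβ.mono ((hg _ (tC C x).1).1 y))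
        exact ⟨a', u.trans (hlab hβ), v⟩
    have hRi : J.Plus (insert (R, i) G) R i := ⟨R, mem_insert _ _, J.le_refl _⟩
    refine (Inv.ext_gen_crit i (S := (R, L')) le_rfl hI (Or.inl ⟨i, hRi⟩) ?_ ?_).imp
      (Btw.widen w1 w2)
    · rintro (⟨a', x, y⟩ | hc)
      · rcases plus_insert x with ⟨rfl, -⟩ | x
        · exact y ⟨b, hlab hL, hL.monoG (subset_insert _ _)⟩
        · exact hp ⟨a', hdown _ x⟩
      · exact c1 hc
    · rintro (⟨a', x, -⟩ | hc)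
      · exact hI.plus_compl hRi x
      · exact c2 hc

/-- the first coordinate is fixed and positive -/
lemma Inv.fixR (h : J.Inv G 𝒞) (hG : #G < 𝔠) (hC : #𝒞 < 𝔠) {i : ι} (hi : ∀ x ∈ G, x.2 < i)
    {R L₁ L₂ : Set L} (hL : L₁ ⊆ L₂) (hR : ∃ a, J.Plus G R a)
    (h1 : ¬ J.High G 𝒞 (R, L₁)) (h2 : ¬ J.High G 𝒞 (cp (R, L₂))) :
    J.Ext G 𝒞 i (J.Btw (R, L₁) (R, L₂)) := by
  obtain ⟨L', 𝒯, a1, a2, tc, t0, tZ, tG, tC, hg⟩ := gen' (J := J) hG hC hL R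
  have hlab : ∀ {τ a}, J.Plus G τ a → a < i := fun ⟨P, x, _⟩ => hi _ x
  have w1 : J.le2 (R, L₁) (R, L') := ⟨J.le_refl _, J.le_of_subset a1⟩
  have w2 : J.le2 (R, L') (R, L₂) := ⟨J.le_refl _, J.le_of_subset a2⟩
  obtain ⟨ρ, hρ, hmin⟩ := (wellFounded_lt (α := ι)).has_min {a | J.Plus G R a} hR
  obtain ⟨β, hβρ, hβ⟩ : ∃ β < ρ, J.Plus G L₁ᶜ β := by
    by_contra hc
    exact h1 (Or.inl ⟨ρ, hρ, hc⟩)
  have hup : ∀ T ∈ 𝒯, J.le L'ᶜ T → J.le L₁ᶜ T := fun T hT x =>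
    ((hg _ (tc _ hT)).2 x.compl_left).compl_left
  have hI : J.Inv (insert (L'ᶜ, β) G) 𝒞 := by
    refine h.addGen (fun P' a' x y => ?_) (fun x => ?_) (fun C x y => ?_)
    · exact h.plus_link hβ ⟨P', x, J.le_refl _⟩ (hup _ (tc _ (tG _ _ x)) y)
    · have : J.le L₁ᶜ ∅ := hup _ t0 (by unfold le; simpa using x)
      exact h.plus_link hβ hβ (this.trans (J.le_of_subset (empty_subset _)))
    · exact h.rule C x β (hβ.mono (hup _ (tC C x).1 y))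
  have hRρ : J.Plus (insert (L'ᶜ, β) G) R ρ := Plus.monoG hρ (subset_insert _ _)
  refine (Inv.ext_gen_crit i (S := (R, L')) (hlab hβ).le hI (Or.inl ⟨ρ, hRρ⟩) ?_ ?_).imp
    (Btw.widen w1 w2)
  · rintro (⟨a', x, y⟩ | ⟨C, x, y⟩)
    · rcases plus_insert x with ⟨rfl, x'⟩ | x
      · exact hmin _ (hβ.mono (hup _ tZ x')) hβρ
      · exact y ⟨β, hβρ.trans_le (not_lt.1 (hmin _ x)), L'ᶜ, mem_insert _ _, J.le_refl _⟩
    · exact h1 (Or.inr ⟨C, x, y.1, (hg _ (tC C x).2).2 y.2⟩)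
  · rintro (⟨a', x, -⟩ | ⟨C, x, y⟩)
    · exact hI.plus_compl hRρ x
    · exact h2 (Or.inr ⟨C, x, y.1, ((hg _ (tc _ (tC C x).2)).1 y.2.compl_right).compl_right⟩)

lemma Inv.ext_both (h : J.Inv G 𝒞) (i : ι) {S : Set L × Set L} (h1 : J.High G 𝒞 S)
    (h2 : J.High G 𝒞 (cp S)) : J.Ext G 𝒞 i (J.Btw S S) := by
  obtain ⟨C, a, b, c⟩ := h.both h1 h2
  exact h.ext_self ⟨C, a, c, b⟩

lemma Inv.cross (h : J.Inv G 𝒞) (hG : #G < 𝔠) (hC : #𝒞 < 𝔠) {i : ι} (hi : ∀ x ∈ G, x.2 < i)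
    {S₁ S₂ : Set L × Set L} (s1 : S₁.1 ⊆ S₂.1) (s2 : S₁.2 ⊆ S₂.2)
    (d1 : J.Dec G S₁.1) (d2 : J.Dec G S₂.1) (d3 : J.Dec G S₁.2)
    (h1 : J.High G 𝒞 (cp S₁)) (h2 : J.High G 𝒞 S₂) : J.Ext G 𝒞 i (J.Btw S₁ S₂) := by
  obtain ⟨R₁, L₁⟩ := S₁
  obtain ⟨R₂, L₂⟩ := S₂
  have w : J.le2 (R₁, L₁) (R₂, L₂) := ⟨J.le_of_subset s1, J.le_of_subset s2⟩
  have w1 : J.le2 (R₁, L₁) (R₂, L₁) := ⟨J.le_of_subset s1, J.le_refl _⟩
  have w2 : J.le2 (R₂, L₁) (R₂, L₂) := ⟨J.le_refl _, J.le_of_subset s2⟩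
  by_cases n1 : J.High G 𝒞 (R₁, L₁)
  · exact (h.ext_both i n1 h1).imp (Btw.widen (J.le2_refl _) w)
  by_cases n2 : J.High G 𝒞 (cp (R₂, L₂))
  · exact (h.ext_both i h2 n2).imp (Btw.widen w (J.le2_refl _))
  by_cases z1 : J.High G 𝒞 (R₂, L₁) <;> by_cases z2 : J.High G 𝒞 (cp (R₂, L₁))
  · exact (h.ext_both i z1 z2).imp (Btw.widen w1 w2)
  · have : J.Ext G 𝒞 i (J.Btw (R₁, L₁) (R₂, L₁)) := by
      rcases d3 with ⟨b, hb⟩ | ⟨b, hb⟩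
      · refine Ext.dual (h.fixL hG hC hi (R₁ := R₂ᶜ) (R₂ := R₁ᶜ) (L' := L₁ᶜ) (b := b)
          (compl_subset_compl.2 s1) d1.compl (by rwa [compl_compl]) z2 ?_)
        simpa [cp] using n1
      · exact h.fixL hG hC hi s1 d2 hb n1 z2
    refine this.imp ?_
    rintro G' 𝒞' - ⟨C, a, b, c⟩
    exact ⟨C, a, b, c.trans w2⟩
  · have : J.Ext G 𝒞 i (J.Btw (R₂, L₁) (R₂, L₂)) := by
      rcases d2 with hb | hb
      · exact h.fixR hG hC hi s2 hb z1 n2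
      · refine Ext.dual (h.fixR hG hC hi (R := R₂ᶜ) (L₁ := L₂ᶜ) (L₂ := L₁ᶜ)
          (compl_subset_compl.2 s2) hb n2 ?_)
        simpa [cp] using z1
    refine this.imp ?_
    rintro G' 𝒞' - ⟨C, a, b, c⟩
    exact ⟨C, a, w1.trans b, c⟩
  · exact (h.ext_crit i (S := (R₂, L₁)) d2 z1 z2).imp (Btw.widen w1 w2)

variable (J) in
def Tri (S₁ S₂ : Set L × Set L) (_G : Set (Set L × ι)) (𝒞 : Set (Set L × Set L)) : Prop :=
  ∃ C ∈ 𝒞, J.le2 C S₁ ∨ J.le2 S₂ C ∨ (J.le2 S₁ C ∧ J.le2 C S₂)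

lemma Inv.task (h : J.Inv G 𝒞) (hG : #G < 𝔠) (hC : #𝒞 < 𝔠) {i : ι} (hi : ∀ x ∈ G, x.2 < i)
    {S₁ S₂ : Set L × Set L} (s1 : S₁.1 ⊆ S₂.1) (s2 : S₁.2 ⊆ S₂.2)
    (d1 : J.Dec G S₁.1) (d2 : J.Dec G S₂.1) (d3 : J.Dec G S₁.2) (d4 : J.Dec G S₂.2) :
    J.Ext G 𝒞 i (J.Tri S₁ S₂) := by
  have w : J.le2 S₁ S₂ := ⟨J.le_of_subset s1, J.le_of_subset s2⟩
  obtain ⟨a, ha⟩ : ∃ a, J.Plus G univ a := by
    rcases d1 with ⟨a, ha⟩ | ⟨a, ha⟩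
    · exact ⟨a, ha.mono (J.le_of_subset (subset_univ _))⟩
    · exact ⟨a, ha.mono (J.le_of_subset (subset_univ _))⟩
  have du : J.Dec G univ := Or.inl ⟨a, ha⟩
  have de : J.Dec G ∅ := by simpa using du.compl
  have hu : J.High G 𝒞 (univ, univ) := by
    refine Or.inl ⟨a, ha, ?_⟩
    rintro ⟨a', -, x⟩
    exact h.plus_compl ha x
  by_cases n1 : J.High G 𝒞 S₁
  · refine (h.cross hG hC hi (S₁ := (∅, ∅)) (empty_subset _) (empty_subset _) de d1 de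
      (by simpa [cp] using hu) n1).imp ?_
    rintro G' 𝒞' - ⟨C, x, -, y⟩
    exact ⟨C, x, Or.inl y⟩
  by_cases n2 : J.High G 𝒞 (cp S₂)
  · refine (h.cross hG hC hi (S₂ := (univ, univ)) (subset_univ _) (subset_univ _) d2 du d4
      n2 hu).imp ?_
    rintro G' 𝒞' - ⟨C, x, y, -⟩
    exact ⟨C, x, Or.inr (Or.inl y)⟩
  by_cases m1 : J.High G 𝒞 (cp S₁)
  · by_cases m2 : J.High G 𝒞 S₂
    · refine (h.cross hG hC hi s1 s2 d1 d2 d3 m1 m2).imp ?_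
      rintro G' 𝒞' - ⟨C, x, y⟩
      exact ⟨C, x, Or.inr (Or.inr y)⟩
    · refine (h.ext_crit i d2 m2 n2).imp ?_
      rintro G' 𝒞' - ⟨C, x, y, -⟩
      exact ⟨C, x, Or.inr (Or.inl y)⟩
  · refine (h.ext_crit i d1 n1 m1).imp ?_
    rintro G' 𝒞' - ⟨C, x, -, y⟩
    exact ⟨C, x, Or.inl y⟩

lemma Inv.decide (h : J.Inv G 𝒞) {i : ι} (hi : ∀ x ∈ G, x.2 < i) (τ : Set L) :
    J.Ext G 𝒞 i (fun G' _ => J.Dec G' τ) := by
  by_cases hd : J.Dec G τ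
  · exact h.ext_self hd
  have key : ∀ σ : Set L, ¬ J.Dec G σ → ¬ J.N σ → J.Ext G 𝒞 i (fun G' _ => J.Dec G' σ) := by
    intro σ hσ hn
    have hI : J.Inv (insert (σ, i) G) 𝒞 := by
      refine h.addGen (fun P' a' x y => hσ (Or.inr ⟨a', P', x, y.compl_right⟩)) hn
        (fun C x y => ?_)
      rcases h.dec C x with ⟨a, ha⟩ | ⟨a, ha⟩
      · obtain ⟨a', u, v⟩ := h.rule C x a ha
        obtain ⟨P, p, -⟩ := ha
        exact ⟨a', u.trans (hi _ p), v⟩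
      · exact absurd (Or.inr ⟨a, ha.mono y.compl⟩) hσ
    exact ⟨{(σ, i)}, ∅, toFinite _, finite_empty, by simp, by simpa using hI,
      Or.inl ⟨i, σ, Or.inr rfl, J.le_refl _⟩⟩
  by_cases hn : J.N τ
  · have hn' : ¬ J.N τᶜ := fun hc => J.nuniv (by simpa using J.union hn hc)
    refine (key τᶜ (fun hc => hd (by simpa using hc.compl)) hn').imp ?_
    intro G' _ _ x
    simpa using x.compl
  · exact key τ hd hn

theorem exists_system (J : Idl L) :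
    ∃ (ι : Type) (_ : LinearOrder ι) (_ : WellFoundedLT ι) (G : Set (Set L × ι))
      (𝒞 : Set (Set L × Set L)), J.Inv G 𝒞 ∧ (∀ τ, J.Dec G τ) ∧
      ∀ S₁ S₂ : Set L × Set L, S₁.1 ⊆ S₂.1 → S₁.2 ⊆ S₂.2 → J.Tri S₁ S₂ G 𝒞 := by
  let T := Set L ⊕ ((Set L × Set L) × (Set L × Set L))
  have hT : #T ≤ 𝔠 := by
    have h2 : #(Set L × Set L) ≤ 𝔠 := by
      rw [mk_prod, lift_id]
      exact (mul_le_mul' J.card J.card).trans continuum_mul_self.le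
    have h4 : #((Set L × Set L) × (Set L × Set L)) ≤ 𝔠 := by
      rw [mk_prod, lift_id]
      exact (mul_le_mul' h2 h2).trans continuum_mul_self.le
    rw [mk_sum, lift_id, lift_id]
    exact (add_le_add J.card h4).trans continuum_add_self.le
  obtain ⟨ι, _, _, _, f, hι, hf⟩ := exists_index T hT
  let β := (Set L × ι) ⊕ (Set L × Set L)
  let gG : Set β → Set (Set L × ι) := fun s => Sum.inl ⁻¹' s
  let gC : Set β → Set (Set L × Set L) := fun s => Sum.inr ⁻¹' s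
  let p : T → Set (Set L × ι) → Set (Set L × ι) → Set (Set L × Set L) → Prop := fun t G G' 𝒞' =>
    match t with
    | Sum.inl τ => J.Dec G' τ
    | Sum.inr (S₁, S₂) => S₁.1 ⊆ S₂.1 → S₁.2 ⊆ S₂.2 → J.Dec G S₁.1 → J.Dec G S₂.1 →
        J.Dec G S₁.2 → J.Dec G S₂.2 → J.Tri S₁ S₂ G' 𝒞'
  let Lab : ι → β → Prop := fun i x => ∀ y, x = Sum.inl y → y.2 ≤ i
  refine Exists.elim (rec_exists (β := β) hι (fun s => J.Inv (gG s) (gC s))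
    (fun i s t => p (f i) (gG s) (gG (s ∪ t)) (gC (s ∪ t))) Lab ?_ ?_) ?_
  rotate_left 2
  · rintro F ⟨hF, hQ⟩
    have hsub : ∀ i, (⋃ j < i, F j) ∪ F i ⊆ ⋃ i, F i := by
      intro i
      refine union_subset ?_ (subset_iUnion F i)
      exact iUnion₂_subset (fun j _ => subset_iUnion F j)
    have hdec : ∀ τ, ∃ i, ∀ i', i < i' → J.Dec (gG (⋃ j < i', F j)) τ := by
      intro τ
      obtain ⟨i, -, hi⟩ := hf (Sum.inl τ) (Classical.arbitrary ι)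
      have := hQ i
      simp only [hi, p] at this
      refine ⟨i, fun i' h => this.monoG (preimage_mono ?_)⟩
      refine union_subset (iUnion₂_subset (fun j hj => ?_)) ?_
      · exact subset_biUnion_of_mem (u := F) (show j ∈ Iio i' from hj.trans h)
      · exact subset_biUnion_of_mem (u := F) (show i ∈ Iio i' from h)
    refine ⟨ι, inferInstance, inferInstance, gG (⋃ i, F i), gC (⋃ i, F i), hF, fun τ => ?_,
      fun S₁ S₂ s1 s2 => ?_⟩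
    · obtain ⟨i, hi⟩ := hdec τ
      obtain ⟨i', h, -⟩ := hf (Sum.inl τ) i
      exact (hi i' h).monoG (preimage_mono (subset_union_left.trans (hsub i')))
    · obtain ⟨i₁, h₁⟩ := hdec S₁.1
      obtain ⟨i₂, h₂⟩ := hdec S₂.1
      obtain ⟨i₃, h₃⟩ := hdec S₁.2
      obtain ⟨i₄, h₄⟩ := hdec S₂.2
      obtain ⟨i, h, hi⟩ := hf (Sum.inr (S₁, S₂)) (max (max i₁ i₂) (max i₃ i₄))
      simp only [max_lt_iff] at h
      have := hQ i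
      simp only [hi, p] at this
      obtain ⟨C, hC, hh⟩ := this s1 s2 (h₁ i h.1.1) (h₂ i h.1.2) (h₃ i h.2.1) (h₄ i h.2.2)
      exact ⟨C, preimage_mono (hsub i) hC, hh⟩
  · intro c hc hI
    have two : ∀ x y, x ∈ ⋃₀ c → y ∈ ⋃₀ c → ∃ s ∈ c, x ∈ s ∧ y ∈ s := by
      rintro x y ⟨s, hs, hx⟩ ⟨t, ht, hy⟩
      rcases hc.total hs ht with h | h
      · exact ⟨t, ht, h hx, hy⟩
      · exact ⟨s, hs, hx, h hy⟩
    have up : ∀ s ∈ c, gG s ⊆ gG (⋃₀ c) := fun s hs => preimage_mono (subset_sUnion_of_mem hs)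
    refine ⟨fun P a P' a' x y => ?_, ?_, fun C x C' y => ?_, ?_, ?_⟩
    · obtain ⟨s, hs, u, v⟩ := two _ _ x y
      exact (hI s hs).link _ _ _ _ u v
    · rintro C ⟨s, hs, x⟩
      exact ⟨s, hs, (hI s hs).sym C x⟩
    · obtain ⟨s, hs, u, v⟩ := two _ _ x y
      exact (hI s hs).anti _ u _ v
    · rintro C x a ⟨P, y, z⟩
      obtain ⟨s, hs, u, v⟩ := two _ _ x y
      obtain ⟨a', b, d⟩ := (hI s hs).rule C u a ⟨P, v, z⟩
      exact ⟨a', b, d.monoG (up s hs)⟩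
    · rintro C ⟨s, hs, x⟩
      exact ((hI s hs).dec C x).monoG (up s hs)
  · intro i s hI hs hl
    have hG : #(gG s) < 𝔠 := (mk_preimage_of_injective _ _ Sum.inl_injective).trans_lt hs
    have hC : #(gC s) < 𝔠 := (mk_preimage_of_injective _ _ Sum.inr_injective).trans_lt hs
    have hi : ∀ x ∈ gG s, x.2 < i := by
      intro x hx
      obtain ⟨j, a, b⟩ := hl _ hx
      exact (b x rfl).trans_lt a
    have hE : J.Ext (gG s) (gC s) i (p (f i) (gG s)) := by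
      rcases f i with τ | ⟨S₁, S₂⟩
      · exact hI.decide hi τ
      · by_cases hh : S₁.1 ⊆ S₂.1 ∧ S₁.2 ⊆ S₂.2 ∧ J.Dec (gG s) S₁.1 ∧ J.Dec (gG s) S₂.1 ∧
          J.Dec (gG s) S₁.2 ∧ J.Dec (gG s) S₂.2
        · obtain ⟨a, b, c, d, e, g⟩ := hh
          exact (hI.task hG hC hi a b c d e g).imp (fun G' 𝒞' _ x _ _ _ _ _ _ => x)
        · exact hI.ext_self (fun a b c d e g => absurd ⟨a, b, c, d, e, g⟩ hh)
    obtain ⟨G', 𝒞', a, b, c, d, e⟩ := hE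
    have e1 : gG (s ∪ (Sum.inl '' G' ∪ Sum.inr '' 𝒞')) = gG s ∪ G' := by
      ext x; simp [gG]
    have e2 : gC (s ∪ (Sum.inl '' G' ∪ Sum.inr '' 𝒞')) = gC s ∪ 𝒞' := by
      ext x; simp [gC]
    refine ⟨Sum.inl '' G' ∪ Sum.inr '' 𝒞', (a.image _).union (b.image _), ?_, ?_, ?_⟩
    · rw [e1, e2]; exact d
    · rintro x (⟨y, hy, rfl⟩ | ⟨y, hy, rfl⟩) z hz
      · obtain rfl := Sum.inl_injective hz
        exact c _ hy
      · exact absurd hz Sum.inr_ne_inl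
    · rw [e1, e2]; exact e

end Idl

end Crest.Agent.H7.Mt
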