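import Crest.Agent.H7.MtB
import Crest.Agent.H7.MtD

set_option autoImplicit false

open Set Filter Topology
open Cardinal hiding univ

namespace Crest.Agent.H7.Mt

lemma ncard_bool {α : Type} (W : Set (Bool × α)) (hW : W.Finite) :
    W.ncard = (Prod.mk true ⁻¹' W).ncard + (Prod.mk false ⁻¹' W).ncard := by
  have hi : ∀ c : Bool, Function.Injective (Prod.mk c : α → Bool × α) :=
    fun c a b h => (Prod.ext_iff.1 h).2
  have e : W = Prod.mk true '' (Prod.mk true ⁻¹' W) ∪ Prod.mk false '' (Prod.mk false ⁻¹' W) := by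
    ext ⟨c, x⟩
    cases c <;> simp
  conv_lhs => rw [e]
  rw [ncard_union_eq _ ((hW.preimage (hi _).injOn).image _) ((hW.preimage (hi _).injOn).image _),
    ncard_image_of_injective _ (hi _), ncard_image_of_injective _ (hi _)]
  rw [Set.disjoint_left]
  rintro _ ⟨x, -, rfl⟩ ⟨y, -, h⟩
  simp at h

/-- two copies -/
def Blk.dbl {α : Type} (S : Blk α) : Blk (Bool × α) where
  b := fun x => S.b x.2
  n := S.n
  pos := S.pos
  fin := fun k => ((finite_univ (α := Bool)).prod (S.fin k)).subset (fun _ hx => ⟨trivial, hx⟩)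
  inv := S.inv
  small := by
    have := S.small.add S.small
    rw [add_zero] at this
    refine this.congr (fun k => ?_)
    rw [ncard_bool {x : Bool × α | S.b x.2 < k}
      (((finite_univ (α := Bool)).prod (S.fin k)).subset
        (fun x (hx : S.b x.2 < k) => ⟨trivial, (le_of_lt hx : S.b x.2 ≤ k)⟩))]
    push_cast
    rw [add_div]
    rfl

lemma Blk.dbl_blk {α : Type} (S : Blk α) (W : Set (Bool × α)) (k : ℕ) :
    S.dbl.blk W k = S.blk (Prod.mk true ⁻¹' W) k + S.blk (Prod.mk false ⁻¹' W) k :=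
  ncard_bool _ (S.dbl.fin_eq W k)

lemma Blk.dbl_null {α : Type} (S : Blk α) (W : Set (Bool × α)) :
    S.dbl.Null W ↔ S.Null (Prod.mk true ⁻¹' W) ∧ S.Null (Prod.mk false ⁻¹' W) := by
  constructor
  · intro h
    constructor
    · refine squeeze_zero (fun k => div_nonneg (Nat.cast_nonneg _) (S.pos k).le) (fun k => ?_) h
      refine div_le_div_of_nonneg_right ?_ (S.pos k).le
      rw [S.dbl_blk]; exact_mod_cast Nat.le_add_right _ _
    · refine squeeze_zero (fun k => div_nonneg (Nat.cast_nonneg _) (S.pos k).le) (fun k => ?_) h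
      refine div_le_div_of_nonneg_right ?_ (S.pos k).le
      rw [S.dbl_blk]; exact_mod_cast Nat.le_add_left _ _
  · rintro ⟨h1, h2⟩
    have := h1.add h2
    rw [add_zero] at this
    refine this.congr (fun k => ?_)
    rw [S.dbl_blk]
    push_cast
    rw [add_div]
    rfl

abbrev Lk : Type := Σ k : ℕ, ((Fin k → Bool) → Bool)

lemma ncard_blk (W : Set Lk) (k : ℕ) :
    (W ∩ {x | x.1 = k}).ncard = (Sigma.mk k ⁻¹' W).ncard := by
  rw [← ncard_image_of_injective (Sigma.mk k ⁻¹' W) (sigma_mk_injective (β := fun k => (Fin k → Bool) → Bool))]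
  congr 1
  ext ⟨j, x⟩
  constructor
  · rintro ⟨h, rfl⟩
    exact ⟨x, h, rfl⟩
  · rintro ⟨y, h, e⟩
    cases e
    exact ⟨h, rfl⟩

lemma fin_blk (k : ℕ) : {x : Lk | x.1 = k}.Finite := by
  refine ((finite_univ (α := (Fin k → Bool) → Bool)).image (Sigma.mk k)).subset ?_
  rintro ⟨j, x⟩ rfl
  exact ⟨x, trivial, rfl⟩

lemma ncard_blk_univ (k : ℕ) : {x : Lk | x.1 = k}.ncard = 2 ^ 2 ^ k := by
  have := ncard_blk univ k
  rw [univ_inter, preimage_univ, ncard_univ] at this
  rw [this]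
  simp

lemma fin_lt (k : ℕ) : {x : Lk | x.1 < k}.Finite := by
  refine ((finite_Iio k).biUnion (fun j _ => fin_blk j)).subset (fun x hx => ?_)
  simp only [mem_iUnion]
  exact ⟨x.1, hx, rfl⟩

lemma ncard_lt_succ (k : ℕ) :
    {x : Lk | x.1 < k + 1}.ncard ≤ {x : Lk | x.1 < k}.ncard + 2 ^ 2 ^ k := by
  rw [← ncard_blk_univ]
  refine le_trans (le_of_eq ?_) (ncard_union_le _ _)
  congr 1
  ext x
  simp only [mem_ofPred_eq, mem_union]
  omega

lemma ncard_lt_le (k : ℕ) : {x : Lk | x.1 < k}.ncard ≤ 2 ^ 2 ^ k := by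
  induction k with
  | zero => simp
  | succ k ih =>
    refine (ncard_lt_succ k).trans ?_
    have h : 2 ≤ 2 ^ 2 ^ k := Nat.le_self_pow (by positivity) 2
    rw [pow_succ 2 k, pow_mul, sq]
    nlinarith

lemma tendsto_inv_n : Tendsto (fun k : ℕ => 1 / (2 : ℝ) ^ 2 ^ k) atTop (𝓝 0) := by
  have h1 : Tendsto (fun k : ℕ => 2 ^ k) atTop (atTop : Filter ℕ) :=
    tendsto_pow_atTop_atTop_of_one_lt (by norm_num)
  have h2 := (tendsto_pow_atTop_nhds_zero_of_lt_one (r := (1 / 2 : ℝ)) (by norm_num)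
    (by norm_num)).comp h1
  refine h2.congr (fun k => ?_)
  simp

noncomputable def SL : Blk Lk where
  b := fun x => x.1
  n := fun k => 2 ^ 2 ^ k
  pos := fun k => by positivity
  fin := fun k => (fin_lt (k + 1)).subset (fun _ hx => Nat.lt_succ_of_le hx)
  inv := tendsto_inv_n
  small := by
    rw [← tendsto_add_atTop_iff_nat 1]
    have := tendsto_inv_n.const_mul 2
    rw [mul_zero] at this
    refine squeeze_zero (fun k => by positivity) (fun k => ?_) this
    have h1 : (({x : Lk | x.1 < k + 1}.ncard : ℕ) : ℝ) ≤ 2 * 2 ^ 2 ^ k := by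
      have := (ncard_lt_succ k).trans (Nat.add_le_add_right (ncard_lt_le k) _)
      rw [← two_mul] at this
      exact_mod_cast this
    rw [div_le_iff₀ (by positivity), pow_succ 2 k, pow_mul, sq]
    refine h1.trans (le_of_eq ?_)
    field_simp

lemma SL_univ : ¬ SL.Null univ := by
  intro h
  have : Tendsto (fun _ : ℕ => (1 : ℝ)) atTop (𝓝 0) := by
    refine h.congr (fun k => ?_)
    unfold Blk.blk
    rw [univ_inter]
    have := ncard_blk_univ k
    simp only [SL]
    rw [this]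
    push_cast
    field_simp
  have := tendsto_nhds_unique this tendsto_const_nhds
  norm_num at this

lemma card_fix {β : Type} [Fintype β] [DecidableEq β] (T : Finset β) (c : Bool) :
    {g : β → Bool | ∀ s ∈ T, g s = c}.ncard * 2 ^ T.card = 2 ^ Fintype.card β := by
  have e : {g : β → Bool | ∀ s ∈ T, g s = c} =
      (Fintype.piFinset (fun s => if s ∈ T then ({c} : Finset Bool) else Finset.univ) : Finset _) := by
    ext g
    simp only [mem_ofPred_eq, Finset.mem_coe, Fintype.mem_piFinset]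
    refine forall_congr' (fun s => ?_)
    split_ifs with h <;> simp [h]
  rw [e, ncard_coe_finset, Fintype.card_piFinset]
  have : ∀ s, (if s ∈ T then ({c} : Finset Bool) else Finset.univ).card =
      if s ∈ T then 1 else 2 := by
    intro s; split_ifs <;> simp
  simp only [this]
  rw [Finset.prod_ite, Finset.prod_const_one, one_mul, Finset.prod_const, ← pow_add]
  congr 1
  have := Finset.card_filter_add_card_filter_not (s := Finset.univ) (fun s : β => s ∈ T)
  rw [Finset.filter_mem_eq_inter, Finset.univ_inter, Finset.card_univ] at this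
  omega

def AA (c : Bool) (ξ : ℕ → Bool) : Set Lk := {x | x.2 (fun i => ξ i) = c}

lemma bad_finite (c : Bool) (H : Set Lk) (hH : ¬ SL.Null H) :
    {ξ | SL.Null (H ∩ AA c ξ)}.Finite := by
  classical
  by_contra hinf
  obtain ⟨ε, hε, hfr⟩ := SL.exists_freq hH
  obtain ⟨m, hm⟩ := exists_pow_lt_of_lt_one (half_pos hε) (show (1 / 2 : ℝ) < 1 by norm_num)
  obtain ⟨F, hF, hFc⟩ := Set.Infinite.exists_subset_card_eq hinf m
  have hnull : SL.Null (⋃ ξ ∈ F, H ∩ AA c ξ) := by
    clear hFc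
    induction F using Finset.induction_on with
    | empty => simpa using SL.null_empty
    | insert a F ha ih =>
      rw [Finset.set_biUnion_insert]
      refine Blk.Null.union (hF (Finset.mem_insert_self _ _)) (ih ?_)
      exact fun x hx => hF (Finset.mem_insert_of_mem hx)
  have hinj : ∀ᶠ k in atTop, Set.InjOn (fun (ξ : ℕ → Bool) (i : Fin k) => ξ i) F := by
    have : ∀ p ∈ F ×ˢ F, ∀ᶠ k in atTop,
        (fun i : Fin k => p.1 i) = (fun i : Fin k => p.2 i) → p.1 = p.2 := by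
      rintro ⟨a, b⟩ -
      by_cases hab : a = b
      · exact Eventually.of_forall (fun _ _ => hab)
      · obtain ⟨j, hj⟩ := Function.ne_iff.1 hab
        filter_upwards [eventually_gt_atTop j] with k hk h
        exact absurd (congrFun h ⟨j, hk⟩) hj
    filter_upwards [(Filter.eventually_all_finset (F ×ˢ F)).2 this] with k hk a ha b hb h
    exact hk (a, b) (Finset.mem_product.2 ⟨ha, hb⟩) h
  obtain ⟨k, h1, h2, h3⟩ :=
    (hfr.and_eventually (hinj.and (hnull.eventually (gt_mem_nhds (half_pos hε))))).exists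
  let Z : Set Lk := {x | ∀ ξ ∈ F, x.2 (fun i => ξ i) = !c}
  have hsub : H ⊆ (⋃ ξ ∈ F, H ∩ AA c ξ) ∪ Z := by
    intro x hx
    by_cases hz : x ∈ Z
    · exact Or.inr hz
    · left
      simp only [Z, mem_ofPred_eq, not_forall] at hz
      obtain ⟨ξ, a, b⟩ := hz
      simp only [mem_iUnion]
      refine ⟨ξ, a, hx, ?_⟩
      simpa [AA] using b
  have hZ : (SL.blk Z k : ℝ) / SL.n k = (1 / 2) ^ m := by
    have e := card_fix (F.image (fun (ξ : ℕ → Bool) (i : Fin k) => ξ i)) (!c)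
    rw [Finset.card_image_of_injOn h2, hFc] at e
    have e2 : SL.blk Z k = {g : (Fin k → Bool) → Bool |
        ∀ s ∈ F.image (fun (ξ : ℕ → Bool) (i : Fin k) => ξ i), g s = !c}.ncard := by
      refine (ncard_blk Z k).trans ?_
      congr 1
      ext g
      simp [Z]
    rw [← e2] at e
    simp only [Fintype.card_pi, Fintype.card_bool, Finset.prod_const, Finset.card_univ,
      Fintype.card_fin] at e
    have e3 : (SL.blk Z k : ℝ) * 2 ^ m = 2 ^ 2 ^ k := by exact_mod_cast e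
    simp only [SL] at e3 ⊢
    rw [← e3, one_div, inv_pow]
    have : (0 : ℝ) < 2 ^ 2 ^ k := by positivity
    have h0 : (SL.blk Z k : ℝ) ≠ 0 := by
      intro h
      simp only [SL] at h
      rw [h] at e3
      linarith
    simp only [SL] at h0
    field_simp
  have hle : (SL.blk H k : ℝ) / SL.n k ≤
      (SL.blk (⋃ ξ ∈ F, H ∩ AA c ξ) k : ℝ) / SL.n k + (SL.blk Z k : ℝ) / SL.n k := by
    rw [← add_div]
    refine div_le_div_of_nonneg_right ?_ (SL.pos k).le
    exact_mod_cast (SL.blk_mono hsub k).trans (SL.blk_union_le _ _ k)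
  linarith

noncomputable def JL : Idl Lk where
  N := SL.Null
  mono := fun h hs => h.mono hs
  union := fun h h' => h.union h'
  empty := SL.null_empty
  nuniv := SL_univ
  gen := by
    intro A B hAB 𝒯 h𝒯
    let bad : Bool → Set Lk → Set (ℕ → Bool) := fun c H => {ξ | ¬ SL.Null H ∧ SL.Null (H ∩ AA c ξ)}
    have hbad : ∀ c H, (bad c H).Finite := by
      intro c H
      by_cases h : SL.Null H
      · simp [bad, h]
      · exact (bad_finite c H h).subset (fun _ x => x.2)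
    let Bad : Set (ℕ → Bool) := ⋃ T : 𝒯, (bad true ((B \ A) \ T) ∪ bad false ((B \ A) ∩ T))
    have hc : #Bad < 𝔠 := by
      refine lt_of_le_of_lt mk_iUnion_le_sum_mk ?_
      refine lt_of_le_of_lt (sum_le_sum _ (fun _ => ℵ₀) (fun j => ?_)) ?_
      · exact ((hbad _ _).union (hbad _ _)).lt_aleph0.le
      · rw [sum_const']
        exact mul_lt_of_lt aleph0_le_continuum h𝒯 aleph0_lt_continuum
    obtain ⟨ξ, hξ⟩ : ∃ ξ, ξ ∉ Bad := by
      by_contra h
      push Not at h
      rw [eq_univ_of_forall h, mk_univ] at hc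
      simp at hc
    simp only [Bad, mem_iUnion, not_exists, mem_union, not_or] at hξ
    refine ⟨A ∪ ((B \ A) ∩ AA true ξ), subset_union_left,
      union_subset hAB (inter_subset_left.trans sdiff_subset), fun T hT => ⟨fun h => ?_, fun h => ?_⟩⟩
    · have h1 : SL.Null ((B \ A) \ T) := by
        by_contra hc
        refine (hξ ⟨T, hT⟩).1 ⟨hc, h.mono ?_⟩
        rintro x ⟨⟨a, b⟩, c⟩
        exact ⟨Or.inr ⟨a, c⟩, b⟩
      refine (h.union h1).mono (fun x hx => ?_)
      by_cases ha : x ∈ A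
      · exact Or.inl ⟨Or.inl ha, hx.2⟩
      · exact Or.inr ⟨⟨hx.1, ha⟩, hx.2⟩
    · have h1 : SL.Null ((B \ A) ∩ T) := by
        by_contra hc
        refine (hξ ⟨T, hT⟩).2 ⟨hc, h.mono ?_⟩
        rintro x ⟨⟨a, b⟩, c⟩
        refine ⟨b, ?_⟩
        rintro (d | ⟨-, d⟩)
        · exact a.2 d
        · simp only [AA, mem_ofPred_eq] at c d
          rw [c] at d
          exact absurd d (by simp)
      refine (h.union h1).mono (fun x hx => ?_)
      by_cases hb : x ∈ B
      · exact Or.inr ⟨⟨hb, hx.2⟩, hx.1⟩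
      · left
        refine ⟨hx.1, ?_⟩
        rintro (d | ⟨d, -⟩)
        · exact hx.2 d
        · exact hb d.1
  card := by
    rw [mk_set, ← two_power_aleph0]
    exact power_le_power_left two_ne_zero mk_le_aleph0

/-- The site matroid together with the well-founded sign system. -/
theorem exists_site : ∃ (ι : Type) (_ : LinearOrder ι) (_ : WellFoundedLT ι)
    (Plus : Set Lk → ι → Prop) (A : Matroid (Bool × Lk)),
    A.E = univ ∧ (∀ B, A.IsBase B → A.IsBase Bᶜ) ∧
    (∀ τ τ' a, Plus τ a → τ ⊆ τ' → Plus τ' a) ∧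
    (∀ τ, (∃ a, Plus τ a) ∨ ∃ a, Plus τᶜ a) ∧
    ∀ I, A.Indep I → ∀ a, Plus (Prod.mk true ⁻¹' I) a →
      ∃ a' < a, Plus (Prod.mk false ⁻¹' I)ᶜ a' := by
  obtain ⟨ι, _, _, G, 𝒞, hI, hdec, htask⟩ := JL.exists_system
  let pr : Set (Bool × Lk) → Set Lk × Set Lk := fun W => (Prod.mk true ⁻¹' W, Prod.mk false ⁻¹' W)
  have hinj : Function.Injective pr := by
    intro W W' h
    obtain ⟨h1, h2⟩ := Prod.ext_iff.1 h
    ext ⟨c, x⟩
    cases c
    · exact Set.ext_iff.1 h2 x
    · exact Set.ext_iff.1 h1 x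
  have hsurj : Function.Surjective pr := by
    rintro ⟨R, L'⟩
    refine ⟨{x | if x.1 then x.2 ∈ R else x.2 ∈ L'}, ?_⟩
    simp only [pr, Prod.mk.injEq]
    constructor <;> ext x <;> simp
  have hle : ∀ W W', SL.dbl.Null (W \ W') ↔ JL.le2 (pr W) (pr W') := fun W W' => SL.dbl_null _
  have : Nonempty (Bool × Lk) := ⟨(true, ⟨0, fun _ => true⟩)⟩
  obtain ⟨A, hE, hc, hB⟩ := SL.dbl.exists_matroid (pr ⁻¹' 𝒞) (fun C hC => hI.sym _ hC)
    (fun C hC C' hC' h => hinj (hI.anti _ hC _ hC' ((hle _ _).1 h))) (by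
      intro I X hIX
      obtain ⟨C, hC, h⟩ := htask (pr I) (pr X) (preimage_mono hIX) (preimage_mono hIX)
      obtain ⟨C, rfl⟩ := hsurj C
      refine ⟨C, hC, ?_⟩
      simpa only [hle] using h)
  refine ⟨ι, inferInstance, inferInstance, JL.Plus G, A, hE, hc,
    fun τ τ' a h hs => h.mono (JL.le_of_subset hs), hdec, fun I hI' a ha => ?_⟩
  obtain ⟨B, hBb, hIB⟩ := hI'.exists_isBase_superset
  obtain ⟨C, hC, hBC⟩ := hB B hBb
  have h1 : JL.le2 (pr I) (pr C) := (hle _ _).1 (hBC.1.mono (sdiff_subset_sdiff_left hIB))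
  obtain ⟨a', x, y⟩ := hI.rule _ hC a (ha.mono h1.1)
  exact ⟨a', x, y.mono h1.2.compl⟩

def f0 (p : ℤ × Bool) : ℤ := if (0 ≤ p.1 ↔ p.2 = true) then 2 * p.1 else 2 * p.1 + 1
def f1 (p : ℤ × Bool) : ℤ := if (1 ≤ p.1 ↔ p.2 = true) then 2 * p.1 - 1 else 2 * p.1

lemma f0_bij : Function.Bijective f0 := by
  constructor
  · rintro ⟨j, c⟩ ⟨j', c'⟩ h
    cases c <;> cases c' <;> simp only [f0] at h <;> split_ifs at h <;> simp_all <;> omega
  · intro k
    refine ⟨(k / 2, decide (0 ≤ k / 2 ↔ k % 2 = 0)), ?_⟩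
    simp only [f0, decide_eq_true_eq]
    split_ifs <;> omega

lemma f1_bij : Function.Bijective f1 := by
  constructor
  · rintro ⟨j, c⟩ ⟨j', c'⟩ h
    cases c <;> cases c' <;> simp only [f1] at h <;> split_ifs at h <;> simp_all <;> omega
  · intro k
    refine ⟨((k + 1) / 2, decide (1 ≤ (k + 1) / 2 ↔ k % 2 = 1)), ?_⟩
    simp only [f1, decide_eq_true_eq]
    split_ifs <;> omega

lemma f01 (j : ℤ) : ∃ j', f1 (j', true) = f0 (j, false) := by
  by_cases h : 0 ≤ j
  · refine ⟨j + 1, ?_⟩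
    simp only [f0, f1]
    split_ifs <;> simp_all <;> omega
  · refine ⟨j, ?_⟩
    simp only [f0, f1]
    split_ifs <;> simp_all <;> omega

lemma f10 (j : ℤ) : ∃ j', f0 (j', true) = f1 (j, false) := by
  by_cases h : 1 ≤ j
  · refine ⟨j, ?_⟩
    simp only [f0, f1]
    split_ifs <;> simp_all <;> omega
  · refine ⟨j - 1, ?_⟩
    simp only [f0, f1]
    split_ifs <;> simp_all <;> omega

lemma exists_chain (A : Matroid (Bool × Lk)) (hE : A.E = univ)
    (hc : ∀ B, A.IsBase B → A.IsBase Bᶜ) (ψ : ℤ × Lk ≃ ℕ) (f : ℤ × Bool → ℤ)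
    (hf : Function.Bijective f) :
    ∃ M : Matroid ℕ, M.E = univ ∧ M.dual = M ∧
      ∀ I, M.Indep I → ∀ j, A.Indep {y | ψ (f (j, y.1), y.2) ∈ I} := by
  let φ : ℤ × (Bool × Lk) ≃ ℕ :=
    (Equiv.prodAssoc ℤ Bool Lk).symm.trans (((Equiv.ofBijective f hf).prodCongr (Equiv.refl Lk)).trans ψ)
  have hφ : ∀ (I : Set ℕ) j, Prod.mk j ⁻¹' (φ.symm '' I) = {y | ψ (f (j, y.1), y.2) ∈ I} := by
    intro I j
    rw [Equiv.image_symm_eq_preimage]
    rfl
  have hM : ((Matroid.sum' (fun _ : ℤ => A)).mapEquiv φ).E = univ := by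
    rw [Matroid.mapEquiv_ground_eq, Matroid.sum'_ground_eq, hE]
    refine eq_univ_of_forall (fun x => ⟨φ.symm x, ?_, by simp⟩)
    simp only [mem_iUnion]
    exact ⟨(φ.symm x).1, (φ.symm x).2, trivial, rfl⟩
  have hb : ∀ B, ((Matroid.sum' (fun _ : ℤ => A)).mapEquiv φ).IsBase B →
      ((Matroid.sum' (fun _ : ℤ => A)).mapEquiv φ).IsBase Bᶜ := by
    intro B
    simp only [Matroid.mapEquiv_isBase_iff, Matroid.sum'_isBase_iff, hφ]
    exact fun h j => hc _ (h j)
  refine ⟨(Matroid.sum' (fun _ : ℤ => A)).mapEquiv φ, hM, ?_, ?_⟩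
  · refine Matroid.ext_isBase rfl (fun B _ => ?_)
    rw [Matroid.dual_isBase_iff', hM, ← compl_eq_univ_sdiff]
    exact ⟨fun h => by simpa using hb _ h.1, fun h => ⟨hb _ h, subset_univ _⟩⟩
  · intro I hI j
    rw [Matroid.mapEquiv_indep_iff, Matroid.sum'_indep_iff] at hI
    rw [← hφ]
    exact hI j

theorem exists_no_cover : ∃ M₀ M₁ : Matroid ℕ, M₀.E = univ ∧ M₁.E = univ ∧ M₀.dual = M₀ ∧
    M₁.dual = M₁ ∧ ∀ I₀ I₁ : Set ℕ, M₀.Indep I₀ → M₁.Indep I₁ → I₀ ∪ I₁ ≠ univ := by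
  obtain ⟨ι, _, _, Plus, A, hE, hc, hmono, htot, hrule⟩ := exists_site
  have : Nonempty Lk := ⟨⟨0, fun _ => true⟩⟩
  obtain ⟨ψ⟩ : Nonempty (ℤ × Lk ≃ ℕ) := nonempty_equiv_of_countable
  obtain ⟨M₀, a1, a2, a3⟩ := exists_chain A hE hc ψ f0 f0_bij
  obtain ⟨M₁, b1, b2, b3⟩ := exists_chain A hE hc ψ f1 f1_bij
  refine ⟨M₀, M₁, a1, b1, a2, b2, fun I₀ I₁ h0 h1 hcov => ?_⟩
  let lk : Set ℕ → ℤ → Set Lk := fun I k => {x | ψ (k, x) ∈ I}
  have c01 : ∀ k, (lk I₀ k)ᶜ ⊆ lk I₁ k := fun k x hx =>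
    ((hcov ▸ mem_univ (ψ (k, x)) : ψ (k, x) ∈ I₀ ∪ I₁)).resolve_left hx
  have c10 : ∀ k, (lk I₁ k)ᶜ ⊆ lk I₀ k := fun k x hx =>
    ((hcov ▸ mem_univ (ψ (k, x)) : ψ (k, x) ∈ I₀ ∪ I₁)).resolve_right hx
  have key : ∀ a : ι, (∀ j, ¬ Plus (lk I₀ (f0 (j, true))) a) ∧
      ∀ j, ¬ Plus (lk I₁ (f1 (j, true))) a := by
    intro a
    induction a using WellFoundedLT.induction with
    | ind a ih =>
      constructor
      · intro j h
        obtain ⟨a', x, y⟩ := hrule _ (a3 I₀ h0 j) a h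
        obtain ⟨j', e⟩ := f01 j
        refine (ih a' x).2 j' ?_
        rw [e]
        exact hmono _ _ _ y (c01 (f0 (j, false)))
      · intro j h
        obtain ⟨a', x, y⟩ := hrule _ (b3 I₁ h1 j) a h
        obtain ⟨j', e⟩ := f10 j
        refine (ih a' x).1 j' ?_
        rw [e]
        exact hmono _ _ _ y (c10 (f1 (j, false)))
  have e0 : f0 (0, true) = 0 := by simp [f0]
  have e1 : f1 (0, true) = 0 := by simp [f1]
  rcases htot (lk I₀ 0) with ⟨a, h⟩ | ⟨a, h⟩
  · exact (key a).1 0 (by rw [e0]; exact h)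
  · exact (key a).2 0 (by rw [e1]; exact hmono _ _ _ h (c01 _))

lemma indep_compl (M : Matroid ℕ) (hE : M.E = univ) (hd : M.dual = M) {P C S I : Set ℕ}
    (hPC : P ∪ C = univ) (hS : (M.restrict P).closure S = P) (hI : (M.contract Cᶜ).Indep I)
    (hSP : S ⊆ P) : M.Indep (S ∪ (C \ I))ᶜ := by
  have h1 : P ⊆ M.closure S := by
    intro x hx
    rw [← hS, Matroid.restrict_closure_eq _ hSP (by rw [hE]; exact subset_univ _)] at hx
    exact hx.1
  have h2 : C ⊆ M.closure (C \ I) := by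
    have a := hI.coindep
    rw [Matroid.dual_contract, hd] at a
    have b := a.compl_spanning.closure_eq
    have e : (M.delete Cᶜ).E = C := by rw [Matroid.delete_ground, hE]; simp
    rw [e, Matroid.delete_closure_eq] at b
    intro x hx
    rw [← b] at hx
    exact M.closure_subset_closure sdiff_subset hx.1
  have h3 : M.Spanning (S ∪ (C \ I)) := by
    rw [Matroid.spanning_iff_ground_subset_closure (by rw [hE]; exact subset_univ _), hE, ← hPC]
    exact union_subset (h1.trans (M.closure_subset_closure subset_union_left))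
      (h2.trans (M.closure_subset_closure subset_union_right))
  have := h3.compl_coindep.indep
  rwa [hd, hE, ← compl_eq_univ_sdiff] at this

end Crest.Agent.H7.Mt
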