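import Mathlib

set_option autoImplicit false
set_option linter.unusedSectionVars false

open Finset

namespace Crest.Agent.H7.Ry

/-- indicator of a proposition -/
noncomputable def ind (p : Prop) : ℝ := by classical exact if p then 1 else 0

lemma ind_true {p : Prop} (h : p) : ind p = 1 := by simp [ind, h]
lemma ind_false {p : Prop} (h : ¬ p) : ind p = 0 := by simp [ind, h]
lemma ind_nonneg (p : Prop) : 0 ≤ ind p := by unfold ind; split_ifs <;> norm_num
lemma ind_le_one (p : Prop) : ind p ≤ 1 := by unfold ind; split_ifs <;> norm_num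
lemma ind_mono {p r : Prop} (h : p → r) : ind p ≤ ind r := by
  by_cases hp : p
  · rw [ind_true hp, ind_true (h hp)]
  · rw [ind_false hp]; exact ind_nonneg _
lemma ind_or_le (p r : Prop) : ind (p ∨ r) ≤ ind p + ind r := by
  by_cases hp : p
  · rw [ind_true (Or.inl hp), ind_true hp]; linarith [ind_nonneg r]
  · by_cases hr : r
    · rw [ind_true (Or.inr hr), ind_true hr]; linarith [ind_nonneg p]
    · rw [ind_false (by tauto)]; linarith [ind_nonneg p, ind_nonneg r]
lemma ind_exists_le {ι : Type*} (s : Finset ι) (p : ι → Prop) :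
    ind (∃ i ∈ s, p i) ≤ ∑ i ∈ s, ind (p i) := by
  by_cases h : ∃ i ∈ s, p i
  · rw [ind_true h]
    obtain ⟨i, hi, hp⟩ := h
    calc (1:ℝ) = ind (p i) := (ind_true hp).symm
      _ ≤ _ := single_le_sum (f := fun i => ind (p i)) (fun j _ => ind_nonneg _) hi
  · rw [ind_false h]; exact sum_nonneg fun _ _ => ind_nonneg _
lemma sum_ind {ι : Type*} (s : Finset ι) (p : ι → Prop) [DecidablePred p] :
    ∑ i ∈ s, ind (p i) = ((s.filter p).card : ℝ) := by
  rw [card_filter]; push_cast
  refine sum_congr rfl fun i _ => ?_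
  by_cases h : p i <;> simp [ind, h]

lemma exp_le_quad {y : ℝ} (h : |y| ≤ 1) : Real.exp y ≤ 1 + y + y ^ 2 := by
  have := Real.abs_exp_sub_one_sub_id_le h
  have := (abs_le.1 this).2
  linarith

lemma exp_convex {θ ξ : ℝ} (h0 : 0 ≤ ξ) (h1 : ξ ≤ 1) :
    Real.exp (θ * ξ) ≤ 1 + (Real.exp θ - 1) * ξ := by
  have := convexOn_exp.2 (Set.mem_univ θ) (Set.mem_univ 0) h0 (sub_nonneg.2 h1) (by ring)
  simp only [smul_eq_mul, mul_zero, add_zero, Real.exp_zero, mul_one] at this
  rw [mul_comm θ ξ]; linarith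

section Proc
variable {Z : Type*} [Fintype Z]

structure IsK (π : List Z → Z → ℝ) : Prop where
  nonneg : ∀ h z, 0 ≤ π h z
  sum_one : ∀ h, ∑ z, π h z = 1

noncomputable def Ex (π : List Z → Z → ℝ) : ℕ → List Z → (List Z → ℝ) → ℝ
  | 0, h, Φ => Φ h
  | m+1, h, Φ => ∑ z, π h z * Ex π m (z :: h) Φ

variable {π : List Z → Z → ℝ}

lemma Ex_mono (hπ : IsK π) (m : ℕ) (h : List Z) {Φ Ψ : List Z → ℝ}
    (H : ∀ l : List Z, l.length = m → Φ (l ++ h) ≤ Ψ (l ++ h)) : Ex π m h Φ ≤ Ex π m h Ψ := by
  induction m generalizing h with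
  | zero => simpa [Ex] using H [] rfl
  | succ m ih =>
    simp only [Ex]
    refine sum_le_sum fun z _ => mul_le_mul_of_nonneg_left (ih _ fun l hl => ?_) (hπ.nonneg _ _)
    have := H (l ++ [z]) (by simp [hl])
    simpa using this

lemma Ex_const (hπ : IsK π) (m : ℕ) (h : List Z) (c : ℝ) : Ex π m h (fun _ => c) = c := by
  induction m generalizing h with
  | zero => rfl
  | succ m ih => simp only [Ex, ih]; rw [← sum_mul, hπ.sum_one, one_mul]

lemma Ex_add (m : ℕ) (h : List Z) (Φ Ψ : List Z → ℝ) :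
    Ex π m h (fun g => Φ g + Ψ g) = Ex π m h Φ + Ex π m h Ψ := by
  induction m generalizing h with
  | zero => rfl
  | succ m ih => simp only [Ex, ih, mul_add, sum_add_distrib]

lemma Ex_mul (m : ℕ) (h : List Z) (c : ℝ) (Φ : List Z → ℝ) :
    Ex π m h (fun g => c * Φ g) = c * Ex π m h Φ := by
  induction m generalizing h with
  | zero => rfl
  | succ m ih => simp only [Ex, ih, mul_sum]; exact sum_congr rfl fun z _ => by ring

lemma Ex_sum {ι : Type*} (hπ : IsK π) (m : ℕ) (h : List Z) (s : Finset ι) (Φ : ι → List Z → ℝ) :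
    Ex π m h (fun g => ∑ i ∈ s, Φ i g) = ∑ i ∈ s, Ex π m h (Φ i) := by
  classical
  induction s using Finset.induction_on with
  | empty => simpa using Ex_const hπ m h 0
  | insert a s ha ih => simp only [sum_insert ha]; rw [Ex_add, ih]

lemma Ex_steps (m₁ m₂ : ℕ) (h : List Z) (Φ : List Z → ℝ) :
    Ex π (m₁ + m₂) h Φ = Ex π m₁ h (fun h' => Ex π m₂ h' Φ) := by
  induction m₁ generalizing h with
  | zero => simp [Ex]
  | succ m ih => rw [Nat.add_right_comm]; simp only [Ex, ih]

lemma Ex_super (hπ : IsK π) (m : ℕ) (h : List Z) (M : List Z → ℝ)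
    (H : ∀ g : List Z, h.length ≤ g.length → g.length < h.length + m →
      ∑ z, π g z * M (z :: g) ≤ M g) : Ex π m h M ≤ M h := by
  induction m generalizing h with
  | zero => exact le_rfl
  | succ m ih =>
    simp only [Ex]
    refine le_trans (sum_le_sum fun z _ => mul_le_mul_of_nonneg_left (ih _ fun g h1 h2 => ?_)
      (hπ.nonneg _ _)) (H h le_rfl (by omega))
    simp only [List.length_cons] at h1 h2
    exact H g (by omega) (by omega)

noncomputable def Pr (π : List Z → Z → ℝ) (m : ℕ) (h : List Z) (E : List Z → Prop) : ℝ :=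
  Ex π m h (fun g => ind (E g))

lemma Pr_mono (hπ : IsK π) (m : ℕ) (h : List Z) {E E' : List Z → Prop}
    (H : ∀ l : List Z, l.length = m → E (l ++ h) → E' (l ++ h)) : Pr π m h E ≤ Pr π m h E' :=
  Ex_mono hπ m h fun l hl => ind_mono (H l hl)

lemma Pr_nonneg (hπ : IsK π) (m : ℕ) (h : List Z) (E : List Z → Prop) : 0 ≤ Pr π m h E := by
  rw [← Ex_const hπ m h 0]; exact Ex_mono hπ m h fun l _ => ind_nonneg _

lemma Pr_le_one (hπ : IsK π) (m : ℕ) (h : List Z) (E : List Z → Prop) : Pr π m h E ≤ 1 := by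
  rw [← Ex_const hπ m h 1]; exact Ex_mono hπ m h fun l _ => ind_le_one _

lemma Pr_or (hπ : IsK π) (m : ℕ) (h : List Z) (E E' : List Z → Prop) :
    Pr π m h (fun g => E g ∨ E' g) ≤ Pr π m h E + Pr π m h E' := by
  unfold Pr; rw [← Ex_add]; exact Ex_mono hπ m h fun l _ => ind_or_le _ _

lemma Pr_exists {ι : Type*} (hπ : IsK π) (m : ℕ) (h : List Z) (s : Finset ι)
    (E : ι → List Z → Prop) :
    Pr π m h (fun g => ∃ i ∈ s, E i g) ≤ ∑ i ∈ s, Pr π m h (E i) := by
  unfold Pr; rw [← Ex_sum hπ]; exact Ex_mono hπ m h fun l _ => ind_exists_le _ _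

lemma Pr_exists_le {ι : Type*} (hπ : IsK π) (m : ℕ) (h : List Z) (s : Finset ι)
    (E : ι → List Z → Prop) (ε : ℝ) (H : ∀ i ∈ s, Pr π m h (E i) ≤ ε) :
    Pr π m h (fun g => ∃ i ∈ s, E i g) ≤ s.card * ε :=
  (Pr_exists hπ m h s E).trans (by simpa using sum_le_card_nsmul s _ ε H)

lemma Pr_markov (hπ : IsK π) (m : ℕ) (h : List Z) (E : List Z → Prop) (Φ : List Z → ℝ) (c : ℝ)
    (hc : 0 < c) (h0 : ∀ g, 0 ≤ Φ g)
    (H : ∀ l : List Z, l.length = m → E (l ++ h) → c ≤ Φ (l ++ h)) :
    Pr π m h E ≤ c⁻¹ * Ex π m h Φ := by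
  rw [← Ex_mul]
  refine Ex_mono hπ m h fun l hl => ?_
  by_cases hE : E (l ++ h)
  · rw [ind_true hE, ← div_eq_inv_mul, le_div_iff₀ hc, one_mul]; exact H l hl hE
  · rw [ind_false hE]; exact mul_nonneg (inv_nonneg.2 hc.le) (h0 _)

lemma Pr_cond (hπ : IsK π) (m₁ m₂ : ℕ) (E : List Z → Prop) (ε : ℝ)
    (H : ∀ h₀ : List Z, h₀.length = m₁ → Pr π m₂ h₀ E ≤ ε) : Pr π (m₁ + m₂) [] E ≤ ε := by
  unfold Pr; rw [Ex_steps, ← Ex_const hπ m₁ [] ε]
  exact Ex_mono hπ _ _ fun l hl => by rw [List.append_nil]; exact H l hl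

lemma Pr_tail (hπ : IsK π) (n N : ℕ) (hn : n ≤ N) (E : List Z → Prop) :
    Pr π N [] (fun g => E (g.drop (N - n))) = Pr π n [] E := by
  obtain ⟨m, rfl⟩ := Nat.exists_eq_add_of_le hn
  unfold Pr; rw [Ex_steps]
  have key : ∀ h' : List Z, Ex π m h' (fun g => ind (E (g.drop (n + m - n)))) = ind (E h') := by
    intro h'
    rw [← Ex_const hπ m h' (ind (E h'))]
    apply le_antisymm <;> refine Ex_mono hπ _ _ fun l hl => ?_ <;>
      rw [show n + m - n = l.length by omega, List.drop_left]
  simp only [key]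

def Supp (π : List Z → Z → ℝ) : List Z → Prop
  | [] => True
  | z :: h => Supp π h ∧ 0 < π h z

lemma exists_path_aux (hπ : IsK π) (m : ℕ) (h : List Z) (hs : Supp π h) (Φ : List Z → ℝ) (c : ℝ)
    (H : Ex π m h Φ < c) : ∃ l : List Z, l.length = m ∧ Supp π (l ++ h) ∧ Φ (l ++ h) < c := by
  induction m generalizing h with
  | zero => exact ⟨[], rfl, hs, H⟩
  | succ m ih =>
    simp only [Ex] at H
    have : ∃ z, 0 < π h z ∧ Ex π m (z :: h) Φ < c := by
      by_contra hcon
      push Not at hcon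
      have : ∑ z, π h z * c ≤ ∑ z, π h z * Ex π m (z :: h) Φ := by
        refine sum_le_sum fun z _ => ?_
        rcases (hπ.nonneg h z).eq_or_lt with h0 | h0
        · rw [← h0]; simp
        · exact mul_le_mul_of_nonneg_left (hcon z h0) h0.le
      rw [← sum_mul, hπ.sum_one, one_mul] at this
      linarith
    obtain ⟨z, hz, hz'⟩ := this
    obtain ⟨l, hl, h1, h2⟩ := ih (z :: h) ⟨hs, hz⟩ hz'
    exact ⟨l ++ [z], by simp [hl], by simpa using h1, by simpa using h2⟩

lemma exists_path (hπ : IsK π) (N : ℕ) (E : List Z → Prop) (H : Pr π N [] E < 1) :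
    ∃ h : List Z, h.length = N ∧ Supp π h ∧ ¬ E h := by
  obtain ⟨l, hl, h1, h2⟩ := exists_path_aux hπ N [] trivial _ 1 H
  refine ⟨l, hl, by simpa using h1, fun hE => ?_⟩
  simp only [List.append_nil] at h2
  rw [ind_true hE] at h2; exact lt_irrefl _ h2

lemma Supp_drop (h : List Z) (hs : Supp π h) (k : ℕ) : Supp π (h.drop k) := by
  induction k generalizing h with
  | zero => simpa
  | succ k ih =>
    cases h with
    | nil => simpa
    | cons z h => simpa using ih h hs.1

/-- the choice at time `s` -/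
def toF [Inhabited Z] : List Z → ℕ → Z
  | [], _ => default
  | z :: h, s => if s = h.length then z else toF h s

section
variable [Inhabited Z]
omit [Fintype Z]

lemma toF_cons_self (z : Z) (h : List Z) : toF (z :: h) h.length = z := by simp [toF]
lemma toF_cons_lt (z : Z) (h : List Z) {s : ℕ} (hs : s < h.length) :
    toF (z :: h) s = toF h s := by simp [toF, hs.ne]
lemma toF_append (l h : List Z) {s : ℕ} (hs : s < h.length) : toF (l ++ h) s = toF h s := by
  induction l with
  | nil => rfl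
  | cons z l ih => rw [List.cons_append, toF_cons_lt _ _ (by simp; omega), ih]
lemma toF_drop (h : List Z) (k : ℕ) {s : ℕ} (hs : s < h.length - k) :
    toF (h.drop k) s = toF h s := by
  conv_rhs => rw [← List.take_append_drop k h]
  rw [toF_append _ _ (by simpa using hs)]
lemma drop_succ_eq (h : List Z) {t : ℕ} (ht : t < h.length) :
    h.drop (h.length - (t + 1)) = toF h t :: h.drop (h.length - t) := by
  induction h with
  | nil => simp at ht
  | cons z h ih =>
    simp only [List.length_cons] at ht ⊢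
    rcases Nat.lt_succ_iff_lt_or_eq.1 ht with h1 | h1
    · rw [show h.length + 1 - (t + 1) = (h.length - (t + 1)) + 1 by omega,
        show h.length + 1 - t = (h.length - t) + 1 by omega, List.drop_succ_cons,
        List.drop_succ_cons, toF_cons_lt _ _ h1, ih h1]
    · subst h1; simp [toF]
end

lemma Supp_step [Inhabited Z] (h : List Z) (hs : Supp π h) {t : ℕ} (ht : t < h.length) :
    0 < π (h.drop (h.length - t)) (toF h t) := by
  have := Supp_drop h hs (h.length - (t + 1))
  rw [drop_succ_eq h ht] at this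
  exact this.2

/-- exponential moment lemma -/
lemma Pr_exp [Inhabited Z] (hπ : IsK π) (ξ : ℕ → Z → ℝ) (b : ℕ → ℝ) (h₀ : List Z) (m : ℕ)
    (h0 : ∀ s z, 0 ≤ ξ s z) (h1 : ∀ s z, ξ s z ≤ 1)
    (hb : ∀ g : List Z, ∑ z, π g z * ξ g.length z ≤ b g.length) (θ x : ℝ) (hθ : 0 ≤ θ) :
    Pr π m h₀ (fun h => x ≤ ∑ s ∈ Ico h₀.length (h₀.length + m), ξ s (toF h s)) ≤
      Real.exp (-(θ * x) + (Real.exp θ - 1) * ∑ s ∈ Ico h₀.length (h₀.length + m), b s) := by
  set n₀ := h₀.length
  let M : List Z → ℝ := fun h => Real.exp (θ * ∑ s ∈ Ico n₀ h.length, ξ s (toF h s) -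
    (Real.exp θ - 1) * ∑ s ∈ Ico n₀ h.length, b s)
  have hsup : Ex π m h₀ M ≤ M h₀ := by
    refine Ex_super hπ m h₀ M fun g hg _ => ?_
    have e1 : ∀ z, M (z :: g) = M g * Real.exp (-((Real.exp θ - 1) * b g.length)) *
        Real.exp (θ * ξ g.length z) := by
      intro z
      simp only [M, List.length_cons]
      rw [sum_Ico_succ_top hg, sum_Ico_succ_top hg, toF_cons_self, ← Real.exp_add,
        ← Real.exp_add]
      congr 1
      rw [sum_congr rfl (fun s hs => by rw [toF_cons_lt z g (mem_Ico.1 hs).2])]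
      ring
    have hMg : 0 < M g := Real.exp_pos _
    have he : 0 ≤ Real.exp θ - 1 := by linarith [Real.one_le_exp hθ]
    calc ∑ z, π g z * M (z :: g) = M g * Real.exp (-((Real.exp θ - 1) * b g.length)) *
          ∑ z, π g z * Real.exp (θ * ξ g.length z) := by
            rw [mul_sum]; exact sum_congr rfl fun z _ => by rw [e1]; ring
      _ ≤ M g * Real.exp (-((Real.exp θ - 1) * b g.length)) *
          Real.exp ((Real.exp θ - 1) * b g.length) := by
            refine mul_le_mul_of_nonneg_left ?_ (by positivity)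
            calc ∑ z, π g z * Real.exp (θ * ξ g.length z)
                ≤ ∑ z, π g z * (1 + (Real.exp θ - 1) * ξ g.length z) :=
                  sum_le_sum fun z _ => mul_le_mul_of_nonneg_left (exp_convex (h0 _ _) (h1 _ _))
                    (hπ.nonneg _ _)
              _ = 1 + (Real.exp θ - 1) * ∑ z, π g z * ξ g.length z := by
                  simp only [mul_add, sum_add_distrib, mul_one, hπ.sum_one, mul_sum]
                  congr 1; exact sum_congr rfl fun z _ => by ring
              _ ≤ 1 + (Real.exp θ - 1) * b g.length := by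
                  linarith [mul_le_mul_of_nonneg_left (hb g) he]
              _ ≤ _ := by linarith [Real.add_one_le_exp ((Real.exp θ - 1) * b g.length)]
      _ = M g := by rw [mul_assoc, ← Real.exp_add]; simp
  have hM0 : M h₀ = 1 := by simp [M, n₀]
  refine (Pr_markov hπ m h₀ _ M (Real.exp (θ * x - (Real.exp θ - 1) *
    ∑ s ∈ Ico n₀ (n₀ + m), b s)) (Real.exp_pos _) (fun g => (Real.exp_pos _).le) ?_).trans ?_
  · intro l hl hE
    simp only [M, List.length_append, hl]
    rw [Nat.add_comm m]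
    exact Real.exp_le_exp.2 (by linarith [mul_le_mul_of_nonneg_left hE hθ])
  · rw [← Real.exp_neg]
    calc _ ≤ Real.exp _ * 1 := mul_le_mul_of_nonneg_left (hM0 ▸ hsup) (Real.exp_pos _).le
      _ = _ := by rw [mul_one]; congr 1; ring

/-- partial sums of increments -/
noncomputable def SD (D : List Z → Z → ℝ) : List Z → ℝ
  | [] => 0
  | z :: h => SD D h + D h z

/-- Azuma -/
lemma Pr_azuma (hπ : IsK π) (D : List Z → Z → ℝ) (n : ℕ) (c θ x : ℝ) (hθ : 0 ≤ θ)
    (hθc : θ * c ≤ 1) (hD : ∀ g z, g.length < n → |D g z| ≤ c)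
    (hE : ∀ g : List Z, g.length < n → ∑ z, π g z * D g z ≤ 0) :
    Pr π n [] (fun h => x ≤ SD D h) ≤ Real.exp (-(θ * x) + θ ^ 2 * c ^ 2 * n) := by
  let M : List Z → ℝ := fun h => Real.exp (θ * SD D h - θ ^ 2 * c ^ 2 * h.length)
  have hsup : Ex π n [] M ≤ M [] := by
    refine Ex_super hπ n [] M fun g _ hg => ?_
    simp only [List.length_nil, zero_add] at hg
    have e1 : ∀ z, M (z :: g) = M g * Real.exp (-(θ ^ 2 * c ^ 2)) * Real.exp (θ * D g z) := by
      intro z
      simp only [M, List.length_cons, SD]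
      rw [← Real.exp_add, ← Real.exp_add]
      congr 1; push_cast; ring
    have hMg : 0 < M g := Real.exp_pos _
    calc ∑ z, π g z * M (z :: g) = M g * Real.exp (-(θ ^ 2 * c ^ 2)) *
          ∑ z, π g z * Real.exp (θ * D g z) := by
            rw [mul_sum]; exact sum_congr rfl fun z _ => by rw [e1]; ring
      _ ≤ M g * Real.exp (-(θ ^ 2 * c ^ 2)) * Real.exp (θ ^ 2 * c ^ 2) := by
            refine mul_le_mul_of_nonneg_left ?_ (by positivity)
            calc ∑ z, π g z * Real.exp (θ * D g z)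
                ≤ ∑ z, π g z * (1 + θ * D g z + θ ^ 2 * c ^ 2) := by
                  refine sum_le_sum fun z _ => mul_le_mul_of_nonneg_left ?_ (hπ.nonneg _ _)
                  have h2 := hD g z hg
                  have h3 : |θ * D g z| ≤ θ * c := by
                    rw [abs_mul, abs_of_nonneg hθ]; exact mul_le_mul_of_nonneg_left h2 hθ
                  have h4 := exp_le_quad (h3.trans hθc)
                  have h5 : (θ * D g z) ^ 2 ≤ (θ * c) ^ 2 := by
                    rw [← sq_abs]; exact pow_le_pow_left₀ (abs_nonneg _) h3 2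
                  nlinarith
              _ = 1 + θ * ∑ z, π g z * D g z + θ ^ 2 * c ^ 2 := by
                  simp only [mul_add, sum_add_distrib, mul_one, hπ.sum_one, mul_sum,
                    ← sum_mul, one_mul]
                  congr 2; exact sum_congr rfl fun z _ => by ring
              _ ≤ 1 + θ ^ 2 * c ^ 2 := by nlinarith [hE g hg]
              _ ≤ _ := by linarith [Real.add_one_le_exp (θ ^ 2 * c ^ 2)]
      _ = M g := by rw [mul_assoc, ← Real.exp_add]; simp
  have hM0 : M [] = 1 := by simp [M, SD]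
  refine (Pr_markov hπ n [] _ M (Real.exp (θ * x - θ ^ 2 * c ^ 2 * n)) (Real.exp_pos _)
    (fun g => (Real.exp_pos _).le) ?_).trans ?_
  · intro l hl hE
    simp only [M, List.append_nil, hl] at hE ⊢
    exact Real.exp_le_exp.2 (by linarith [mul_le_mul_of_nonneg_left hE hθ])
  · rw [← Real.exp_neg]
    calc _ ≤ Real.exp _ * 1 := mul_le_mul_of_nonneg_left (hM0 ▸ hsup) (Real.exp_pos _).le
      _ = _ := by rw [mul_one]; congr 1; ring

end Proc

end Crest.Agent.H7.Ry
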