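import Crest.Agent.H7.RyA

set_option autoImplicit false
set_option linter.unusedSectionVars false

open Finset

namespace Crest.Agent.H7.Ry

section Weights
variable {Z : Type*} [Fintype Z] [Inhabited Z] {ι : Type*}

/-- kill probability -/
noncomputable def pk (π : List Z → Z → ℝ) (kill : ι → ℕ → Z → Prop) (h : List Z) (y : ι) : ℝ :=
  ∑ z, π h z * ind (kill y h.length z)

/-- survival weights -/
noncomputable def Wt (π : List Z → Z → ℝ) (kill : ι → ℕ → Z → Prop) : List Z → ι → ℝ
  | [], _ => 1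
  | z :: h, y => (1 - ind (kill y h.length z)) * Wt π kill h y / (1 - pk π kill h y)

variable {π : List Z → Z → ℝ} {kill : ι → ℕ → Z → Prop}

lemma pk_nonneg (hπ : IsK π) (h : List Z) (y : ι) : 0 ≤ pk π kill h y :=
  sum_nonneg fun z _ => mul_nonneg (hπ.nonneg _ _) (ind_nonneg _)

lemma Wt_alive {h : List Z} {y : ι} (H : Wt π kill h y ≠ 0) :
    ∀ s < h.length, ¬ kill y s (toF h s) := by
  induction h with
  | nil => simp
  | cons z h ih =>
    simp only [Wt] at H
    have h1 : ¬ kill y h.length z := fun hk => H (by rw [ind_true hk]; simp)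
    have h2 : Wt π kill h y ≠ 0 := fun h0 => H (by rw [h0]; simp)
    intro s hs
    rcases Nat.lt_succ_iff_lt_or_eq.1 hs with h3 | h3
    · rw [toF_cons_lt _ _ h3]; exact ih h2 s h3
    · subst h3; rw [toF_cons_self]; exact h1

lemma Wt_bounds (hπ : IsK π) {y : ι} {α : ℝ} (hα : α ≤ 1 / 2) (hp : ∀ h, pk π kill h y ≤ α)
    (h : List Z) : 0 ≤ Wt π kill h y ∧ Wt π kill h y ≤ Real.exp (2 * α * h.length) := by
  induction h with
  | nil => simp [Wt]
  | cons z h ih =>
    simp only [Wt, List.length_cons]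
    have h1 := hp h
    have h2 := pk_nonneg (kill := kill) hπ h y
    have h3 : 0 < 1 - pk π kill h y := by linarith
    have h4 := ind_nonneg (kill y h.length z)
    have h5 := ind_le_one (kill y h.length z)
    refine ⟨div_nonneg (mul_nonneg (by linarith) ih.1) h3.le, ?_⟩
    rw [div_le_iff₀ h3]
    push_cast
    rw [mul_add, Real.exp_add, mul_one]
    have h6 := Real.add_one_le_exp (2 * α)
    have h7 : 1 ≤ Real.exp (2 * α) * (1 - pk π kill h y) := by nlinarith
    have h8 : 0 < Real.exp (2 * α * h.length) := Real.exp_pos _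
    calc _ ≤ 1 * Real.exp (2 * α * h.length) :=
          mul_le_mul (by linarith) ih.2 ih.1 zero_le_one
      _ ≤ _ := by nlinarith

lemma Wt_ge_one (hπ : IsK π) {y : ι} {α : ℝ} (hα : α ≤ 1 / 2) (hp : ∀ h, pk π kill h y ≤ α)
    (h : List Z) (H : ∀ s < h.length, ¬ kill y s (toF h s)) : 1 ≤ Wt π kill h y := by
  induction h with
  | nil => simp [Wt]
  | cons z h ih =>
    simp only [Wt]
    have h1 := hp h
    have h2 := pk_nonneg (kill := kill) hπ h y
    have h3 : 0 < 1 - pk π kill h y := by linarith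
    have h4 : ¬ kill y h.length z := by
      have := H h.length (by simp); rwa [toF_cons_self] at this
    have h5 := ih fun s hs => by
      have := H s (by simp; omega); rwa [toF_cons_lt _ _ hs] at this
    rw [ind_false h4, le_div_iff₀ h3]; linarith

lemma Wt_mart (hπ : IsK π) {y : ι} {α : ℝ} (hα : α ≤ 1 / 2) (hp : ∀ h, pk π kill h y ≤ α)
    (h : List Z) : ∑ z, π h z * Wt π kill (z :: h) y = Wt π kill h y := by
  have h3 : 0 < 1 - pk π kill h y := by linarith [hp h]
  simp only [Wt]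
  have : ∑ z, π h z * ((1 - ind (kill y h.length z)) * Wt π kill h y / (1 - pk π kill h y)) =
      (∑ z, π h z - ∑ z, π h z * ind (kill y h.length z)) *
        (Wt π kill h y / (1 - pk π kill h y)) := by
    rw [← sum_sub_distrib, sum_mul]; exact sum_congr rfl fun z _ => by ring
  rw [this, hπ.sum_one]
  change (1 - pk π kill h y) * _ = _
  field_simp

/-- data for the tail lemma -/
structure TailHyp (π : List Z → Z → ℝ) (kill : ι → ℕ → Z → Prop) (Y : Finset ι)
    (Exc : ℕ → Z → Prop) (κ Q y₀ : ℝ) : Prop where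
  hκ : 1 ≤ κ
  hQ : 2 * κ ≤ Q
  hp : ∀ y ∈ Y, ∀ h, pk π kill h y ≤ κ / Q
  hY : (Y.card : ℝ) ≤ y₀
  hy : 0 < y₀
  hk : ∀ s z, ¬ Exc s z → ∑ y ∈ Y, ind (kill y s z) ≤ κ / Q * y₀

noncomputable def Mass (π : List Z → Z → ℝ) (kill : ι → ℕ → Z → Prop) (Y : Finset ι)
    (h : List Z) : ℝ := ∑ y ∈ Y, Wt π kill h y

noncomputable def Dtr (π : List Z → Z → ℝ) (kill : ι → ℕ → Z → Prop) (Y : Finset ι) (c : ℝ)
    (h : List Z) (z : Z) : ℝ := max (Mass π kill Y (z :: h) - Mass π kill Y h) (-c)

variable {Y : Finset ι} {Exc : ℕ → Z → Prop} {κ Q y₀ : ℝ}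

lemma TailHyp.alpha (T : TailHyp π kill Y Exc κ Q y₀) : κ / Q ≤ 1 / 2 := by
  have := T.hκ; have := T.hQ
  rw [div_le_iff₀ (by linarith)]; linarith

lemma TailHyp.W (hπ : IsK π) (T : TailHyp π kill Y Exc κ Q y₀) {y : ι} (hy : y ∈ Y) (h : List Z)
    (hn : (h.length : ℝ) ≤ 2 * Q) : 0 ≤ Wt π kill h y ∧ Wt π kill h y ≤ Real.exp (4 * κ) := by
  have := Wt_bounds hπ T.alpha (T.hp y hy) h
  refine ⟨this.1, this.2.trans (Real.exp_le_exp.2 ?_)⟩
  have h1 := T.hκ; have h2 := T.hQ
  have hQ : 0 < Q := by linarith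
  calc 2 * (κ / Q) * h.length ≤ 2 * (κ / Q) * (2 * Q) :=
        mul_le_mul_of_nonneg_left hn (by positivity)
    _ = 4 * κ := by field_simp; ring

lemma TailHyp.mass_nonneg (hπ : IsK π) (T : TailHyp π kill Y Exc κ Q y₀) (h : List Z) :
    0 ≤ Mass π kill Y h :=
  sum_nonneg fun y hy => (Wt_bounds hπ T.alpha (T.hp y hy) h).1

lemma TailHyp.up (hπ : IsK π) (T : TailHyp π kill Y Exc κ Q y₀) (h : List Z)
    (hn : (h.length : ℝ) ≤ 2 * Q) (z : Z) :
    Mass π kill Y (z :: h) - Mass π kill Y h ≤ 2 * Real.exp (4 * κ) * (κ / Q) * y₀ := by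
  have hα := T.alpha
  have hα0 : 0 ≤ κ / Q := div_nonneg (by linarith [T.hκ]) (by linarith [T.hκ, T.hQ])
  unfold Mass
  rw [← sum_sub_distrib]
  calc _ ≤ ∑ y ∈ Y, 2 * Real.exp (4 * κ) * (κ / Q) := by
        refine sum_le_sum fun y hy => ?_
        simp only [Wt]
        obtain ⟨w0, w1⟩ := T.W hπ hy h hn
        have h1 := T.hp y hy h
        have h2 := pk_nonneg (kill := kill) hπ h y
        have h3 : 0 < 1 - pk π kill h y := by linarith
        have h4 := ind_nonneg (kill y h.length z)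
        rw [sub_le_iff_le_add, div_le_iff₀ h3]
        have h5 : Wt π kill h y * pk π kill h y ≤ Real.exp (4 * κ) * (κ / Q) :=
          mul_le_mul w1 h1 h2 (Real.exp_pos _).le
        have h6 : 0 ≤ Real.exp (4 * κ) * (κ / Q) := by positivity
        nlinarith
    _ = Y.card * (2 * Real.exp (4 * κ) * (κ / Q)) := by simp
    _ ≤ y₀ * (2 * Real.exp (4 * κ) * (κ / Q)) :=
        mul_le_mul_of_nonneg_right T.hY (by positivity)
    _ = _ := by ring

lemma TailHyp.down (hπ : IsK π) (T : TailHyp π kill Y Exc κ Q y₀) (h : List Z)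
    (hn : (h.length : ℝ) ≤ 2 * Q) (z : Z) (hz : ¬ Exc h.length z) :
    -(2 * Real.exp (4 * κ) * (κ / Q) * y₀) ≤ Mass π kill Y (z :: h) - Mass π kill Y h := by
  have hα := T.alpha
  have hα0 : 0 ≤ κ / Q := div_nonneg (by linarith [T.hκ]) (by linarith [T.hκ, T.hQ])
  have hk := T.hk _ _ hz
  have hy0 := T.hy
  unfold Mass
  rw [← sum_sub_distrib]
  calc _ ≤ -(Real.exp (4 * κ) * ∑ y ∈ Y, ind (kill y h.length z)) := by
        have : 0 ≤ Real.exp (4 * κ) * (κ / Q * y₀) := by positivity
        nlinarith [mul_le_mul_of_nonneg_left hk (Real.exp_pos (4 * κ)).le]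
    _ = ∑ y ∈ Y, -(Real.exp (4 * κ) * ind (kill y h.length z)) := by
        rw [sum_neg_distrib, mul_sum]
    _ ≤ _ := by
        refine sum_le_sum fun y hy => ?_
        simp only [Wt]
        obtain ⟨w0, w1⟩ := T.W hπ hy h hn
        have h1 := T.hp y hy h
        have h2 := pk_nonneg (kill := kill) hπ h y
        have h3 : 0 < 1 - pk π kill h y := by linarith
        by_cases hk : kill y h.length z
        · rw [ind_true hk]; simp; exact w1
        · rw [ind_false hk]
          simp only [mul_zero, neg_zero, sub_zero, one_mul, sub_nonneg]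
          rw [le_div_iff₀ h3]; nlinarith

lemma TailHyp.mart (hπ : IsK π) (T : TailHyp π kill Y Exc κ Q y₀) (h : List Z) :
    ∑ z, π h z * (Mass π kill Y (z :: h) - Mass π kill Y h) = 0 := by
  simp only [mul_sub, sum_sub_distrib, ← sum_mul, hπ.sum_one, one_mul]
  unfold Mass
  simp only [mul_sum]
  rw [sum_comm, sub_eq_zero]
  exact sum_congr rfl fun y hy => Wt_mart hπ T.alpha (T.hp y hy) h

lemma center_bound (hπ : IsK π) (f : Z → ℝ) (h : List Z) (c : ℝ) (hf : ∀ z, |f z| ≤ c) (z : Z) :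
    |f z - ∑ z, π h z * f z| ≤ 2 * c := by
  have : |∑ z, π h z * f z| ≤ c := by
    calc _ ≤ ∑ z, |π h z * f z| := abs_sum_le_sum_abs _ _
      _ ≤ ∑ z, π h z * c := sum_le_sum fun z _ => by
          rw [abs_mul, abs_of_nonneg (hπ.nonneg _ _)]
          exact mul_le_mul_of_nonneg_left (hf z) (hπ.nonneg _ _)
      _ = c := by rw [← sum_mul, hπ.sum_one, one_mul]
  have h1 := abs_le.1 this
  have h2 := abs_le.1 (hf z)
  rw [abs_le]; constructor <;> linarith

lemma center_mean (hπ : IsK π) (f : Z → ℝ) (h : List Z) (a : ℝ) :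
    ∑ z, π h z * ((f z - ∑ z, π h z * f z) * a) = 0 := by
  have : ∑ z, π h z * ((f z - ∑ z, π h z * f z) * a) =
      (∑ z, π h z * f z - (∑ z, π h z) * ∑ z, π h z * f z) * a := by
    rw [sum_mul, ← sum_sub_distrib, sum_mul]; exact sum_congr rfl fun z _ => by ring
  rw [this, hπ.sum_one]; ring

lemma azuma_num (hπ : IsK π) (T : TailHyp π kill Y Exc κ Q y₀) (D : List Z → Z → ℝ) (n : ℕ)
    (hn : (n : ℝ) ≤ 2 * Q) (η : ℝ) (hη0 : 0 ≤ η) (hη : η ≤ 1)
    (hD : ∀ g z, g.length < n → |D g z| ≤ 2 * (2 * Real.exp (4 * κ) * (κ / Q) * y₀))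
    (hE : ∀ g : List Z, g.length < n → ∑ z, π g z * D g z ≤ 0) :
    Pr π n [] (fun h => η * y₀ ≤ SD D h) ≤
      Real.exp (-(η ^ 2 * Q / (128 * Real.exp (4 * κ) ^ 2 * κ ^ 2))) := by
  have h1 := T.hκ; have h2 := T.hQ; have h3 := T.hy
  have hQ : 0 < Q := by linarith
  have hκ : 0 < κ := by linarith
  set U := Real.exp (4 * κ)
  have hU : 1 ≤ U := Real.one_le_exp (by linarith)
  have hU0 : 0 < U := by linarith
  set c := 2 * (2 * U * (κ / Q) * y₀) with hc
  have hc0 : 0 < c := by positivity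
  refine (Pr_azuma hπ D n c (η * y₀ / (4 * c ^ 2 * Q)) (η * y₀) (by positivity) ?_ hD hE).trans
    (Real.exp_le_exp.2 ?_)
  · have : η * y₀ / (4 * c ^ 2 * Q) * c = η / (16 * U * κ) := by rw [hc]; field_simp; ring
    rw [this, div_le_one (by positivity)]; nlinarith
  · have e1 : η ^ 2 * Q / (128 * U ^ 2 * κ ^ 2) = (η * y₀) ^ 2 / (8 * c ^ 2 * Q) := by
      rw [hc]; field_simp; ring
    have e2 : (η * y₀ / (4 * c ^ 2 * Q)) ^ 2 * c ^ 2 * n ≤
        (η * y₀ / (4 * c ^ 2 * Q)) ^ 2 * c ^ 2 * (2 * Q) :=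
      mul_le_mul_of_nonneg_left hn (by positivity)
    have e3 : (η * y₀ / (4 * c ^ 2 * Q)) ^ 2 * c ^ 2 * (2 * Q) = (η * y₀) ^ 2 / (8 * c ^ 2 * Q) := by
      field_simp; ring
    have e4 : η * y₀ / (4 * c ^ 2 * Q) * (η * y₀) = 2 * ((η * y₀) ^ 2 / (8 * c ^ 2 * Q)) := by
      field_simp; ring
    rw [e1, e4]; linarith

theorem tail_lower (hπ : IsK π) (T : TailHyp π kill Y Exc κ Q y₀) (n : ℕ)
    (hn : (n : ℝ) ≤ 2 * Q) (η : ℝ) (hη0 : 0 ≤ η) (hη : η ≤ 1) :
    Pr π n [] (fun h => (∀ s < h.length, ¬ Exc s (toF h s)) ∧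
      Mass π kill Y h ≤ Y.card - η * y₀) ≤
      Real.exp (-(η ^ 2 * Q / (128 * Real.exp (4 * κ) ^ 2 * κ ^ 2))) := by
  set c := 2 * Real.exp (4 * κ) * (κ / Q) * y₀ with hc
  have hc0 : 0 ≤ c := by
    have h1 := T.hκ; have h2 := T.hQ; have h3 := T.hy
    have hQ : 0 < Q := by linarith
    have hκ : 0 < κ := by linarith
    positivity
  let D : List Z → Z → ℝ := fun g z =>
    (Dtr π kill Y c g z - ∑ z, π g z * Dtr π kill Y c g z) * (-1)
  have hDtr : ∀ (g : List Z) z, g.length < n → |Dtr π kill Y c g z| ≤ c := by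
    intro g z hg
    have : (g.length : ℝ) ≤ 2 * Q := le_trans (by exact_mod_cast hg.le) hn
    rw [abs_le]
    exact ⟨le_max_right _ _, max_le (T.up hπ g this z) (by linarith)⟩
  refine le_trans (Pr_mono hπ n [] fun l hl hE => ?_) (azuma_num hπ T D n hn η hη0 hη ?_ ?_)
  · simp only [List.append_nil] at hE ⊢
    have key : ∀ g : List Z, g.length ≤ n → (∀ s < g.length, ¬ Exc s (toF g s)) →
        Y.card - Mass π kill Y g ≤ SD D g := by
      intro g
      induction g with
      | nil => simp [Mass, Wt, SD]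
      | cons z g ih =>
        intro hg hx
        simp only [List.length_cons] at hg
        have h1 := ih (by omega) fun s hs => by
          have := hx s (by simp; omega); rwa [toF_cons_lt _ _ hs] at this
        have h2 : ¬ Exc g.length z := by
          have := hx g.length (by simp); rwa [toF_cons_self] at this
        have h3 : (g.length : ℝ) ≤ 2 * Q := le_trans (by exact_mod_cast (by omega)) hn
        have h4 : Dtr π kill Y c g z = Mass π kill Y (z :: g) - Mass π kill Y g :=
          max_eq_left (T.down hπ g h3 z h2)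
        have h5 : 0 ≤ ∑ z, π g z * Dtr π kill Y c g z := by
          rw [← T.mart hπ g]
          exact sum_le_sum fun z _ => mul_le_mul_of_nonneg_left (le_max_left _ _) (hπ.nonneg _ _)
        simp only [SD, D]
        linarith
    linarith [key l hl.le hE.1, hE.2]
  · intro g z hg
    simp only [D]
    rw [abs_mul, abs_neg, abs_one, mul_one]
    exact center_bound hπ _ g c (fun z => hDtr g z hg) z
  · intro g _
    exact (center_mean hπ _ g _).le

theorem tail_upper (hπ : IsK π) (T : TailHyp π kill Y Exc κ Q y₀) (n : ℕ)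
    (hn : (n : ℝ) ≤ 2 * Q) (η : ℝ) (hη0 : 0 ≤ η) (hη : η ≤ 1) (b : ℕ → ℝ) (hb0 : ∀ s, 0 ≤ b s)
    (hb : ∀ g : List Z, ∑ z, π g z * ind (Exc g.length z) ≤ b g.length) (B : ℝ)
    (hB : ∑ s ∈ range n, b s ≤ B) :
    Pr π n [] (fun h => Real.exp B * ((1 + η) * y₀) ≤ Mass π kill Y h) ≤
      Real.exp (-(η ^ 2 * Q / (128 * Real.exp (4 * κ) ^ 2 * κ ^ 2))) := by
  set c := 2 * Real.exp (4 * κ) * (κ / Q) * y₀ with hc
  have hc0 : 0 ≤ c := by
    have h1 := T.hκ; have h2 := T.hQ; have h3 := T.hy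
    have hQ : 0 < Q := by linarith
    have hκ : 0 < κ := by linarith
    positivity
  let D : List Z → Z → ℝ := fun g z =>
    (Dtr π kill Y c g z - ∑ z, π g z * Dtr π kill Y c g z) *
      Real.exp (-∑ s ∈ range (g.length + 1), b s)
  have hDtr : ∀ (g : List Z) z, g.length < n → |Dtr π kill Y c g z| ≤ c := by
    intro g z hg
    have : (g.length : ℝ) ≤ 2 * Q := le_trans (by exact_mod_cast hg.le) hn
    rw [abs_le]
    exact ⟨le_max_right _ _, max_le (T.up hπ g this z) (by linarith)⟩
  refine le_trans (Pr_mono hπ n [] fun l hl hE => ?_) (azuma_num hπ T D n hn η hη0 hη ?_ ?_)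
  · simp only [List.append_nil] at hE ⊢
    have key : ∀ g : List Z, g.length ≤ n →
        Mass π kill Y g * Real.exp (-∑ s ∈ range g.length, b s) ≤ Y.card + SD D g := by
      intro g
      induction g with
      | nil => simp [Mass, Wt, SD]
      | cons z g ih =>
        intro hg
        simp only [List.length_cons] at hg
        have h1 := ih (by omega)
        have h3 : (g.length : ℝ) ≤ 2 * Q := le_trans (by exact_mod_cast (by omega)) hn
        have hM := T.mass_nonneg hπ g
        have h5 : ∑ z, π g z * Dtr π kill Y c g z ≤ b g.length * Mass π kill Y g := by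
          calc _ ≤ ∑ z, π g z * ((Mass π kill Y (z :: g) - Mass π kill Y g) +
                  ind (Exc g.length z) * Mass π kill Y g) := by
                refine sum_le_sum fun z _ => mul_le_mul_of_nonneg_left ?_ (hπ.nonneg _ _)
                by_cases hx : Exc g.length z
                · rw [ind_true hx]
                  exact max_le (by linarith) (by linarith [T.mass_nonneg hπ (z :: g)])
                · rw [ind_false hx, zero_mul, add_zero]
                  exact (max_eq_left (T.down hπ g h3 z hx)).le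
            _ = (∑ z, π g z * ind (Exc g.length z)) * Mass π kill Y g := by
                simp only [mul_add, sum_add_distrib, T.mart hπ g, zero_add, sum_mul, mul_assoc]
            _ ≤ _ := mul_le_mul_of_nonneg_right (hb g) hM
        have h6 : Mass π kill Y (z :: g) - Mass π kill Y g ≤ Dtr π kill Y c g z := le_max_left _ _
        simp only [SD, D, List.length_cons]
        set E1 := Real.exp (-∑ s ∈ range (g.length + 1), b s) with hE1
        have hE1' : Real.exp (-∑ s ∈ range g.length, b s) = Real.exp (b g.length) * E1 := by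
          rw [hE1, ← Real.exp_add, sum_range_succ]; congr 1; ring
        have hE0 : 0 < E1 := Real.exp_pos _
        rw [hE1'] at h1
        have h7 : Mass π kill Y g * (1 + b g.length) ≤ Mass π kill Y g * Real.exp (b g.length) :=
          mul_le_mul_of_nonneg_left (by linarith [Real.add_one_le_exp (b g.length)]) hM
        have h8 : Mass π kill Y (z :: g) ≤ Mass π kill Y g * Real.exp (b g.length) +
            (Dtr π kill Y c g z - ∑ z, π g z * Dtr π kill Y c g z) := by linarith
        nlinarith [mul_le_mul_of_nonneg_right h8 hE0.le]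
    have h1 := key l hl.le
    rw [hl] at h1
    have h2 : (1 + η) * y₀ ≤ Mass π kill Y l * Real.exp (-∑ s ∈ range n, b s) := by
      have h3 : Real.exp (-B) ≤ Real.exp (-∑ s ∈ range n, b s) := Real.exp_le_exp.2 (by linarith)
      have h4 := mul_le_mul_of_nonneg_right hE (Real.exp_pos (-B)).le
      have h5 : Real.exp B * ((1 + η) * y₀) * Real.exp (-B) = (1 + η) * y₀ := by
        rw [Real.exp_neg]; field_simp
      nlinarith [mul_le_mul_of_nonneg_left h3 (T.mass_nonneg hπ l)]
    linarith [T.hY]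
  · intro g z hg
    simp only [D]
    rw [abs_mul, abs_of_pos (Real.exp_pos _)]
    have h1 := center_bound hπ _ g c (fun z => hDtr g z hg) z
    have h2 : Real.exp (-∑ s ∈ range (g.length + 1), b s) ≤ 1 :=
      Real.exp_le_one_iff.2 (neg_nonpos.2 (sum_nonneg fun s _ => hb0 s))
    calc _ ≤ (2 * c) * 1 := mul_le_mul h1 h2 (Real.exp_pos _).le (by linarith)
      _ = _ := by ring
  · intro g _
    exact (center_mean hπ _ g _).le

end Weights

end Crest.Agent.H7.Ry
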