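import Crest.Agent.H7.RyA

set_option autoImplicit false
set_option linter.unusedSectionVars false

open Finset

namespace Crest.Agent.H7.Ry

section Bern
variable {α : Type*} [DecidableEq α]

/-- expectation under Bernoulli sampling -/
noncomputable def Eb (ρ : ℝ) (A : Finset α) (f : Finset α → ℝ) : ℝ :=
  ∑ B ∈ A.powerset, ρ ^ B.card * (1 - ρ) ^ (A.card - B.card) * f B

variable {ρ : ℝ}

lemma Eb_empty (f : Finset α → ℝ) : Eb ρ ∅ f = f ∅ := by simp [Eb]

lemma Eb_insert {A : Finset α} {a : α} (ha : a ∉ A) (f : Finset α → ℝ) :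
    Eb ρ (insert a A) f = (1 - ρ) * Eb ρ A f + ρ * Eb ρ A (fun B => f (insert a B)) := by
  unfold Eb
  rw [sum_powerset_insert ha, mul_sum, mul_sum, card_insert_of_notMem ha]
  congr 1
  · refine sum_congr rfl fun B hB => ?_
    have := card_le_card (mem_powerset.1 hB)
    rw [show A.card + 1 - B.card = (A.card - B.card) + 1 by omega, pow_succ]; ring
  · refine sum_congr rfl fun B hB => ?_
    have hB' : a ∉ B := fun h => ha (mem_powerset.1 hB h)
    rw [card_insert_of_notMem hB', show A.card + 1 - (B.card + 1) = A.card - B.card by omega,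
      pow_succ]; ring

lemma Eb_mono (h0 : 0 ≤ ρ) (h1 : ρ ≤ 1) (A : Finset α) {f g : Finset α → ℝ}
    (H : ∀ B ⊆ A, f B ≤ g B) : Eb ρ A f ≤ Eb ρ A g :=
  sum_le_sum fun B hB => mul_le_mul_of_nonneg_left (H B (mem_powerset.1 hB))
    (mul_nonneg (pow_nonneg h0 _) (pow_nonneg (by linarith) _))

lemma Eb_const (A : Finset α) (c : ℝ) : Eb ρ A (fun _ => c) = c := by
  induction A using Finset.induction_on with
  | empty => exact Eb_empty _
  | insert a A ha ih => rw [Eb_insert ha, ih]; ring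

lemma Eb_add (A : Finset α) (f g : Finset α → ℝ) :
    Eb ρ A (fun B => f B + g B) = Eb ρ A f + Eb ρ A g := by
  simp only [Eb, mul_add, sum_add_distrib]

lemma Eb_mul (A : Finset α) (c : ℝ) (f : Finset α → ℝ) :
    Eb ρ A (fun B => c * f B) = c * Eb ρ A f := by
  simp only [Eb, mul_sum]; exact sum_congr rfl fun _ _ => by ring

lemma Eb_sum {ι : Type*} (A : Finset α) (s : Finset ι) (f : ι → Finset α → ℝ) :
    Eb ρ A (fun B => ∑ i ∈ s, f i B) = ∑ i ∈ s, Eb ρ A (f i) := by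
  simp only [Eb, mul_sum]; rw [sum_comm]

lemma Eb_exists (h0 : 0 ≤ ρ) (h1 : ρ ≤ 1) (A : Finset α) (f : Finset α → ℝ) (c : ℝ)
    (H : Eb ρ A f < c) : ∃ B ⊆ A, f B < c := by
  by_contra hcon
  push Not at hcon
  have := Eb_mono h0 h1 A (f := fun _ => c) hcon
  rw [Eb_const] at this; linarith

def BD (c : ℝ) (f : Finset α → ℝ) : Prop := ∀ a B, |f (insert a B) - f B| ≤ c

lemma Eb_exp (h0 : 0 ≤ ρ) (h1 : ρ ≤ 1) (A : Finset α) (c θ : ℝ) (hθ : |θ| * c ≤ 1)
    (f : Finset α → ℝ) (hf : BD c f) :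
    Eb ρ A (fun B => Real.exp (θ * f B)) ≤
      Real.exp (θ * Eb ρ A f + θ ^ 2 * c ^ 2 * ρ * A.card) := by
  induction A using Finset.induction_on generalizing f with
  | empty => simp [Eb_empty]
  | insert a A ha ih =>
    let g : Finset α → ℝ := fun B => (1 - ρ) * f B + ρ * f (insert a B)
    have hg : BD c g := by
      intro a' B
      have e : g (insert a' B) - g B = (1 - ρ) * (f (insert a' B) - f B) +
          ρ * (f (insert a' (insert a B)) - f (insert a B)) := by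
        simp only [g]; rw [insert_comm]; ring
      rw [e]
      have h2 := abs_le.1 (hf a' B)
      have h3 := abs_le.1 (hf a' (insert a B))
      rw [abs_le]; constructor <;> nlinarith
    have hEg : Eb ρ (insert a A) f = Eb ρ A g := by
      rw [Eb_insert ha]; simp only [g]; rw [Eb_add, Eb_mul, Eb_mul]
    rw [hEg, Eb_insert ha, ← Eb_mul, ← Eb_mul, ← Eb_add, card_insert_of_notMem ha]
    calc _ ≤ Eb ρ A (fun B => Real.exp (θ ^ 2 * c ^ 2 * ρ) * Real.exp (θ * g B)) := by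
          refine Eb_mono h0 h1 A fun B _ => ?_
          set Δ := f (insert a B) - f B with hΔ
          have hΔc : |Δ| ≤ c := hf a B
          have hθΔ : |θ * Δ| ≤ |θ| * c := by
            rw [abs_mul]; exact mul_le_mul_of_nonneg_left hΔc (abs_nonneg _)
          have e1 : θ * f B = θ * g B + -ρ * (θ * Δ) := by simp only [g, hΔ]; ring
          have e2 : θ * f (insert a B) = θ * g B + (1 - ρ) * (θ * Δ) := by
            simp only [g, hΔ]; ring
          set y := θ * Δ
          have hy1 : |y| ≤ 1 := hθΔ.trans hθ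
          have b1 : Real.exp (-ρ * y) ≤ 1 + -ρ * y + (-ρ * y) ^ 2 := exp_le_quad (by
            rw [abs_mul, abs_neg, abs_of_nonneg h0]; nlinarith [abs_nonneg y])
          have b2 : Real.exp ((1 - ρ) * y) ≤ 1 + (1 - ρ) * y + ((1 - ρ) * y) ^ 2 :=
            exp_le_quad (by rw [abs_mul, abs_of_nonneg (by linarith : 0 ≤ 1 - ρ)]
                            nlinarith [abs_nonneg y])
          have hy2 : y ^ 2 ≤ θ ^ 2 * c ^ 2 := by
            rw [← sq_abs y, ← sq_abs θ, ← mul_pow]; exact pow_le_pow_left₀ (abs_nonneg _) hθΔ 2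
          have b3 : (1 - ρ) * Real.exp (-ρ * y) + ρ * Real.exp ((1 - ρ) * y) ≤
              Real.exp (θ ^ 2 * c ^ 2 * ρ) := by
            have c1 := mul_le_mul_of_nonneg_left b1 (by linarith : 0 ≤ 1 - ρ)
            have c2 := mul_le_mul_of_nonneg_left b2 h0
            have c3 := Real.add_one_le_exp (θ ^ 2 * c ^ 2 * ρ)
            have c4 : ρ * (1 - ρ) * y ^ 2 ≤ θ ^ 2 * c ^ 2 * ρ := by
              nlinarith [mul_le_mul_of_nonneg_left hy2 h0, mul_nonneg (mul_nonneg h0 h0) (sq_nonneg y)]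
            nlinarith
          rw [e1, e2, Real.exp_add, Real.exp_add]
          nlinarith [mul_le_mul_of_nonneg_left b3 (Real.exp_pos (θ * g B)).le]
      _ ≤ Real.exp (θ ^ 2 * c ^ 2 * ρ) * Real.exp (θ * Eb ρ A g + θ ^ 2 * c ^ 2 * ρ * A.card) := by
          rw [Eb_mul]; exact mul_le_mul_of_nonneg_left (ih g hg) (Real.exp_pos _).le
      _ = _ := by rw [← Real.exp_add]; congr 1; push_cast; ring

lemma Eb_dev (h0 : 0 < ρ) (h1 : ρ ≤ 1) (A : Finset α) (n Δ : ℝ) (hn : (A.card : ℝ) ≤ n)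
    (hn0 : 0 < n) (hΔ : 0 ≤ Δ) (hΔ' : Δ ≤ 4 * ρ * n) (f : Finset α → ℝ) (hf : BD 2 f) :
    Eb ρ A (fun B => ind (Δ ≤ |f B - Eb ρ A f|)) ≤ 2 * Real.exp (-(Δ ^ 2 / (16 * ρ * n))) := by
  set θ := Δ / (8 * ρ * n) with hθ
  have hθ0 : 0 ≤ θ := by positivity
  have hθ1 : θ * 2 ≤ 1 := by
    rw [hθ, div_mul_eq_mul_div, div_le_one (by positivity)]; linarith
  set m := Eb ρ A f
  have e1 := Eb_exp h0.le h1 A 2 θ (by rwa [abs_of_nonneg hθ0]) f hf
  have e2 := Eb_exp h0.le h1 A 2 (-θ) (by rwa [abs_neg, abs_of_nonneg hθ0]) f hf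
  have key : θ ^ 2 * 2 ^ 2 * ρ * A.card - θ * Δ ≤ -(Δ ^ 2 / (16 * ρ * n)) := by
    have : θ ^ 2 * 2 ^ 2 * ρ * A.card ≤ θ ^ 2 * 2 ^ 2 * ρ * n :=
      mul_le_mul_of_nonneg_left hn (by positivity)
    have e : θ ^ 2 * 2 ^ 2 * ρ * n - θ * Δ = -(Δ ^ 2 / (16 * ρ * n)) := by
      rw [hθ]; field_simp; ring
    linarith
  calc _ ≤ Eb ρ A (fun B => Real.exp (-(θ * m) - θ * Δ) * Real.exp (θ * f B) +
          Real.exp (θ * m - θ * Δ) * Real.exp (-θ * f B)) := by
        refine Eb_mono h0.le h1 A fun B _ => ?_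
        by_cases h : Δ ≤ |f B - m|
        · rw [ind_true h, ← Real.exp_add, ← Real.exp_add]
          rcases le_abs.1 h with h | h
          · have : 1 ≤ Real.exp (-(θ * m) - θ * Δ + θ * f B) :=
              Real.one_le_exp (by nlinarith)
            linarith [Real.exp_pos (θ * m - θ * Δ + -θ * f B)]
          · have : 1 ≤ Real.exp (θ * m - θ * Δ + -θ * f B) :=
              Real.one_le_exp (by nlinarith)
            linarith [Real.exp_pos (-(θ * m) - θ * Δ + θ * f B)]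
        · rw [ind_false h]; positivity
    _ ≤ Real.exp (-(θ * m) - θ * Δ) * Real.exp (θ * m + θ ^ 2 * 2 ^ 2 * ρ * A.card) +
          Real.exp (θ * m - θ * Δ) * Real.exp (-θ * m + (-θ) ^ 2 * 2 ^ 2 * ρ * A.card) := by
        rw [Eb_add, Eb_mul, Eb_mul]
        exact add_le_add (mul_le_mul_of_nonneg_left e1 (Real.exp_pos _).le)
          (mul_le_mul_of_nonneg_left e2 (Real.exp_pos _).le)
    _ ≤ _ := by
        rw [← Real.exp_add, ← Real.exp_add, two_mul]
        exact add_le_add (Real.exp_le_exp.2 (by linarith)) (Real.exp_le_exp.2 (by nlinarith))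

theorem samp {ι : Type*} (h0 : 0 < ρ) (h1 : ρ ≤ 1) (A : Finset α) (n Δ : ℝ)
    (hn : (A.card : ℝ) ≤ n) (hn0 : 0 < n) (hΔ : 0 ≤ Δ) (hΔ' : Δ ≤ 4 * ρ * n) (I : Finset ι)
    (f : ι → Finset α → ℝ) (hf : ∀ i ∈ I, BD 2 (f i))
    (H : I.card * (2 * Real.exp (-(Δ ^ 2 / (16 * ρ * n)))) < 1) :
    ∃ B ⊆ A, ∀ i ∈ I, |f i B - Eb ρ A (f i)| < Δ := by
  have : Eb ρ A (fun B => ∑ i ∈ I, ind (Δ ≤ |f i B - Eb ρ A (f i)|)) < 1 := by
    rw [Eb_sum]
    refine lt_of_le_of_lt ?_ H
    simpa using sum_le_card_nsmul I _ _ fun i hi => Eb_dev h0 h1 A n Δ hn hn0 hΔ hΔ' _ (hf i hi)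
  obtain ⟨B, hB, h⟩ := Eb_exists h0.le h1 A _ _ this
  refine ⟨B, hB, fun i hi => ?_⟩
  by_contra hc
  have h2 := single_le_sum (f := fun i => ind (Δ ≤ |f i B - Eb ρ A (f i)|))
    (fun j _ => ind_nonneg _) hi
  simp only [ind_true (not_lt.1 hc)] at h2
  linarith

/-- binomial expectation -/
noncomputable def Bin (ρ : ℝ) : ℕ → (ℕ → ℝ) → ℝ
  | 0, φ => φ 0
  | n+1, φ => (1 - ρ) * Bin ρ n φ + ρ * Bin ρ n (fun k => φ (k + 1))

lemma Eb_filter (A : Finset α) (p : α → Prop) [DecidablePred p] (φ : ℕ → ℝ) :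
    Eb ρ A (fun B => φ (B.filter p).card) = Bin ρ (A.filter p).card φ := by
  induction A using Finset.induction_on generalizing φ with
  | empty => simp [Eb_empty, Bin]
  | insert a A ha ih =>
    rw [Eb_insert ha]
    by_cases hp : p a
    · have e : ∀ B : Finset α, a ∉ B → ((insert a B).filter p).card = (B.filter p).card + 1 := by
        intro B hB
        rw [filter_insert, if_pos hp, card_insert_of_notMem (by simp [hB])]
      rw [e A ha]
      simp only [Bin]
      rw [ih, ← ih (fun k => φ (k + 1))]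
      congr 2
      unfold Eb
      refine sum_congr rfl fun B hB => ?_
      simp only
      rw [e B fun h => ha (mem_powerset.1 hB h)]
    · simp only [filter_insert, if_neg hp]
      rw [ih]; ring

lemma Bin_sub (n : ℕ) (φ ψ : ℕ → ℝ) : Bin ρ n (fun k => φ k - ψ k) = Bin ρ n φ - Bin ρ n ψ := by
  induction n generalizing φ ψ with
  | zero => rfl
  | succ n ih => simp only [Bin]; rw [ih, ih]; ring

lemma Bin_lin (n : ℕ) (c : ℝ) : Bin ρ n (fun k => (k : ℝ) + c) = n * ρ + c := by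
  induction n generalizing c with
  | zero => simp [Bin]
  | succ n ih =>
    simp only [Bin]
    rw [ih, show (fun k : ℕ => ((k + 1 : ℕ) : ℝ) + c) = fun k : ℕ => (k : ℝ) + (1 + c) by
      funext k; push_cast; ring, ih]
    push_cast; ring

lemma Bin_id (n : ℕ) : Bin ρ n (fun k => (k : ℝ)) = n * ρ := by
  simpa using Bin_lin (ρ := ρ) n 0

lemma Bin_zero' (n : ℕ) : Bin ρ n (fun _ => 0) = 0 := by
  induction n with
  | zero => rfl
  | succ n ih => simp only [Bin, ih]; ring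

lemma Bin_eq0 (n : ℕ) : Bin ρ n (fun k => if k = 0 then 1 else 0) = (1 - ρ) ^ n := by
  induction n with
  | zero => simp [Bin]
  | succ n ih => simp only [Bin, ih]; simp [Bin_zero', pow_succ, mul_comm]

lemma Bin_eq1 (n : ℕ) : Bin ρ n (fun k => if k = 1 then 1 else 0) = n * ρ * (1 - ρ) ^ (n - 1) := by
  induction n with
  | zero => simp [Bin]
  | succ n ih =>
    simp only [Bin, ih]
    simp only [Nat.add_eq_right, Bin_eq0, Nat.add_sub_cancel]
    cases n with
    | zero => simp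
    | succ n => simp only [Nat.add_sub_cancel]; push_cast; ring

/-- multiplicity counted only when at least two -/
def g2 (m : ℕ) : ℝ := if 2 ≤ m then m else 0

lemma g2_nonneg (m : ℕ) : 0 ≤ g2 m := by unfold g2; split_ifs <;> positivity
lemma g2_le (m : ℕ) : g2 m ≤ m := by unfold g2; split_ifs <;> simp
lemma g2_succ (m : ℕ) : 0 ≤ g2 (m + 1) - g2 m ∧ g2 (m + 1) - g2 m ≤ 2 := by
  unfold g2
  rcases m with _ | _ | m
  · simp
  · norm_num
  · rw [if_pos (by omega), if_pos (by omega)]; push_cast; constructor <;> linarith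

lemma Bin_g2 (n : ℕ) : Bin ρ n g2 = n * ρ * (1 - (1 - ρ) ^ (n - 1)) := by
  have : g2 = fun k : ℕ => (k : ℝ) - (if k = 1 then 1 else 0) := by
    funext k; unfold g2
    rcases k with _ | _ | k
    · simp
    · simp
    · rw [if_pos (by omega), if_neg (by omega)]; simp
  rw [this, Bin_sub, Bin_id, Bin_eq1]; ring

lemma Bin_g2_le (h0 : 0 ≤ ρ) (h1 : ρ ≤ 1) (n : ℕ) : Bin ρ n g2 ≤ ρ * g2 n := by
  rw [Bin_g2]; unfold g2
  rcases n with _ | _ | n
  · simp
  · simp
  · rw [if_pos (by omega)]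
    have : 0 ≤ (1 - ρ) ^ (n + 1 + 1 - 1) := pow_nonneg (by linarith) _
    have h2 : (0:ℝ) ≤ ((n + 1 + 1 : ℕ) : ℝ) * ρ := by positivity
    nlinarith

lemma Bin_g2_nonneg (h0 : 0 ≤ ρ) (h1 : ρ ≤ 1) (n : ℕ) : 0 ≤ Bin ρ n g2 := by
  rw [Bin_g2]
  exact mul_nonneg (by positivity) (sub_nonneg.2 (pow_le_one₀ (by linarith) (by linarith)))

lemma Bin_g2_ge (h0 : 0 ≤ ρ) (h1 : ρ ≤ 1) (n M : ℕ) (hM : ρ * M ≤ 1) (hn : M + 1 ≤ n) :
    n * ρ * (ρ * M / 2) ≤ Bin ρ n g2 := by
  rw [Bin_g2]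
  refine mul_le_mul_of_nonneg_left ?_ (by positivity)
  have e1 : (1 - ρ) ^ (n - 1) ≤ (1 - ρ) ^ M :=
    pow_le_pow_of_le_one (by linarith) (by linarith) (by omega)
  have e2 : 1 + (M : ℝ) * ρ ≤ (1 + ρ) ^ M := one_add_mul_le_pow (by linarith) M
  have e3 : (1 - ρ) ^ M * (1 + ρ) ^ M ≤ 1 := by
    rw [← mul_pow]; exact pow_le_one₀ (by nlinarith) (by nlinarith)
  have e4 : 0 ≤ (1 - ρ) ^ M := pow_nonneg (by linarith) _
  have e5 : (1 - ρ) ^ M * (1 + M * ρ) ≤ 1 := le_trans (mul_le_mul_of_nonneg_left e2 e4) e3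
  have e6 : 0 ≤ ρ * M := by positivity
  nlinarith

end Bern

lemma card_small_subsets {α : Type*} [DecidableEq α] (A : Finset α) (k : ℕ) :
    (A.powerset.filter (fun B => B.card ≤ k)).card ≤ (A.card + 1) ^ k := by
  have h1 : A.powerset.filter (fun B => B.card ≤ k) ⊆
      (range (k + 1)).biUnion (fun i => powersetCard i A) := by
    intro B hB
    simp only [mem_filter, mem_powerset, mem_biUnion, mem_range, mem_powersetCard] at hB ⊢
    exact ⟨B.card, by omega, hB.1, rfl⟩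
  refine (card_le_card h1).trans (card_biUnion_le.trans ?_)
  simp only [card_powersetCard]
  calc _ ≤ ∑ i ∈ range (k + 1), A.card ^ i := sum_le_sum fun i _ => Nat.choose_le_pow _ _
    _ ≤ _ := by
      induction k with
      | zero => simp
      | succ k ih =>
        rw [sum_range_succ, pow_succ (A.card + 1), mul_add, mul_one, add_comm]
        have : A.card ^ (k + 1) ≤ (A.card + 1) ^ k * A.card := by
          rw [pow_succ]; exact Nat.mul_le_mul_right _ (Nat.pow_le_pow_left (by omega) _)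
        have := ih (by
          intro B hB
          simp only [mem_filter, mem_powerset, mem_biUnion, mem_range, mem_powersetCard] at hB ⊢
          exact ⟨B.card, by omega, hB.1, rfl⟩)
        omega

end Crest.Agent.H7.Ry
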