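import Crest.Agent.H7.RyC

set_option autoImplicit false
set_option linter.unusedSectionVars false

open Finset

namespace Crest.Agent.H7.Ry

abbrev Ln (F : Type*) := Option F × F

variable {F : Type*} [Field F] [Fintype F] [DecidableEq F]

def ph : Option F → F × F → F
  | none, x => x.1
  | some m, x => x.2 - m * x.1

def vv : Option F → F × F
  | none => (0, 1)
  | some m => (1, m)

lemma ph_add_smul (d : Option F) (x v : F × F) (σ : F) : ph d (x + σ • v) = ph d x + σ * ph d v := by
  cases d <;> simp [ph]; ring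

lemma ph_vv_self (d : Option F) : ph d (vv d) = 0 := by cases d <;> simp [ph, vv]

lemma ph_vv_ne {d e : Option F} (h : e ≠ d) : ph e (vv d) ≠ 0 := by
  cases d <;> cases e <;> simp_all [ph, vv]
  exact fun h' => h (sub_eq_zero.1 h').symm

lemma ph_ext {d e : Option F} (h : d ≠ e) {x y : F × F} (h1 : ph d x = ph d y)
    (h2 : ph e x = ph e y) : x = y := by
  obtain ⟨x1, x2⟩ := x
  obtain ⟨y1, y2⟩ := y
  cases d with
  | none =>
    cases e with
    | none => exact absurd rfl h
    | some m => simp only [ph] at h1 h2; subst h1; simp only [Prod.mk.injEq, true_and]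
                linear_combination h2
  | some m =>
    cases e with
    | none => simp only [ph] at h1 h2; subst h2; simp only [Prod.mk.injEq, true_and]
              linear_combination h1
    | some m' =>
      simp only [ph] at h1 h2
      have hm : m - m' ≠ 0 := sub_ne_zero.2 fun h' => h (by rw [h'])
      have : x1 = y1 := by
        apply mul_left_cancel₀ hm; linear_combination h2 - h1
      subst this; simp only [Prod.mk.injEq, true_and]; linear_combination h1

lemma exists_dir (x y : F × F) : ∃ d : Option F, ph d x = ph d y := by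
  by_cases h : x.1 = y.1
  · exact ⟨none, h⟩
  · refine ⟨some ((x.2 - y.2) / (x.1 - y.1)), ?_⟩
    have : x.1 - y.1 ≠ 0 := sub_ne_zero.2 h
    simp only [ph]; field_simp; ring

def On (x : F × F) (l : Ln F) : Prop := ph l.1 x = l.2

instance (x : F × F) (l : Ln F) : Decidable (On x l) := inferInstanceAs (Decidable (_ = _))

lemma On.dir_eq {x : F × F} {l l' : Ln F} (h : On x l) (h' : On x l') (hd : l.1 = l'.1) :
    l = l' := by
  unfold On at h h'; exact Prod.ext hd (by rw [← h, ← h', hd])

lemma on_unique {l l' : Ln F} (hl : l ≠ l') {x y : F × F} (h1 : On x l) (h2 : On x l')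
    (h3 : On y l) (h4 : On y l') : x = y := by
  have hd : l.1 ≠ l'.1 := fun hd => hl (h1.dir_eq h2 hd)
  exact ph_ext hd (h1.trans h3.symm) (h2.trans h4.symm)

lemma line_eq {l l' : Ln F} {x y : F × F} (hxy : x ≠ y) (h1 : On x l) (h2 : On x l')
    (h3 : On y l) (h4 : On y l') : l = l' := by
  by_contra h; exact hxy (on_unique h h1 h2 h3 h4)

/-- a base point and parametrisation -/
def pt0 : Option F → F → F × F
  | none, c => (c, 0)
  | some _, c => (0, c)

lemma ph_pt0 (d : Option F) (c : F) : ph d (pt0 d c) = c := by cases d <;> simp [ph, pt0]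

def par (d : Option F) (c t : F) : F × F := pt0 d c + t • vv d

lemma ph_par (d : Option F) (c t : F) : ph d (par d c t) = c := by
  rw [par, ph_add_smul, ph_pt0, ph_vv_self]; simp

lemma par_inj (d : Option F) (c : F) : Function.Injective (par d c) := by
  intro t t' h
  cases d <;> simp [par, pt0, vv] at h <;> tauto

lemma par_surj (d : Option F) (x : F × F) : ∃ t, par d (ph d x) t = x := by
  cases d with
  | none => exact ⟨x.2, by simp [par, pt0, vv, ph]⟩
  | some m => exact ⟨x.1, by ext <;> simp [par, pt0, vv, ph, mul_comm]⟩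

lemma exists_meet {l l' : Ln F} (h : l.1 ≠ l'.1) : ∃ x, On x l ∧ On x l' := by
  have h1 := ph_vv_ne h.symm
  refine ⟨par l.1 l.2 ((l'.2 - ph l'.1 (pt0 l.1 l.2)) / ph l'.1 (vv l.1)), ph_par _ _ _, ?_⟩
  unfold On par
  rw [ph_add_smul]; field_simp; ring

def pts (l : Ln F) : Finset (F × F) := univ.filter (fun x => On x l)

@[simp] lemma mem_pts {l : Ln F} {x : F × F} : x ∈ pts l ↔ On x l := by simp [pts]

lemma pts_eq (l : Ln F) : pts l = univ.image (par l.1 l.2) := by
  ext x
  simp only [mem_pts, mem_image, mem_univ, true_and]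
  constructor
  · intro h; rw [← h]; exact par_surj _ _
  · rintro ⟨t, rfl⟩; exact ph_par _ _ _

lemma card_pts (l : Ln F) : (pts l).card = Fintype.card F := by
  rw [pts_eq, card_image_of_injective _ (par_inj _ _), card_univ]

lemma card_inter_le {l l' : Ln F} (h : l ≠ l') : ((pts l).filter (fun x => On x l')).card ≤ 1 := by
  rw [card_le_one]
  intro x hx y hy
  simp only [mem_filter, mem_pts] at hx hy
  exact on_unique h hx.1 hx.2 hy.1 hy.2

lemma card_Ln : Fintype.card (Ln F) = (Fintype.card F + 1) * Fintype.card F := by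
  simp [Fintype.card_prod]

def pen (x : F × F) : Finset (Ln F) := univ.filter (fun l => On x l)

@[simp] lemma mem_pen {l : Ln F} {x : F × F} : l ∈ pen x ↔ On x l := by simp [pen]

lemma card_pen (x : F × F) : (pen x).card = Fintype.card F + 1 := by
  have : pen x = univ.image (fun d : Option F => (d, ph d x)) := by
    ext l
    simp only [mem_pen, mem_image, mem_univ, true_and]
    constructor
    · intro h; exact ⟨l.1, Prod.ext rfl h⟩
    · rintro ⟨d, rfl⟩; rfl
  rw [this, card_image_of_injective _ (fun d d' h => congrArg Prod.fst h), card_univ]; simp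

def par_cl (d : Option F) : Finset (Ln F) := univ.filter (fun l => l.1 = d)

@[simp] lemma mem_par_cl {l : Ln F} {d : Option F} : l ∈ par_cl d ↔ l.1 = d := by simp [par_cl]

lemma card_par_cl (d : Option F) : (par_cl d).card = Fintype.card F := by
  have : par_cl d = univ.image (fun c : F => (d, c)) := by
    ext l
    simp only [mem_par_cl, mem_image, mem_univ, true_and]
    constructor
    · intro h; exact ⟨l.2, Prod.ext h.symm rfl⟩
    · rintro ⟨c, rfl⟩; rfl
  rw [this, card_image_of_injective _ (fun c c' h => congrArg Prod.snd h), card_univ]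

lemma card_common {x y : F × F} (h : x ≠ y) :
    (univ.filter (fun l : Ln F => On x l ∧ On y l)).card = 1 := by
  obtain ⟨d, hd⟩ := exists_dir x y
  rw [card_eq_one]
  refine ⟨(d, ph d x), ?_⟩
  ext l
  simp only [mem_filter, mem_univ, true_and, mem_singleton]
  constructor
  · rintro ⟨h1, h2⟩; exact line_eq h h1 rfl h2 hd.symm
  · rintro rfl; exact ⟨rfl, hd.symm⟩

/-- multiplicity -/
def mu (L : Finset (Ln F)) (x : F × F) : ℕ := (L.filter (fun l => On x l)).card

/-- sum over a line -/
noncomputable def ls (a : F × F → ℝ) (l : Ln F) : ℝ := ∑ x ∈ pts l, a x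

lemma ls_eq (a : F × F → ℝ) (l : Ln F) : ls a l = ∑ x, if On x l then a x else 0 := by
  rw [ls, pts, sum_filter]

lemma sum_mul_mu (a : F × F → ℝ) (L : Finset (Ln F)) :
    ∑ x, a x * mu L x = ∑ l ∈ L, ls a l := by
  simp only [ls_eq, mu, card_filter]
  push_cast
  simp only [mul_sum, mul_ite, mul_one, mul_zero]
  rw [sum_comm]

lemma sum_mu (L : Finset (Ln F)) : ∑ x, (mu L x : ℝ) = L.card * Fintype.card F := by
  have := sum_mul_mu (fun _ => 1) L
  simpa [ls, card_pts] using this

lemma ls_mu (L : Finset (Ln F)) (l : Ln F) :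
    ∑ x ∈ pts l, mu L x = ∑ l' ∈ L, ((pts l).filter (fun x => On x l')).card := by
  simp only [mu, card_filter]; rw [sum_comm]

lemma ls_mu_le {L : Finset (Ln F)} {l : Ln F} (h : l ∉ L) : ∑ x ∈ pts l, mu L x ≤ L.card := by
  rw [ls_mu]
  simpa using sum_le_card_nsmul L _ 1 fun l' hl' =>
    card_inter_le (l := l) (l' := l') (fun e => h (e ▸ hl'))

lemma ls_mu_ge (L : Finset (Ln F)) (l : Ln F) :
    (L.filter (fun l' => l'.1 ≠ l.1)).card ≤ ∑ x ∈ pts l, mu L x := by
  rw [ls_mu, card_filter]
  refine sum_le_sum fun l' _ => ?_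
  split_ifs with h
  · obtain ⟨x, h1, h2⟩ := exists_meet h
    exact card_pos.2 ⟨x, by simp [h1, h2]⟩
  · exact Nat.zero_le _

lemma mu_erase {L : Finset (Ln F)} {l : Ln F} (hl : l ∈ L) {x : F × F} (hx : On x l) :
    mu L x = mu (L.erase l) x + 1 := by
  unfold mu
  rw [filter_erase, card_erase_add_one (by simp [hl, hx])]

lemma mu_mono {L L' : Finset (Ln F)} (h : L ⊆ L') (x : F × F) : mu L x ≤ mu L' x :=
  card_le_card (filter_subset_filter _ h)

lemma mu_eq_zero {L : Finset (Ln F)} {x : F × F} : mu L x = 0 ↔ ∀ l ∈ L, ¬ On x l := by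
  simp [mu]

lemma sum_mu_pred (L : Finset (Ln F)) :
    ∑ x, (mu L x : ℝ) * ((mu L x : ℝ) - 1) ≤ (L.card : ℝ) ^ 2 := by
  have := sum_mul_mu (fun x => (mu L x : ℝ) - 1) L
  calc _ = ∑ l ∈ L, ls (fun x => (mu L x : ℝ) - 1) l := by
        rw [← this]; exact sum_congr rfl fun _ _ => mul_comm _ _
    _ ≤ ∑ l ∈ L, (L.card : ℝ) := by
        refine sum_le_sum fun l hl => ?_
        have h1 : ls (fun x => (mu L x : ℝ) - 1) l = ∑ x ∈ pts l, (mu (L.erase l) x : ℝ) :=
          sum_congr rfl fun x hx => by
            beta_reduce; rw [mu_erase hl (mem_pts.1 hx)]; push_cast; ring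
        rw [h1]
        have h2 := ls_mu_le (notMem_erase l L)
        have h3 : (L.erase l).card ≤ L.card := card_erase_le
        exact_mod_cast h2.trans h3
    _ = _ := by simp [sq]

lemma sum_ls (a : F × F → ℝ) : ∑ l : Ln F, ls a l = (Fintype.card F + 1) * ∑ x, a x := by
  rw [← sum_mul_mu, mul_sum]
  refine sum_congr rfl fun x _ => ?_
  have : mu (univ : Finset (Ln F)) x = Fintype.card F + 1 := card_pen x
  rw [this]; push_cast; ring

lemma sum_ls_sq (a : F × F → ℝ) :
    ∑ l : Ln F, ls a l ^ 2 = (∑ x, a x) ^ 2 + Fintype.card F * ∑ x, a x ^ 2 := by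
  have h1 : ∀ l : Ln F, ls a l ^ 2 = ∑ x, ∑ y, if On x l ∧ On y l then a x * a y else 0 := by
    intro l
    rw [ls_eq, sq, sum_mul_sum]
    refine sum_congr rfl fun x _ => sum_congr rfl fun y _ => ?_
    by_cases h1 : On x l <;> by_cases h2 : On y l <;> simp [h1, h2]
  simp only [h1]
  rw [sum_comm, sq, sum_mul_sum, mul_sum, ← sum_add_distrib]
  refine sum_congr rfl fun x _ => ?_
  rw [sum_comm]
  have h2 : ∀ y, (∑ l : Ln F, if On x l ∧ On y l then a x * a y else 0) =
      a x * a y + if y = x then Fintype.card F * a x ^ 2 else 0 := by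
    intro y
    rw [← sum_filter, sum_const, nsmul_eq_mul]
    by_cases h : y = x
    · subst h
      simp only [and_self, if_true]
      have : (univ.filter (fun l : Ln F => On y l)).card = Fintype.card F + 1 := card_pen y
      rw [this]; push_cast; ring
    · rw [card_common (Ne.symm h), if_neg h]; simp
  simp only [h2, sum_add_distrib, sum_ite_eq', mem_univ, if_true]

lemma card_pos' : (0:ℝ) < Fintype.card F := by exact_mod_cast Fintype.card_pos

theorem mixing (a : F × F → ℝ) :
    ∑ l : Ln F, (ls a l - (∑ x, a x) / Fintype.card F) ^ 2 ≤ Fintype.card F * ∑ x, a x ^ 2 := by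
  have hq := card_pos' (F := F)
  set A := ∑ x, a x
  have : ∑ l : Ln F, (ls a l - A / Fintype.card F) ^ 2 = ∑ l : Ln F, ls a l ^ 2 -
      2 * (A / Fintype.card F) * ∑ l : Ln F, ls a l +
        Fintype.card (Ln F) * (A / Fintype.card F) ^ 2 := by
    rw [mul_sum, ← sum_sub_distrib, ← card_univ (α := Ln F), ← nsmul_eq_mul, ← sum_const,
      ← sum_add_distrib]
    exact sum_congr rfl fun _ _ => by ring
  rw [this, sum_ls_sq, sum_ls, card_Ln]
  push_cast
  have e : (∑ x, a x) ^ 2 + (Fintype.card F) * ∑ x, a x ^ 2 -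
      2 * (A / Fintype.card F) * ((Fintype.card F + 1) * ∑ x, a x) +
      (Fintype.card F + 1) * (Fintype.card F) * (A / Fintype.card F) ^ 2 =
      Fintype.card F * ∑ x, a x ^ 2 - A ^ 2 / Fintype.card F := by
    simp only [A]; field_simp; ring
  rw [e]
  have : 0 ≤ A ^ 2 / Fintype.card F := by positivity
  linarith

lemma mixing_count (a : F × F → ℝ) (T : Finset (Ln F)) (D : ℝ) (hD : 0 ≤ D)
    (hT : ∀ l ∈ T, D ≤ |ls a l - (∑ x, a x) / Fintype.card F|) :
    T.card * D ^ 2 ≤ Fintype.card F * ∑ x, a x ^ 2 := by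
  refine le_trans ?_ (mixing a)
  calc (T.card : ℝ) * D ^ 2 = ∑ l ∈ T, D ^ 2 := by simp
    _ ≤ ∑ l ∈ T, (ls a l - (∑ x, a x) / Fintype.card F) ^ 2 := sum_le_sum fun l hl => by
        rw [← sq_abs (ls a l - _)]; exact pow_le_pow_left₀ hD (hT l hl) 2
    _ ≤ _ := sum_le_sum_of_subset_of_nonneg (subset_univ _) fun _ _ _ => sq_nonneg _

/-- uncovered points -/
def Unc (L : Finset (Ln F)) : Finset (F × F) := univ.filter (fun x => mu L x = 0)

@[simp] lemma mem_Unc {L : Finset (Ln F)} {x : F × F} : x ∈ Unc L ↔ ∀ l ∈ L, ¬ On x l := by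
  simp [Unc, mu_eq_zero]

/-- excess -/
noncomputable def Xs (S : Finset (F × F)) (L : Finset (Ln F)) : ℝ :=
  ∑ x ∈ S, ((mu L x - 1 : ℕ) : ℝ)

lemma Xs_univ (L : Finset (Ln F)) :
    Xs univ L = (Unc L).card + L.card * Fintype.card F - (Fintype.card F : ℝ) ^ 2 := by
  rw [← sum_mu, Unc, card_filter]
  push_cast
  rw [← sum_add_distrib, sq, ← Nat.cast_mul, ← Fintype.card_prod, ← card_univ]
  rw [show ((univ : Finset (F × F)).card : ℝ) = ∑ x : F × F, (1:ℝ) by simp, ← sum_sub_distrib]
  refine sum_congr rfl fun x _ => ?_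
  rcases mu L x with _ | n <;> simp

/-- number of uncovered points on a line -/
def kk (L : Finset (Ln F)) (l : Ln F) : ℕ := ((pts l).filter (fun x => mu L x = 0)).card

lemma pencil_count (L : Finset (Ln F)) (M : Finset (Ln F)) (c : ℕ)
    (hM : ∀ l ∈ M, ∀ l' ∈ M, l ≠ l' → ∀ x ∈ Unc L, On x l → ¬ On x l')
    (hc : ∀ l ∈ M, c ≤ kk L l) : M.card * c ≤ (Unc L).card := by
  have h1 : (M.biUnion (fun l => (pts l).filter (fun x => mu L x = 0))).card =
      ∑ l ∈ M, kk L l := by
    rw [card_biUnion]; · rfl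
    intro l hl l' hl' hne
    rw [Function.onFun, disjoint_left]
    intro x hx hx'
    simp only [mem_filter, mem_pts] at hx hx'
    exact hM l hl l' hl' hne x (by simp [Unc, hx.2]) hx.1 hx'.1
  calc M.card * c ≤ ∑ l ∈ M, kk L l := by simpa using card_nsmul_le_sum M _ c hc
    _ ≤ _ := by
      rw [← h1]; refine card_le_card fun x hx => ?_
      simp only [mem_biUnion, mem_filter] at hx
      obtain ⟨l, _, _, h⟩ := hx
      simp [Unc, h]

lemma kk_ge (L E : Finset (Ln F)) (l : Ln F) (P₀ : Finset (F × F)) (hl : l ∉ E)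
    (h : ∀ x, On x l → x ∉ P₀ → ∀ l' ∈ L, On x l' → l' ∈ E) :
    Fintype.card F ≤ kk L l + P₀.card + E.card := by
  rw [← card_pts l]
  have : pts l ⊆ ((pts l).filter (fun x => mu L x = 0) ∪ P₀) ∪
      E.biUnion (fun l' => (pts l).filter (fun x => On x l')) := by
    intro x hx
    by_cases h0 : mu L x = 0
    · simp [hx, h0]
    by_cases h1 : x ∈ P₀
    · simp [h1]
    rw [mu_eq_zero] at h0
    push Not at h0
    obtain ⟨l', hl', hx'⟩ := h0
    simp only [mem_union, mem_biUnion, mem_filter]
    exact Or.inr ⟨l', h x (mem_pts.1 hx) h1 l' hl' hx', hx, hx'⟩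
  refine (card_le_card this).trans ((card_union_le _ _).trans ?_)
  refine Nat.add_le_add (card_union_le _ _) (card_biUnion_le.trans ?_)
  simpa using sum_le_card_nsmul E _ 1 fun l' hl' =>
    card_inter_le (l := l) (l' := l') (fun e => hl (e ▸ hl'))

/-- pencil dichotomy, affine point -/
lemma pencil_aff (L : Finset (Ln F)) (hL : L.card ≤ Fintype.card F) (p : F × F)
    (hp : 1 ≤ mu L p) :
    ((pen p \ L).card : ℝ) * (Fintype.card F - (pen p \ L).card) ≤ (Unc L).card ∧
      (pen p \ L).card + mu L p = Fintype.card F + 1 := by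
  have e1 : (pen p \ L).card + mu L p = Fintype.card F + 1 := by
    rw [← card_pen p, ← card_sdiff_add_card_inter (pen p) L]
    congr 1; unfold mu; congr 1; ext l; simp [and_comm]
  have e2 : (L \ pen p).card + mu L p = L.card := by
    rw [← card_sdiff_add_card_inter L (pen p)]
    congr 1; unfold mu; congr 1; ext l; simp
  refine ⟨?_, e1⟩
  have := pencil_count L (pen p \ L) (Fintype.card F - (pen p \ L).card) ?_ ?_
  · have h3 : (pen p \ L).card ≤ Fintype.card F := by omega
    have : (((pen p \ L).card * (Fintype.card F - (pen p \ L).card) : ℕ) : ℝ) ≤ (Unc L).card := by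
      exact_mod_cast this
    rwa [Nat.cast_mul, Nat.cast_sub h3] at this
  · intro l hl l' hl' hne x hx h1 h2
    simp only [mem_sdiff, mem_pen] at hl hl'
    have := on_unique hne h1 h2 hl.1 hl'.1
    subst this
    simp only [Unc, mem_filter] at hx; omega
  · intro l hl
    simp only [mem_sdiff, mem_pen] at hl
    have := kk_ge L (L \ pen p) l {p} (by simp [hl.2]) fun x hx hxp l' hl' hx' => by
      simp only [mem_sdiff, mem_pen, hl', true_and]
      intro hp'
      exact hl.2 (line_eq (by simpa using hxp) hx hx' hl.1 hp' ▸ hl')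
    simp only [card_singleton] at this
    omega

/-- number of lines in a direction -/
def nd (L : Finset (Ln F)) (d : Option F) : ℕ := (L.filter (fun l => l.1 = d)).card

lemma nd_add (L : Finset (Ln F)) (d : Option F) :
    nd L d + (L.filter (fun l => l.1 ≠ d)).card = L.card := card_filter_add_card_filter_not _

lemma pencil_inf (L : Finset (Ln F)) (hL : L.card ≤ Fintype.card F) (d : Option F) :
    ((par_cl d \ L).card : ℝ) * (Fintype.card F - (par_cl d \ L).card) ≤ (Unc L).card ∧
      (par_cl d \ L).card + nd L d = Fintype.card F := by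
  have e1 : (par_cl d \ L).card + nd L d = Fintype.card F := by
    rw [← card_par_cl d, ← card_sdiff_add_card_inter (par_cl d) L]
    congr 1; unfold nd; congr 1; ext l; simp [and_comm]
  have e2 := nd_add L d
  refine ⟨?_, e1⟩
  have := pencil_count L (par_cl d \ L) (Fintype.card F - (par_cl d \ L).card) ?_ ?_
  · have h3 : (par_cl d \ L).card ≤ Fintype.card F := by omega
    have : (((par_cl d \ L).card * (Fintype.card F - (par_cl d \ L).card) : ℕ) : ℝ) ≤
        (Unc L).card := by exact_mod_cast this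
    rwa [Nat.cast_mul, Nat.cast_sub h3] at this
  · intro l hl l' hl' hne x _ h1 h2
    simp only [mem_sdiff, mem_par_cl] at hl hl'
    exact hne (h1.dir_eq h2 (hl.1.trans hl'.1.symm))
  · intro l hl
    simp only [mem_sdiff, mem_par_cl] at hl
    have := kk_ge L (L.filter (fun l => l.1 ≠ d)) l ∅ (by simp [hl.2]) fun x hx _ l' hl' hx' => by
      simp only [mem_filter, hl', true_and]
      intro hd
      exact hl.2 (hx.dir_eq hx' (hl.1.trans hd.symm) ▸ hl')
    simp only [card_empty] at this
    omega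

end Crest.Agent.H7.Ry
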