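import Crest.Agent.H7.RyD

set_option autoImplicit false
set_option linter.unusedSectionVars false

open Finset Polynomial

namespace Crest.Agent.H7.Ry

variable {F : Type*} [Field F] [Fintype F] [DecidableEq F]

lemma sum_eval_zero (p : F[X]) (hp : p.natDegree < Fintype.card F - 1) :
    ∑ x : F, p.eval x = 0 := by
  simp only [eval_eq_sum_range]
  rw [sum_comm]
  refine sum_eq_zero fun i hi => ?_
  rw [← mul_sum, FiniteField.sum_pow_lt_card_sub_one F i (by simp at hi; omega), mul_zero]

lemma natDegree_sum_or {ι : Type*} (s : Finset ι) (f : ι → F[X]) (a b : ℕ)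
    (h : ∀ i ∈ s, f i = 0 ∨ (f i).natDegree + a ≤ b) :
    ∑ i ∈ s, f i = 0 ∨ (∑ i ∈ s, f i).natDegree + a ≤ b := by
  by_cases h0 : ∀ i ∈ s, f i = 0
  · exact Or.inl (sum_eq_zero h0)
  · push Not at h0
    obtain ⟨i, hi, hi0⟩ := h0
    have hab : a ≤ b := by have := (h i hi).resolve_left hi0; omega
    right
    have : (∑ i ∈ s, f i).natDegree ≤ b - a := by
      refine natDegree_sum_le_of_forall_le _ _ fun j hj => ?_
      rcases h j hj with h1 | h1
      · rw [h1]; simp
      · omega
    omega

theorem hankel (R : F → F[X]) (k s : ℕ) (y₀ : F)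
    (hk : (univ.filter (fun x => (R x).eval y₀ ≠ 0)).card = k)
    (hH : ∀ n : ℕ, ∑ x, C (x ^ n) * R x = 0 ∨
      (∑ x, C (x ^ n) * R x).natDegree + Fintype.card F ≤ s + 1 + n) :
    ∑ y : F, (k - (univ.filter (fun x => (R x).eval y ≠ 0)).card) + k * Fintype.card F ≤
      k * (s + k) := by
  let Hm : Matrix (Fin k) (Fin k) F[X] := Matrix.of fun a j => ∑ x, C (x ^ (a.1 + j.1)) * R x
  have hexp : Hm.det = ∑ p : Fin k → F, (∏ i, R (p i)) *
      C ((∏ i : Fin k, p i ^ i.1) * (Matrix.of fun a i : Fin k => p i ^ a.1).det) := by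
    simp only [Matrix.det_apply', Hm, Matrix.of_apply, prod_univ_sum, mul_sum,
      Fintype.piFinset_univ, map_sum]
    rw [sum_comm]
    refine sum_congr rfl fun p _ => sum_congr rfl fun σ _ => ?_
    simp only [pow_add, map_mul, prod_mul_distrib, map_prod, map_intCast]
    ring
  have hdvd : ∀ y : F, (X - C y) ^ (k - (univ.filter (fun x => (R x).eval y ≠ 0)).card) ∣
      Hm.det := by
    intro y
    rw [hexp]
    refine dvd_sum fun p _ => ?_
    by_cases hp : Function.Injective p
    · refine Dvd.dvd.mul_right ?_ _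
      let T : Finset (Fin k) := univ.filter (fun i => (R (p i)).eval y = 0)
      have hT : k - (univ.filter (fun x => (R x).eval y ≠ 0)).card ≤ T.card := by
        have h1 : (univ.filter (fun i : Fin k => ¬ (R (p i)).eval y = 0)).card ≤
            (univ.filter (fun x => (R x).eval y ≠ 0)).card :=
          card_le_card_of_injOn p (fun i hi => by simpa using hi) hp.injOn
        have h2 := card_filter_add_card_filter_not (s := (univ : Finset (Fin k)))
          (fun i => (R (p i)).eval y = 0)
        simp only [card_univ, Fintype.card_fin] at h2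
        simp only [T]; omega
      refine (pow_dvd_pow _ hT).trans ?_
      rw [← prod_const]
      refine (prod_dvd_prod_of_dvd _ (fun i => R (p i)) fun i hi => ?_).trans
        (prod_dvd_prod_of_subset _ _ _ (subset_univ T))
      exact dvd_iff_isRoot.2 (mem_filter.1 hi).2
    · simp only [Function.Injective, not_forall] at hp
      obtain ⟨i, j, hij, hne⟩ := hp
      rw [Matrix.det_zero_of_column_eq hne (fun a => by simp [hij])]
      simp
  have hne : Hm.det ≠ 0 := by
    intro h0
    have h1 := RingHom.map_det (evalRingHom y₀) Hm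
    rw [h0, map_zero] at h1
    let K := univ.filter (fun x => (R x).eval y₀ ≠ 0)
    let e : Fin k ≃ K := (K.equivFinOfCardEq hk).symm
    let v : Fin k → F := fun i => (e i).1
    have hv : Function.Injective v := Subtype.val_injective.comp e.injective
    have h2 : (evalRingHom y₀).mapMatrix Hm = (Matrix.vandermonde v).transpose *
        (Matrix.diagonal (fun i => (R (v i)).eval y₀) * Matrix.vandermonde v) := by
      ext a j
      simp only [RingHom.mapMatrix_apply, Matrix.map_apply, Hm, Matrix.of_apply,
        coe_evalRingHom, eval_finsetSum, eval_mul, eval_C]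
      rw [Matrix.mul_apply]
      simp only [Matrix.transpose_apply, Matrix.diagonal_mul, Matrix.vandermonde_apply]
      rw [← sum_filter_add_sum_filter_not univ (fun x => (R x).eval y₀ ≠ 0)]
      rw [sum_eq_zero (s := univ.filter (fun x => ¬ (R x).eval y₀ ≠ 0))
        (fun x hx => by simp at hx; simp [hx]), add_zero]
      rw [← sum_coe_sort K, ← e.sum_comp]
      exact sum_congr rfl fun i _ => by simp only [v]; ring
    rw [h2, Matrix.det_mul, Matrix.det_mul, Matrix.det_transpose, Matrix.det_diagonal] at h1
    have h3 := Matrix.det_vandermonde_ne_zero_iff.2 hv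
    have h4 : ∏ i, (R (v i)).eval y₀ ≠ 0 :=
      prod_ne_zero_iff.2 fun i _ => (mem_filter.1 (e i).2).2
    exact mul_ne_zero h3 (mul_ne_zero h4 h3) h1.symm
  have hdeg : Hm.det.natDegree + k * Fintype.card F ≤ k * (s + k) := by
    refine Or.resolve_left ?_ hne
    rw [Matrix.det_apply']
    refine natDegree_sum_or _ _ _ _ fun σ _ => ?_
    by_cases h0 : ∃ i, Hm (σ i) i = 0
    · obtain ⟨i, hi⟩ := h0
      left; rw [prod_eq_zero (f := fun i => Hm (σ i) i) (mem_univ i) hi, mul_zero]
    · push Not at h0
      right
      have h1 : ∀ i, (Hm (σ i) i).natDegree + Fintype.card F ≤ s + 1 + ((σ i).1 + i.1) :=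
        fun i => (hH _).resolve_left (h0 i)
      have h2 := sum_le_sum (s := univ) fun i _ => h1 i
      simp only [sum_add_distrib, sum_const, card_univ, Fintype.card_fin, smul_eq_mul] at h2
      rw [Equiv.sum_comp σ (fun i : Fin k => i.1), Fin.sum_univ_eq_sum_range (fun i => i) k] at h2
      have h3 := sum_range_id_mul_two k
      have h4 : (((Equiv.Perm.sign σ : ℤ) : F[X]) * ∏ i, Hm (σ i) i).natDegree ≤
          ∑ i, (Hm (σ i) i).natDegree := by
        refine natDegree_mul_le.trans ?_
        rw [natDegree_intCast, zero_add]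
        exact natDegree_prod_le _ _
      have h5 : k * (k - 1) + k = k * k := by
        cases k with
        | zero => rfl
        | succ k => simp; ring
      nlinarith
  have hsum : ∑ y : F, (k - (univ.filter (fun x => (R x).eval y ≠ 0)).card) ≤
      Hm.det.natDegree := by
    calc _ ≤ ∑ y : F, Hm.det.roots.count y := sum_le_sum fun y _ => by
          rw [count_roots, le_rootMultiplicity_iff hne]; exact hdvd y
      _ = Multiset.card Hm.det.roots := Multiset.sum_count_eq_card fun _ _ => mem_univ _
      _ ≤ _ := card_roots' _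
  omega

lemma ph_par' (e d : Option F) (y x : F) :
    ph e (par d y x) = y * ph e (pt0 d 1) + x * ph e (vv d) := by
  rw [par, ph_add_smul]; cases d <;> cases e <;> simp [ph, pt0]; ring

lemma kk_eq (L : Finset (Ln F)) (d : Option F) (y : F) :
    kk L (d, y) = (univ.filter (fun x => mu L (par d y x) = 0)).card := by
  unfold kk
  rw [pts_eq, filter_image, card_image_of_injective _ (par_inj _ _)]

lemma sum_kk (L : Finset (Ln F)) (d : Option F) : ∑ y : F, kk L (d, y) = (Unc L).card := by
  rw [card_eq_sum_card_fiberwise (f := ph d) (t := univ) (fun _ _ => mem_univ _)]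
  refine sum_congr rfl fun y _ => ?_
  unfold kk; congr 1; ext x; simp [Unc, On, and_comm]

/-- the Szőnyi–Weiner inequality -/
theorem sw (L : Finset (Ln F)) (hL : L.card ≤ Fintype.card F) (l : Ln F) (hl : l ∉ L) :
    (kk L l : ℝ) * (Fintype.card F - kk L l) ≤ (Unc L).card := by
  obtain ⟨d, y₀⟩ := l
  set L' := L.filter (fun l => l.1 ≠ d) with hL'
  let R : F → F[X] := fun x => ∏ m ∈ L', (C (ph m.1 (pt0 d 1)) * X + C (x * ph m.1 (vv d) - m.2))
  have hR : ∀ x y, (R x).eval y ≠ 0 ↔ mu L' (par d y x) = 0 := by
    intro x y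
    simp only [R, eval_prod, prod_ne_zero_iff, mu_eq_zero, On, ph_par', eval_add, eval_mul,
      eval_C, eval_X]
    refine forall₂_congr fun m _ => not_congr ?_
    constructor <;> intro h <;> linear_combination h
  have hkk : ∀ y, (d, y) ∉ L → (univ.filter (fun x => (R x).eval y ≠ 0)).card = kk L (d, y) := by
    intro y hy
    rw [kk_eq]; congr 1; ext x
    simp only [mem_filter, mem_univ, true_and, hR, mu_eq_zero, hL']
    constructor
    · intro h m hm hon
      by_cases hd : m.1 = d
      · have : On (par d y x) (d, y) := ph_par _ _ _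
        exact hy (hon.dir_eq this hd ▸ hm)
      · exact h m ⟨hm, hd⟩ hon
    · exact fun h m hm => h m hm.1
  have key := hankel R (kk L (d, y₀)) L'.card y₀ (hkk y₀ hl) fun n => by
    have e : ∑ x, C (x ^ n) * R x = ∑ T ∈ L'.powerset, (∏ m ∈ T, C (ph m.1 (pt0 d 1)) * X) *
        C (∑ x : F, (X ^ n * ∏ m ∈ L' \ T, (X * C (ph m.1 (vv d)) - C m.2) : F[X]).eval x) := by
      simp only [R, prod_add, mul_sum, map_sum]
      rw [sum_comm]
      refine sum_congr rfl fun T _ => sum_congr rfl fun x _ => ?_
      simp only [eval_mul, eval_pow, eval_X, eval_prod, eval_sub, eval_C, map_mul, map_prod]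
      ring
    rw [e]
    refine natDegree_sum_or _ _ _ _ fun T hT => ?_
    have hTc := card_sdiff_add_card_eq_card (mem_powerset.1 hT)
    by_cases hc : n + (L' \ T).card < Fintype.card F - 1
    · left
      rw [sum_eval_zero _ (lt_of_le_of_lt ?_ hc), map_zero, mul_zero]
      refine natDegree_mul_le.trans (Nat.add_le_add (natDegree_X_pow_le n) ?_)
      refine (natDegree_prod_le _ _).trans ?_
      refine (sum_le_card_nsmul (L' \ T) _ 1 fun m _ => ?_).trans (by simp)
      compute_degree
    · right
      have : ((∏ m ∈ T, C (ph m.1 (pt0 d 1)) * X) * C (∑ x : F, (X ^ n * ∏ m ∈ L' \ T,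
          (X * C (ph m.1 (vv d)) - C m.2) : F[X]).eval x)).natDegree ≤ T.card := by
        refine natDegree_mul_le.trans ?_
        rw [natDegree_C, add_zero]
        refine (natDegree_prod_le _ _).trans ?_
        refine (sum_le_card_nsmul T _ 1 fun m _ => ?_).trans (by simp)
        compute_degree
      omega
  set k := kk L (d, y₀)
  set q := Fintype.card F
  let Y : Finset F := univ.filter (fun y => (d, y) ∉ L)
  have hY : Y.card + nd L d = q := by
    have h1 := card_filter_add_card_filter_not (s := (univ : Finset F)) (fun y => (d, y) ∉ L)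
    rw [card_univ] at h1
    refine Eq.trans ?_ h1; congr 1
    unfold nd
    symm
    refine card_bij (fun y _ => (d, y)) (fun y hy => by simpa using hy)
      (fun y _ y' _ h => congrArg Prod.snd h) fun m hm => ?_
    simp only [mem_filter] at hm
    refine ⟨m.2, ?_, Prod.ext hm.2.symm rfl⟩
    simp only [mem_filter, mem_univ, true_and, not_not]
    rw [← hm.2]; exact hm.1
  have h1 : Y.card * k ≤ ∑ y : F, (k - (univ.filter (fun x => (R x).eval y ≠ 0)).card) +
      (Unc L).card := by
    rw [← sum_kk L d, ← sum_add_distrib]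
    calc Y.card * k = ∑ y ∈ Y, k := by simp
      _ ≤ ∑ y ∈ Y, (k - (univ.filter (fun x => (R x).eval y ≠ 0)).card + kk L (d, y)) :=
          sum_le_sum fun y hy => by rw [hkk y (mem_filter.1 hy).2]; omega
      _ ≤ _ := sum_le_sum_of_subset (subset_univ _)
  have h2 : nd L d + L'.card = L.card := nd_add L d
  have h3 : Y.card * k + k * q ≤ k * (L'.card + k) + (Unc L).card := by omega
  have h4 : L'.card ≤ Y.card := by omega
  have h5 : k * q ≤ k * k + (Unc L).card := by nlinarith [Nat.mul_le_mul_left k h4]
  have h6 : (k : ℝ) * q ≤ k * k + (Unc L).card := by exact_mod_cast h5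
  linarith

end Crest.Agent.H7.Ry
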