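import Crest.Agent.H7.RyE

set_option autoImplicit false
set_option linter.unusedSectionVars false

open Finset

namespace Crest.Agent.H7.Ry

variable {F : Type*} [Field F] [Fintype F] [DecidableEq F]

/-- line statistic -/
noncomputable def NS (φ : ℕ → ℝ) (S : Finset (F × F)) (B : Finset (Ln F)) (l : Ln F) : ℝ :=
  ls (fun x => if x ∈ S then φ (mu B x) else 0) l

lemma mu_insert {B : Finset (Ln F)} {a : Ln F} (ha : a ∉ B) (x : F × F) :
    mu (insert a B) x = mu B x + if On x a then 1 else 0 := by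
  unfold mu
  rw [filter_insert]
  split_ifs with h
  · rw [card_insert_of_notMem (by simp [ha])]
  · rfl

lemma NS_BD (φ : ℕ → ℝ) (hφ : ∀ m, |φ (m + 1) - φ m| ≤ 2) (S : Finset (F × F)) (l : Ln F) :
    BD 2 (fun B => NS φ S (B.erase l) l) := by
  intro a B
  by_cases ha : a ∈ B
  · rw [insert_eq_of_mem ha]; simp
  by_cases hal : a = l
  · subst hal; simp only [erase_insert_eq_erase]; simp
  simp only
  rw [erase_insert_of_ne hal]
  have ha' : a ∉ B.erase l := fun h => ha (mem_of_mem_erase h)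
  unfold NS ls
  rw [← sum_sub_distrib]
  calc _ ≤ ∑ x ∈ pts l, |(if x ∈ S then φ (mu (insert a (B.erase l)) x) else 0) -
        (if x ∈ S then φ (mu (B.erase l) x) else 0)| := abs_sum_le_sum_abs _ _
    _ ≤ ∑ x ∈ pts l, if On x a then (2:ℝ) else 0 := by
        refine sum_le_sum fun x _ => ?_
        rw [mu_insert ha']
        by_cases h1 : x ∈ S <;> by_cases h2 : On x a <;> simp [h1, h2, hφ]
    _ ≤ 2 := by
        rw [← sum_filter, sum_const, nsmul_eq_mul]
        have : (((pts l).filter (fun x => On x a)).card : ℝ) ≤ 1 := by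
          exact_mod_cast card_inter_le (Ne.symm hal)
        linarith

lemma NS_Eb (ρ : ℝ) (φ : ℕ → ℝ) (S : Finset (F × F)) (A : Finset (Ln F)) (l : Ln F) :
    Eb ρ A (fun B => NS φ S (B.erase l) l) = NS (fun n => Bin ρ n φ) S (A.erase l) l := by
  unfold NS ls
  rw [Eb_sum]
  refine sum_congr rfl fun x _ => ?_
  have e : ∀ B : Finset (Ln F), mu (B.erase l) x = (B.filter (fun m => m ≠ l ∧ On x m)).card := by
    intro B; unfold mu; congr 1; ext m; simp only [mem_filter, mem_erase]; tauto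
  by_cases h : x ∈ S
  · simp only [h, if_true, e]; exact Eb_filter A _ φ
  · simp only [h, if_false]; exact Eb_const _ _

lemma NS_mono {φ ψ : ℕ → ℝ} (h : ∀ n, φ n ≤ ψ n) (S : Finset (F × F)) (B : Finset (Ln F))
    (l : Ln F) : NS φ S B l ≤ NS ψ S B l :=
  sum_le_sum fun x _ => by split_ifs; exacts [h _, le_rfl]

lemma NS_mul (c : ℝ) (φ : ℕ → ℝ) (S : Finset (F × F)) (B : Finset (Ln F)) (l : Ln F) :
    NS (fun n => c * φ n) S B l = c * NS φ S B l := by
  unfold NS ls; rw [mul_sum]; exact sum_congr rfl fun x _ => by by_cases h : x ∈ S <;> simp [h]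

/-- number of covered points of `S` on a line -/
def cov (S : Finset (F × F)) (B : Finset (Ln F)) (l : Ln F) : ℕ :=
  ((pts l).filter (fun x => x ∈ S ∧ mu B x ≠ 0)).card

lemma NS_g2_ge {ρ : ℝ} (h0 : 0 ≤ ρ) (h1 : ρ ≤ 1) (M : ℕ) (hM : ρ * M ≤ 1) (S : Finset (F × F))
    (B : Finset (Ln F)) (l : Ln F) :
    (NS (fun n => n) S B l - cov S B l * M) * (ρ * (ρ * M / 2)) ≤
      NS (fun n => Bin ρ n g2) S B l := by
  unfold NS ls cov
  rw [card_filter]; push_cast
  rw [sum_mul, ← sum_sub_distrib, sum_mul]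
  refine sum_le_sum fun x _ => ?_
  have hc : 0 ≤ ρ * (ρ * M / 2) := by positivity
  by_cases hx : x ∈ S
  · simp only [hx, if_true, true_and]
    by_cases hm : M + 1 ≤ mu B x
    · have := Bin_g2_ge h0 h1 _ M hM hm
      rw [if_pos (by omega)]
      have h3 : (0:ℝ) ≤ M := Nat.cast_nonneg _
      nlinarith [mul_nonneg h3 hc]
    · refine le_trans (mul_nonpos_of_nonpos_of_nonneg ?_ hc) (Bin_g2_nonneg h0 h1 _)
      by_cases hm0 : mu B x = 0
      · simp [hm0]
      · rw [if_pos hm0]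
        have : (mu B x : ℝ) ≤ M := by exact_mod_cast (by omega)
        linarith
  · simp [hx]

lemma samp3 {ρ : ℝ} (h0 : 0 < ρ) (h1 : ρ ≤ 1) (A : Finset (Ln F)) (n Δ : ℝ)
    (hn : (A.card : ℝ) ≤ n) (hn0 : 0 < n) (hΔ : 0 ≤ Δ) (hΔ' : Δ ≤ 4 * ρ * n) (I : Finset (Ln F))
    (S : Finset (F × F))
    (H : (2 * I.card + 1) * (2 * Real.exp (-(Δ ^ 2 / (16 * ρ * n)))) < 1) :
    ∃ B ⊆ A, |(B.card : ℝ) - ρ * A.card| < Δ ∧ ∀ l ∈ I,
      |NS (fun n => n) S (B.erase l) l - ρ * NS (fun n => n) S (A.erase l) l| < Δ ∧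
      |NS g2 S (B.erase l) l - NS (fun n => Bin ρ n g2) S (A.erase l) l| < Δ := by
  let f : Option (Ln F × Bool) → Finset (Ln F) → ℝ := fun i => match i with
    | none => fun B => B.card
    | some (l, false) => fun B => NS (fun n => n) S (B.erase l) l
    | some (l, true) => fun B => NS g2 S (B.erase l) l
  obtain ⟨B, hB, h⟩ := samp h0 h1 A n Δ hn hn0 hΔ hΔ' (insertNone (I ×ˢ (univ : Finset Bool))) f
    (by
      rintro (_ | ⟨l, _ | _⟩) _
      · intro a B
        simp only [f]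
        by_cases ha : a ∈ B
        · rw [insert_eq_of_mem ha]; simp
        · rw [card_insert_of_notMem ha]; simp
      · exact NS_BD _ (fun m => by push_cast; norm_num) S l
      · exact NS_BD _ (fun m => by rw [abs_of_nonneg (g2_succ m).1]; exact (g2_succ m).2) S l)
    (by rw [card_insertNone, card_product]; simpa [mul_comm] using H)
  refine ⟨B, hB, ?_, fun l hl => ⟨?_, ?_⟩⟩
  · have := h none (by simp)
    simp only [f] at this
    have e : Eb ρ A (fun B => (B.card : ℝ)) = ρ * A.card := by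
      have := Eb_filter (ρ := ρ) A (fun _ => True) (fun n => (n : ℝ))
      simp only [filter_true] at this
      rw [this, Bin_id, mul_comm]
    rwa [e] at this
  · have := h (some (l, false)) (by simp [hl])
    simp only [f] at this
    rw [NS_Eb] at this
    simp only [Bin_id] at this
    rw [← NS_mul]; simpa only [mul_comm] using this
  · have := h (some (l, true)) (by simp [hl])
    simp only [f] at this
    rwa [NS_Eb] at this

lemma g2_le_mul (m : ℕ) : g2 m ≤ (m : ℝ) * (m - 1) := by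
  unfold g2; split_ifs with h
  · have : (2:ℝ) ≤ m := by exact_mod_cast h
    nlinarith
  · interval_cases m <;> simp

lemma g2_sq_le (m : ℕ) : g2 m ^ 2 ≤ 2 * ((m : ℝ) * (m - 1)) := by
  unfold g2; split_ifs with h
  · have : (2:ℝ) ≤ m := by exact_mod_cast h
    nlinarith
  · interval_cases m <;> simp

open Classical in
/-- the first container -/
noncomputable def Cont (S : Finset (F × F)) (δ ρ : ℝ) (L' : Finset (Ln F)) : Finset (Ln F) :=
  L' ∪ univ.filter (fun l => NS (fun n => n) S L' l ≤ δ * ρ * Fintype.card F / 8) ∪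
    univ.filter (fun l => 8 * ρ ^ 2 * Fintype.card F ≤ NS g2 S L' l)

/-- number of points of `S` on a line -/
def sp (S : Finset (F × F)) (l : Ln F) : ℕ := ((pts l).filter (fun x => x ∈ S)).card

lemma ls_ind (S : Finset (F × F)) (l : Ln F) :
    ls (fun x => if x ∈ S then (1:ℝ) else 0) l = sp S l := by
  unfold ls sp; rw [card_filter]; push_cast; rfl

lemma card_Cont (S : Finset (F × F)) (δ ρ : ℝ) (hδ : 0 < δ) (hρ : 0 < ρ) (hρ1 : 2 * ρ ≤ 1)
    (L' : Finset (Ln F)) (h1 : ρ * Fintype.card F / 4 ≤ L'.card)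
    (h2 : (L'.card : ℝ) ≤ 2 * ρ * Fintype.card F)
    (hS : ∀ l ∈ L', δ * Fintype.card F ≤ sp S l) :
    ((Cont S δ ρ L').card : ℝ) ≤ (1 + 256 / (δ ^ 2 * ρ) + 1 / (2 * ρ ^ 2)) * Fintype.card F := by
  classical
  have hq := card_pos' (F := F)
  set Q : ℝ := (Fintype.card F : ℝ) with hQ
  set t : ℝ := (L'.card : ℝ) with ht
  have ht0 : 0 ≤ t := Nat.cast_nonneg _
  have htQ : t ≤ Q := by nlinarith
  have c1 : ((univ.filter (fun l => NS (fun n => n) S L' l ≤ δ * ρ * Q / 8)).card : ℝ) ≤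
      256 / (δ ^ 2 * ρ) * Q := by
    have hA : δ * Q * t ≤ ∑ x, (if x ∈ S then (mu L' x : ℝ) else 0) := by
      have := sum_mul_mu (fun x => if x ∈ S then (1:ℝ) else 0) L'
      simp only [ite_mul, one_mul, zero_mul, ls_ind] at this
      rw [this, mul_comm]
      simpa using card_nsmul_le_sum L' _ _ hS
    have hV : ∑ x, (if x ∈ S then (mu L' x : ℝ) else 0) ^ 2 ≤ 2 * t * Q := by
      have e1 := sum_mu_pred L'
      have e2 := sum_mu L'
      calc _ ≤ ∑ x, ((mu L' x : ℝ) * ((mu L' x : ℝ) - 1) + mu L' x) := sum_le_sum fun x _ => by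
            split_ifs <;> nlinarith
        _ ≤ _ := by rw [sum_add_distrib, e2]; nlinarith
    have := mixing_count (fun x => if x ∈ S then (mu L' x : ℝ) else 0)
      (univ.filter (fun l => NS (fun n => n) S L' l ≤ δ * ρ * Q / 8)) (δ * ρ * Q / 8)
      (by positivity) fun l hl => by
        have h3 : ls (fun x => if x ∈ S then (mu L' x : ℝ) else 0) l ≤ δ * ρ * Q / 8 :=
          (mem_filter.1 hl).2
        have h4 : δ * t ≤ (∑ x, (if x ∈ S then (mu L' x : ℝ) else 0)) / Q := by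
          rw [le_div_iff₀ hq]; linarith
        rw [abs_sub_comm]
        exact le_trans (by nlinarith) (le_abs_self _)
    rw [← hQ] at this
    have h5 : Q * (2 * t * Q) ≤ 256 / (δ ^ 2 * ρ) * Q * (δ * ρ * Q / 8) ^ 2 := by
      have : 256 / (δ ^ 2 * ρ) * Q * (δ * ρ * Q / 8) ^ 2 = Q * (2 * (2 * ρ * Q) * Q) := by
        field_simp; ring
      rw [this]; gcongr
    have h6 := mul_le_mul_of_nonneg_left hV hq.le
    exact le_of_mul_le_mul_right (by linarith) (by positivity : 0 < (δ * ρ * Q / 8) ^ 2)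
  have c2 : ((univ.filter (fun l => 8 * ρ ^ 2 * Q ≤ NS g2 S L' l)).card : ℝ) ≤
      1 / (2 * ρ ^ 2) * Q := by
    have e1 := sum_mu_pred L'
    have hA : ∑ x, (if x ∈ S then g2 (mu L' x) else 0) ≤ t ^ 2 :=
      le_trans (sum_le_sum fun x _ => by
        split_ifs
        · exact g2_le_mul _
        · exact (g2_nonneg _).trans (g2_le_mul _)) e1
    have hV : ∑ x, (if x ∈ S then g2 (mu L' x) else 0) ^ 2 ≤ 2 * t ^ 2 := by
      calc _ ≤ ∑ x, 2 * ((mu L' x : ℝ) * ((mu L' x : ℝ) - 1)) := sum_le_sum fun x _ => by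
            split_ifs
            · exact g2_sq_le _
            · exact le_trans (by simp [sq_nonneg]) (g2_sq_le (mu L' x))
        _ ≤ _ := by rw [← mul_sum]; linarith
    have ht2 : t ^ 2 ≤ (2 * ρ * Q) ^ 2 := pow_le_pow_left₀ ht0 h2 2
    have := mixing_count (fun x => if x ∈ S then g2 (mu L' x) else 0)
      (univ.filter (fun l => 8 * ρ ^ 2 * Q ≤ NS g2 S L' l)) (4 * ρ ^ 2 * Q)
      (by positivity) fun l hl => by
        have h3 : 8 * ρ ^ 2 * Q ≤ ls (fun x => if x ∈ S then g2 (mu L' x) else 0) l :=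
          (mem_filter.1 hl).2
        have h4 : (∑ x, (if x ∈ S then g2 (mu L' x) else 0)) / Q ≤ 4 * ρ ^ 2 * Q := by
          rw [div_le_iff₀ hq]; nlinarith
        exact le_trans (by linarith) (le_abs_self _)
    rw [← hQ] at this
    have h5 : Q * (2 * t ^ 2) ≤ 1 / (2 * ρ ^ 2) * Q * (4 * ρ ^ 2 * Q) ^ 2 := by
      have : 1 / (2 * ρ ^ 2) * Q * (4 * ρ ^ 2 * Q) ^ 2 = Q * (2 * (2 * ρ * Q) ^ 2) := by
        field_simp; ring
      rw [this]; gcongr
    have h6 := mul_le_mul_of_nonneg_left hV hq.le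
    exact le_of_mul_le_mul_right (by linarith) (by positivity : 0 < (4 * ρ ^ 2 * Q) ^ 2)
  unfold Cont
  have c3 := card_union_le (L' ∪ univ.filter (fun l => NS (fun n => n) S L' l ≤ δ * ρ * Q / 8))
    (univ.filter (fun l => 8 * ρ ^ 2 * Q ≤ NS g2 S L' l))
  have c4 := card_union_le L' (univ.filter (fun l => NS (fun n => n) S L' l ≤ δ * ρ * Q / 8))
  have c5 : (((L' ∪ univ.filter (fun l => NS (fun n => n) S L' l ≤ δ * ρ * Q / 8)) ∪
    (univ.filter (fun l => 8 * ρ ^ 2 * Q ≤ NS g2 S L' l))).card : ℝ) ≤ t +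
    (univ.filter (fun l => NS (fun n => n) S L' l ≤ δ * ρ * Q / 8)).card +
    (univ.filter (fun l => 8 * ρ ^ 2 * Q ≤ NS g2 S L' l)).card := by
    rw [ht]; exact_mod_cast c3.trans (Nat.add_le_add_right c4 _)
  refine le_trans (le_of_eq ?_) (c5.trans (by linarith))
  congr

theorem container (S : Finset (F × F)) (δ ρ ε : ℝ) (M : ℕ) (hδ1 : δ ≤ 1) (hρ : 0 < ρ)
    (hρδ : 16 * ρ ≤ δ) (hρM : ρ * M ≤ 1) (hM : 1024 ≤ δ * M) (hε : 64 * M * ε ≤ δ)
    (hs : (2 * Fintype.card F + 1) * (2 * Real.exp (-(ρ ^ 3 * Fintype.card F / 16))) < 1)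
    (Λ : Finset (Ln F)) (h1 : (Fintype.card F : ℝ) / 2 ≤ Λ.card) (h2 : Λ.card ≤ Fintype.card F)
    (hS : ∀ l ∈ Λ, δ * Fintype.card F ≤ sp S l)
    (hc : ∀ l ∈ Λ, (cov S (Λ.erase l) l : ℝ) ≤ 2 * ε * Fintype.card F) :
    ∃ L' : Finset (Ln F), (L'.card : ℝ) ≤ 2 * ρ * Fintype.card F ∧
      ((Cont S δ ρ L').card : ℝ) ≤ (1 + 256 / (δ ^ 2 * ρ) + 1 / (2 * ρ ^ 2)) * Fintype.card F ∧
      Λ ⊆ Cont S δ ρ L' := by
  have hq := card_pos' (F := F)
  set Q : ℝ := (Fintype.card F : ℝ) with hQ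
  have h2' : (Λ.card : ℝ) ≤ Q := by rw [hQ]; exact_mod_cast h2
  have hδ : 0 < δ := by linarith
  have hρQ : 0 < ρ * Q := by positivity
  obtain ⟨B, hB, hB1, hB2⟩ := samp3 hρ (by linarith) Λ Q (ρ ^ 2 * Q) h2' hq (by positivity)
    (by nlinarith) Λ S (by
      refine lt_of_le_of_lt ?_ hs
      have : (ρ ^ 2 * Q) ^ 2 / (16 * ρ * Q) = ρ ^ 3 * Q / 16 := by field_simp
      rw [this]; gcongr)
  obtain ⟨hB1, hB1'⟩ := abs_lt.1 hB1
  have hB3 : (B.card : ℝ) ≤ 2 * ρ * Q := by nlinarith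
  refine ⟨B, hB3, card_Cont S δ ρ hδ hρ (by linarith) B (by nlinarith) hB3
    fun l hl => hS l (hB hl), fun l hl => ?_⟩
  unfold Cont
  simp only [mem_union, mem_filter, mem_univ, true_and]
  by_cases hlB : l ∈ B
  · exact Or.inl (Or.inl hlB)
  obtain ⟨h3, h4⟩ := hB2 l hl
  rw [erase_eq_of_notMem hlB] at h3 h4
  rw [← hQ]
  by_cases hn : NS (fun n => n) S (Λ.erase l) l ≤ δ * Q / 16
  · left; right
    have := (abs_lt.1 h3).2
    nlinarith
  · right
    have h5 := (abs_lt.1 h4).1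
    have h6 := NS_g2_ge hρ.le (by linarith) M hρM S (Λ.erase l) l
    have hM0 : (0:ℝ) ≤ M := Nat.cast_nonneg _
    have h7 : (cov S (Λ.erase l) l : ℝ) * M ≤ δ * Q / 32 := by
      nlinarith [mul_le_mul_of_nonneg_right (hc l hl) hM0]
    have h8 : δ * Q / 32 * (ρ * (ρ * M / 2)) ≤ NS (fun n => Bin ρ n g2) S (Λ.erase l) l :=
      le_trans (mul_le_mul_of_nonneg_right (by linarith) (by positivity)) h6
    have h9 : 0 < ρ ^ 2 * Q := by positivity
    nlinarith

open Classical in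
/-- the second container -/
noncomputable def Cont2 (Θ : ℝ) (L' : Finset (Ln F)) : Finset (Ln F) :=
  L' ∪ univ.filter (fun l => Θ ≤ NS g2 univ L' l)

lemma NS_g2_le_kk {L : Finset (Ln F)} (hL : L.card ≤ Fintype.card F) {l : Ln F} (hl : l ∉ L) :
    NS g2 univ L l ≤ 2 * kk L l := by
  have h1 : ((∑ x ∈ pts l, mu L x : ℕ) : ℝ) ≤ Fintype.card F := by
    exact_mod_cast (ls_mu_le hl).trans hL
  unfold NS ls kk
  simp only [mem_univ, if_true]
  rw [card_filter]
  push_cast at h1 ⊢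
  calc _ ≤ ∑ x ∈ pts l, 2 * ((mu L x : ℝ) - 1 + if mu L x = 0 then 1 else 0) :=
        sum_le_sum fun x _ => by
          unfold g2
          rcases mu L x with _ | _ | n
          · simp
          · simp
          · rw [if_pos (by omega), if_neg (by omega)]; push_cast
            linarith [(Nat.cast_nonneg n : (0:ℝ) ≤ n)]
    _ ≤ _ := by
        rw [← mul_sum, sum_add_distrib, sum_sub_distrib, sum_const, card_pts]
        simp only [nsmul_eq_mul, mul_one]; linarith

lemma dich {k q u : ℝ} (hq : 0 < q) (hk0 : 0 ≤ k) (hk : k ≤ q) (h : k * (q - k) ≤ u) :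
    k ≤ 2 * (u / q) ∨ q - k ≤ 2 * (u / q) := by
  rw [← mul_div_assoc, le_div_iff₀ hq, le_div_iff₀ hq]
  by_cases h2 : k ≤ q / 2
  · left; nlinarith
  · right; nlinarith

lemma kk_le (L : Finset (Ln F)) (l : Ln F) : kk L l ≤ Fintype.card F :=
  (card_filter_le _ _).trans (card_pts l).le

theorem small_code (L : Finset (Ln F)) (ε r : ℝ) (hr : r = (Unc L).card / Fintype.card F)
    (hε : 0 < ε) (hε1 : ε ≤ 1) (hr2 : 2 ≤ r) (hrq : 3200 * r < ε * Fintype.card F)
    (h1 : 3 * (Fintype.card F : ℝ) / 4 ≤ L.card) (h2 : L.card ≤ Fintype.card F)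
    (hnd : ∀ d, (nd L d : ℝ) ≤ 2 * r)
    (hs : (2 * Fintype.card (Ln F) + 1) * (2 * Real.exp (-(ε ^ 3 * r / 10240000))) < 1) :
    ∃ L' : Finset (Ln F), (L'.card : ℝ) ≤ 2 * ε * r ∧
      (∀ l ∈ L, (cov univ (L.erase l) l : ℝ) ≤ 2 * r + 2 → l ∈ Cont2 (ε ^ 2 * r / 400) L') ∧
      (∀ l ∈ Cont2 (ε ^ 2 * r / 400) L', l ∈ L ∨ (Fintype.card F : ℝ) - kk L l ≤ 2 * r) := by
  have hq := card_pos' (F := F)
  set Q : ℝ := (Fintype.card F : ℝ) with hQ
  have h2' : (L.card : ℝ) ≤ Q := by rw [hQ]; exact_mod_cast h2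
  have hrQ : 3200 * r < Q := by nlinarith
  set ρ := ε * r / Q with hρ
  have hρ0 : 0 < ρ := by positivity
  have hρQ : ρ * Q = ε * r := by rw [hρ]; field_simp
  have hεr : ε * r ≤ r := by nlinarith
  have hρ1 : ρ ≤ 1 := by rw [hρ, div_le_one hq]; linarith
  have hεr2 : ε ^ 2 * r ≤ ε * r := by nlinarith
  have hεr0 : 0 < ε * r := by positivity
  obtain ⟨B, hB, hB1, hB2⟩ := samp3 hρ0 hρ1 L Q (ε ^ 2 * r / 800) h2' hq (by positivity)
    (by nlinarith) univ univ (by
      refine lt_of_le_of_lt (le_of_eq ?_) hs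
      have : (ε ^ 2 * r / 800) ^ 2 / (16 * ρ * Q) = ε ^ 3 * r / 10240000 := by
        rw [mul_assoc 16, hρQ]; field_simp; ring
      rw [this, card_univ])
  obtain ⟨hB1, hB1'⟩ := abs_lt.1 hB1
  refine ⟨B, by nlinarith, fun l hl hc => ?_, fun l hl => ?_⟩
  · unfold Cont2
    simp only [mem_union, mem_filter, mem_univ, true_and]
    by_cases hlB : l ∈ B
    · exact Or.inl hlB
    right
    obtain ⟨-, h4⟩ := hB2 l (mem_univ _)
    rw [erase_eq_of_notMem hlB] at h4
    have h5 := (abs_lt.1 h4).1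
    set e := 2 * r + 2 with he
    have he0 : 0 < e := by linarith
    set M := ⌊Q / (4 * e)⌋₊ with hM
    have hM1 : (M : ℝ) ≤ Q / (4 * e) := Nat.floor_le (by positivity)
    have hM2 : Q / (8 * e) ≤ M := by
      have a1 := Nat.lt_floor_add_one (Q / (4 * e))
      have a2 : 2 ≤ Q / (4 * e) := by rw [le_div_iff₀ (by positivity)]; linarith
      have a3 : Q / (8 * e) = Q / (4 * e) / 2 := by field_simp; ring
      rw [a3]; linarith
    have hM3 : e * M ≤ Q / 4 := by
      rw [le_div_iff₀ (by positivity)] at hM1; linarith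
    have hM0 : (0:ℝ) ≤ M := Nat.cast_nonneg _
    have hρM : ρ * M ≤ 1 := by
      have : ρ * M * Q ≤ 1 * Q := by nlinarith
      exact le_of_mul_le_mul_right this hq
    have h6 := NS_g2_ge hρ0.le hρ1 M hρM univ (L.erase l) l
    have h7 : Q / 2 ≤ NS (fun n => n) univ (L.erase l) l := by
      have a1 := ls_mu_ge (L.erase l) l
      have a2 : (L.erase l).filter (fun l' => l'.1 ≠ l.1) = L.filter (fun l' => l'.1 ≠ l.1) := by
        ext m; simp only [mem_filter, mem_erase]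
        exact ⟨fun h => ⟨h.1.2, h.2⟩, fun h => ⟨⟨fun e => h.2 (by rw [e]), h.1⟩, h.2⟩⟩
      have a3 := nd_add L l.1
      rw [a2] at a1
      have a4 : (L.card : ℝ) ≤ nd L l.1 + ((∑ x ∈ pts l, mu (L.erase l) x : ℕ) : ℝ) := by
        exact_mod_cast (by omega)
      unfold NS ls
      simp only [mem_univ, if_true]
      push_cast at a4
      linarith [hnd l.1]
    have h8 : Q / 4 * (ρ * (ρ * M / 2)) ≤ NS (fun n => Bin ρ n g2) univ (L.erase l) l :=
      le_trans (mul_le_mul_of_nonneg_right (by nlinarith) (by positivity)) h6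
    have h9 : Q / 4 * (ρ * (ρ * (Q / (8 * e)) / 2)) ≤ Q / 4 * (ρ * (ρ * M / 2)) := by gcongr
    have h10 : Q / 4 * (ρ * (ρ * (Q / (8 * e)) / 2)) = (ε * r) ^ 2 / (64 * e) := by
      rw [← hρQ]; field_simp; ring
    have h11 : ε ^ 2 * r / 192 ≤ (ε * r) ^ 2 / (64 * e) := by
      rw [div_le_div_iff₀ (by norm_num) (by positivity)]
      have : 0 < ε ^ 2 * r := by positivity
      nlinarith
    have : 0 < ε ^ 2 * r := by positivity
    linarith
  · by_cases hlL : l ∈ L
    · exact Or.inl hlL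
    right
    have hlB : l ∉ B := fun h => hlL (hB h)
    unfold Cont2 at hl
    simp only [mem_union, mem_filter, mem_univ, true_and, hlB, false_or] at hl
    obtain ⟨-, h4⟩ := hB2 l (mem_univ _)
    rw [erase_eq_of_notMem hlB, erase_eq_of_notMem hlL] at h4
    have h5 := (abs_lt.1 h4).2
    have h6 := dich hq (Nat.cast_nonneg _) (by rw [hQ]; exact_mod_cast kk_le L l) (sw L h2 l hlL)
    rw [← hr] at h6
    refine h6.resolve_left fun h7 => ?_
    have h8 : NS (fun n => Bin ρ n g2) univ L l ≤ ρ * NS g2 univ L l := by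
      rw [← NS_mul]; exact NS_mono (fun n => Bin_g2_le hρ0.le hρ1 n) _ _ _
    have h9 := NS_g2_le_kk h2 hlL
    have h10 : ρ * NS g2 univ L l ≤ ρ * (4 * r) := mul_le_mul_of_nonneg_left (by linarith) hρ0.le
    have h11 : ρ * (4 * r) * Q ≤ ε ^ 2 * r / 800 * Q := by
      have : ρ * (4 * r) * Q = ε * r * (4 * r) := by rw [← hρQ]; ring
      rw [this]; nlinarith
    have h12 := le_of_mul_le_mul_right h11 hq
    linarith

end Crest.Agent.H7.Ry
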