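import Crest.Agent.H7.RyF

set_option autoImplicit false
set_option linter.unusedSectionVars false

open Finset

namespace Crest.Agent.H7.Ry

variable {F : Type*} [Field F] [Fintype F] [DecidableEq F]

lemma sum_le_card_mul {ι : Type*} {s : Finset ι} {f : ι → ℝ} (c : ℝ) (h : ∀ i ∈ s, f i ≤ c) :
    ∑ i ∈ s, f i ≤ s.card * c := by simpa using sum_le_card_nsmul s f c h

lemma card_mul_le_sum {ι : Type*} {s : Finset ι} {f : ι → ℝ} (c : ℝ) (h : ∀ i ∈ s, c ≤ f i) :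
    s.card * c ≤ ∑ i ∈ s, f i := by simpa using card_nsmul_le_sum s f c h

lemma sum_cov (S : Finset (F × F)) (L : Finset (Ln F)) :
    ∑ l ∈ L, (cov S (L.erase l) l : ℝ) ≤ 2 * Xs S L := by
  have h1 := sum_mul_mu (fun x => if x ∈ S ∧ 2 ≤ mu L x then (1:ℝ) else 0) L
  have h2 : ∑ l ∈ L, (cov S (L.erase l) l : ℝ) =
      ∑ l ∈ L, ls (fun x => if x ∈ S ∧ 2 ≤ mu L x then (1:ℝ) else 0) l := by
    refine sum_congr rfl fun l hl => ?_
    unfold cov ls; rw [card_filter]; push_cast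
    refine sum_congr rfl fun x hx => ?_
    have := mu_erase hl (mem_pts.1 hx)
    exact if_congr (and_congr_right fun _ => by omega) rfl rfl
  rw [h2, ← h1, Xs, mul_sum, ← sum_filter_add_sum_filter_not univ (fun x => x ∈ S)]
  rw [sum_eq_zero (s := univ.filter (fun x => x ∉ S)) (fun x hx => by simp at hx; simp [hx]),
    add_zero, filter_mem_eq_inter, univ_inter]
  refine sum_le_sum fun x hx => ?_
  simp only [hx, true_and]
  rcases mu L x with _ | _ | n
  · simp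
  · simp
  · rw [if_pos (by omega)]; simp only [Nat.add_sub_cancel]; push_cast
    linarith [(Nat.cast_nonneg n : (0:ℝ) ≤ n)]

lemma Xs_nonneg (S : Finset (F × F)) (L : Finset (Ln F)) : 0 ≤ Xs S L :=
  sum_nonneg fun _ _ => Nat.cast_nonneg _

lemma Xs_mono (S : Finset (F × F)) {L B : Finset (Ln F)} (h : B ⊆ L) : Xs S B ≤ Xs S L :=
  sum_le_sum fun x _ => by exact_mod_cast Nat.sub_le_sub_right (mu_mono h x) 1

lemma Xs_le_sdiff (S : Finset (F × F)) (L D : Finset (Ln F)) :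
    Xs S L ≤ Xs S (L \ D) + D.card * Fintype.card F := by
  rw [← sum_mu]
  calc Xs S L ≤ ∑ x ∈ S, (((mu (L \ D) x - 1 : ℕ) : ℝ) + mu D x) := by
        refine sum_le_sum fun x _ => ?_
        have : mu L x ≤ mu (L \ D) x + mu D x := by
          unfold mu
          refine le_trans (card_le_card fun l hl => ?_) (card_union_le _ _)
          simp only [mem_filter, mem_union, mem_sdiff] at hl ⊢; tauto
        exact_mod_cast (by omega)
    _ ≤ _ := by
        rw [sum_add_distrib]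
        exact add_le_add le_rfl
          (sum_le_sum_of_subset_of_nonneg (subset_univ _) fun _ _ _ => Nat.cast_nonneg _)

lemma cov_add_kk (B : Finset (Ln F)) (l : Ln F) : cov univ B l + kk B l = Fintype.card F := by
  unfold cov kk
  rw [← card_pts l, ← card_filter_add_card_filter_not (s := pts l) (fun x => mu B x = 0), add_comm]
  simp

structure StabHyp (Wk : Finset (Ln F)) (S : ℕ → Finset (F × F)) (J : ℕ)
    (δ ρ ε τ η ε₂ C r₀ : ℝ) : Prop where
  s0 : S 0 = univ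
  smono : ∀ j, S (j + 1) ⊆ S j
  wt : ∃ v : F × F → ℝ, (∀ x ∈ S J, 1 ≤ v x) ∧ (∀ x ∉ S J, v x = 0) ∧
    (∀ l, ls v l ≤ (1 + η) ^ 2 * Fintype.card F) ∧
    (1 - η) ^ 2 * (Fintype.card F : ℝ) ^ 2 ≤ ∑ x, v x
  dens : ∀ l ∉ Wk, δ * Fintype.card F ≤ sp (S J) l
  stage : ∀ j < J, ∀ l ∉ Wk, (sp (S j \ S (j + 1)) l : ℝ) ≤ ε * Fintype.card F
  p4 : ∀ j < J, ∀ L' : Finset (Ln F), (L'.card : ℝ) ≤ 2 * ρ * Fintype.card F →
    ((Cont (S j) δ ρ L').card : ℝ) ≤ (1 + 256 / (δ ^ 2 * ρ) + 1 / (2 * ρ ^ 2)) * Fintype.card F →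
    ∀ B ⊆ Cont (S j) δ ρ L', B.card ≤ Fintype.card F →
    τ * (Fintype.card F : ℝ) ^ 2 ≤ Xs (S j) B → Xs (S j) B ≤ 2 * Xs (S (j + 1)) B
  wk : (Wk.card : ℝ) ≤ C * Fintype.card F
  p5 : ∀ u ∈ range (Fintype.card F ^ 2 + 1), r₀ ≤ (u : ℝ) / Fintype.card F →
    ∀ L' : Finset (Ln F), (L'.card : ℝ) ≤ 2 * ε₂ * (u / Fintype.card F) →
    ((Cont2 (ε₂ ^ 2 * (u / Fintype.card F) / 400) L').card : ℝ) ≤ (1 + C) * Fintype.card F →
    ((Wk ∩ Cont2 (ε₂ ^ 2 * (u / Fintype.card F) / 400) L').card : ℝ) < u / Fintype.card F / 4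
  p6 : ∀ u ∈ range (Fintype.card F ^ 2 + 1), r₀ ≤ (u : ℝ) / Fintype.card F →
    ∀ L' : Finset (Ln F), (L'.card : ℝ) ≤ 2 * ε₂ * (u / Fintype.card F) → ∀ j < J,
    (u : ℝ) / 2 ^ (J + 1) ≤ (Unc (Cont2 (ε₂ ^ 2 * (u / Fintype.card F) / 400) L') ∩ S j).card →
    (Unc (Cont2 (ε₂ ^ 2 * (u / Fintype.card F) / 400) L') ∩ S j).card ≤
      2 * (Unc (Cont2 (ε₂ ^ 2 * (u / Fintype.card F) / 400) L') ∩ S (j + 1)).card

variable {Wk : Finset (Ln F)} {S : ℕ → Finset (F × F)} {J : ℕ} {δ ρ ε τ η ε₂ C r₀ : ℝ}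

lemma StabHyp.sub (H : StabHyp Wk S J δ ρ ε τ η ε₂ C r₀) {i j : ℕ} (h : i ≤ j) : S j ⊆ S i := by
  induction h with
  | refl => exact Subset.rfl
  | step _ ih => exact (H.smono _).trans ih

lemma StabHyp.first (H : StabHyp Wk S J δ ρ ε τ η ε₂ C r₀) (hη : 0 ≤ η)
    {L : Finset (Ln F)} (hL : L.card ≤ Fintype.card F) (hc : ∀ x ∈ S J, mu L x ≠ 0) :
    Xs (S J) L ≤ 4 * η * (Fintype.card F : ℝ) ^ 2 ∧
      (1 - 4 * η) * Fintype.card F ≤ L.card := by
  obtain ⟨v, h1, h2, h3, h4⟩ := H.wt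
  have hq := card_pos' (F := F)
  set Q : ℝ := (Fintype.card F : ℝ) with hQ
  have hL' : (L.card : ℝ) ≤ Q := by rw [hQ]; exact_mod_cast hL
  have h5 : ∑ x, v x * mu L x ≤ L.card * ((1 + η) ^ 2 * Q) := by
    rw [sum_mul_mu]; simpa using sum_le_card_nsmul L _ _ fun l _ => h3 l
  have h6 : Xs (S J) L ≤ ∑ x, v x * mu L x - ∑ x, v x := by
    rw [← sum_sub_distrib, ← sum_filter_add_sum_filter_not univ (fun x => x ∈ S J)]
    rw [sum_eq_zero (s := univ.filter (fun x => x ∉ S J))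
      (fun x hx => by simp at hx; simp [h2 x hx]), add_zero, filter_mem_eq_inter, univ_inter]
    refine sum_le_sum fun x hx => ?_
    have a1 := h1 x hx
    have a2 := hc x hx
    obtain ⟨n, hn⟩ := Nat.exists_eq_succ_of_ne_zero a2
    rw [hn]; simp only [Nat.succ_eq_add_one, Nat.add_sub_cancel]; push_cast
    nlinarith [(Nat.cast_nonneg n : (0:ℝ) ≤ n)]
  have h7 := Xs_nonneg (S J) L
  constructor
  · have : L.card * ((1 + η) ^ 2 * Q) ≤ Q * ((1 + η) ^ 2 * Q) := by gcongr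
    nlinarith
  · have h8 : (1 - η) ^ 2 * Q * Q ≤ L.card * (1 + η) ^ 2 * Q := by nlinarith
    have h9 := le_of_mul_le_mul_right h8 hq
    by_contra hcon
    push Not at hcon
    have h10 : L.card * (1 + η) ^ 2 < (1 - 4 * η) * Q * (1 + η) ^ 2 :=
      mul_lt_mul_of_pos_right hcon (by positivity)
    have h11 : (1 - 4 * η) * (1 + η) ^ 2 ≤ (1 - η) ^ 2 := by nlinarith [mul_nonneg hη hη]
    nlinarith

lemma StabHyp.second (H : StabHyp Wk S J δ ρ ε τ η ε₂ C r₀) (M : ℕ) (K : ℝ)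
    (hη : 0 ≤ η) (hη1 : η ≤ 1 / 16) (hητ : 4 * η ≤ τ) (hε : 0 < ε) (hK : 2 / ε + 2 ≤ K)
    (hKJ : 8 * K ^ J * τ ≤ ε) (hδ1 : δ ≤ 1) (hρ : 0 < ρ)
    (hρδ : 16 * ρ ≤ δ) (hρM : ρ * M ≤ 1) (hM : 1024 ≤ δ * M) (hε' : 64 * M * ε ≤ δ)
    (hs : (2 * Fintype.card F + 1) * (2 * Real.exp (-(ρ ^ 3 * Fintype.card F / 16))) < 1)
    {L : Finset (Ln F)} (hL : L.card ≤ Fintype.card F) (hW : ∀ l ∈ L, l ∉ Wk)
    (hc : ∀ x ∈ S J, mu L x ≠ 0) (i : ℕ) (hi : i ≤ J) :
    Xs (S (J - i)) L ≤ K ^ i * τ * (Fintype.card F : ℝ) ^ 2 := by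
  classical
  obtain ⟨f1, f2⟩ := H.first hη hL hc
  have hq := card_pos' (F := F)
  set Q : ℝ := (Fintype.card F : ℝ) with hQ
  have hK2 : 0 < 2 / ε := by positivity
  have hK1 : 1 ≤ K := by linarith
  have hτ : 0 ≤ τ := by linarith
  induction i with
  | zero => simp only [Nat.sub_zero, pow_zero, one_mul]; nlinarith
  | succ i ih =>
    have ih := ih (by omega)
    obtain ⟨j, hj⟩ : ∃ j, J - (i + 1) = j := ⟨_, rfl⟩
    have hj1 : J - i = j + 1 := by omega
    have hjJ : j < J := by omega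
    rw [hj1] at ih; rw [hj]
    set T := K ^ i * τ with hT
    have hT1 : τ ≤ T := by rw [hT]; nlinarith [one_le_pow₀ (n := i) hK1]
    have hT2 : 8 * T ≤ ε := by
      have : K ^ i ≤ K ^ J := pow_le_pow_right₀ hK1 (by omega)
      rw [hT]; nlinarith
    let D := L.filter (fun l => ε * Q < cov (S (j + 1)) (L.erase l) l)
    have hD : (D.card : ℝ) * (ε * Q) ≤ 2 * (T * Q ^ 2) := by
      calc (D.card : ℝ) * (ε * Q) ≤ ∑ l ∈ D, (cov (S (j + 1)) (L.erase l) l : ℝ) := by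
            simpa using card_nsmul_le_sum D _ _ fun l hl => (mem_filter.1 hl).2.le
        _ ≤ ∑ l ∈ L, (cov (S (j + 1)) (L.erase l) l : ℝ) :=
            sum_le_sum_of_subset_of_nonneg (filter_subset _ _) fun _ _ _ => Nat.cast_nonneg _
        _ ≤ _ := (sum_cov _ _).trans (by linarith)
    have hD1 : (D.card : ℝ) ≤ 2 / ε * T * Q := by
      refine le_of_mul_le_mul_right (hD.trans (le_of_eq ?_)) (by positivity : 0 < ε * Q)
      field_simp
    have hD2 : (D.card : ℝ) ≤ Q / 4 := by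
      refine le_of_mul_le_mul_right (hD.trans ?_) (by positivity : 0 < ε * Q)
      nlinarith [mul_le_mul_of_nonneg_right hT2 (sq_nonneg Q)]
    have hB : ((L \ D).card : ℝ) + D.card = L.card := by
      exact_mod_cast card_sdiff_add_card_eq_card (filter_subset _ L)
    have hBq : (L \ D).card ≤ Fintype.card F := (card_le_card sdiff_subset).trans hL
    obtain ⟨L', g1, g2, g3⟩ := container (S j) δ ρ ε M hδ1 hρ hρδ hρM hM hε' hs (L \ D)
      (by nlinarith) hBq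
      (fun l hl => (H.dens l (hW l (sdiff_subset hl))).trans (by
        exact_mod_cast card_le_card fun x hx => by
          simp only [mem_filter] at hx ⊢; exact ⟨hx.1, H.sub hjJ.le hx.2⟩))
      (fun l hl => by
        have a1 := H.stage j hjJ l (hW l (sdiff_subset hl))
        have a2 : (cov (S (j + 1)) (L.erase l) l : ℝ) ≤ ε * Q := by
          simp only [D, mem_sdiff, mem_filter, not_and, not_lt] at hl; exact hl.2 hl.1
        have a3 : cov (S j) ((L \ D).erase l) l ≤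
            cov (S (j + 1)) (L.erase l) l + sp (S j \ S (j + 1)) l := by
          unfold cov sp
          refine le_trans (card_le_card fun x hx => ?_) (card_union_le _ _)
          simp only [mem_filter, mem_union, mem_sdiff] at hx ⊢
          by_cases h : x ∈ S (j + 1)
          · left
            have := mu_mono (erase_subset_erase l (sdiff_subset (s := L) (t := D))) x
            exact ⟨hx.1, h, by omega⟩
          · right; exact ⟨hx.1, hx.2.1, h⟩
        have a4 : (cov (S j) ((L \ D).erase l) l : ℝ) ≤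
            cov (S (j + 1)) (L.erase l) l + sp (S j \ S (j + 1)) l := by exact_mod_cast a3
        linarith)
    have h1 : Xs (S j) (L \ D) ≤ 2 * (T * Q ^ 2) := by
      by_cases h : τ * Q ^ 2 ≤ Xs (S j) (L \ D)
      · have := H.p4 j hjJ L' g1 g2 _ g3 hBq h
        linarith [Xs_mono (S (j + 1)) (sdiff_subset (s := L) (t := D))]
      · nlinarith [mul_le_mul_of_nonneg_right hT1 (sq_nonneg Q), mul_nonneg hτ (sq_nonneg Q)]
    have h2 := Xs_le_sdiff (S j) L D
    have h3 : (D.card : ℝ) * Q ≤ 2 / ε * T * Q * Q := by gcongr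
    have h4 : 0 ≤ T * Q ^ 2 := by positivity
    calc _ ≤ (2 / ε + 2) * (T * Q ^ 2) := by nlinarith
      _ ≤ K * (T * Q ^ 2) := by gcongr
      _ = _ := by rw [hT]; ring

lemma red_kk {L : Finset (Ln F)} (hL : L.card ≤ Fintype.card F) {r : ℝ}
    (hr : r = (Unc L).card / Fintype.card F) {l : Ln F}
    (hl' : 2 * r + 2 < (cov univ (L.erase l) l : ℝ)) : (kk (L.erase l) l : ℝ) ≤ 2 * r + 2 := by
  have hq := card_pos' (F := F)
  have a1 := sw (L.erase l) (card_erase_le.trans hL) l (notMem_erase l L)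
  have a2 : (Unc (L.erase l)).card ≤ (Unc L).card + Fintype.card F := by
    rw [← card_pts l]
    refine le_trans (card_le_card fun x hx => ?_) (card_union_le _ _)
    simp only [mem_Unc, mem_erase, mem_union, mem_pts] at hx ⊢
    by_cases h : On x l
    · exact Or.inr h
    · left; intro m hm
      by_cases e : m = l
      · rwa [e]
      · exact hx m ⟨e, hm⟩
  have a3 : ((Unc (L.erase l)).card : ℝ) ≤ (Unc L).card + Fintype.card F := by exact_mod_cast a2
  have a4 : (cov univ (L.erase l) l : ℝ) + kk (L.erase l) l = Fintype.card F := by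
    exact_mod_cast cov_add_kk _ _
  have a5 : (((Unc L).card : ℝ) + Fintype.card F) / Fintype.card F = r + 1 := by
    rw [hr]; field_simp
  rcases dich hq (Nat.cast_nonneg _) (by exact_mod_cast kk_le _ _) (a1.trans a3)
    with h | h <;> rw [a5] at h <;> linarith

open Classical in
/-- redundant lines -/
noncomputable def Red (L : Finset (Ln F)) (r : ℝ) : Finset (Ln F) :=
  L.filter (fun l => 2 * r + 2 < (cov univ (L.erase l) l : ℝ))

lemma mem_Red {L : Finset (Ln F)} {r : ℝ} {l : Ln F} :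
    l ∈ Red L r ↔ l ∈ L ∧ 2 * r + 2 < (cov univ (L.erase l) l : ℝ) := by
  simp [Red]

lemma card_Red {L : Finset (Ln F)} (hL : L.card ≤ Fintype.card F) {r : ℝ}
    (hr : r = (Unc L).card / Fintype.card F) (hrq : 4 * r + 4 ≤ Fintype.card F) :
    ((Red L r).card : ℝ) ≤ 4 * r := by
  have hq := card_pos' (F := F)
  have hL' : (L.card : ℝ) ≤ Fintype.card F := by exact_mod_cast hL
  have f4 := Xs_univ L
  have : ((Red L r).card : ℝ) * ((Fintype.card F : ℝ) / 2) ≤ 2 * (Unc L).card := by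
    calc ((Red L r).card : ℝ) * ((Fintype.card F : ℝ) / 2) ≤
          ∑ l ∈ Red L r, (cov univ (L.erase l) l : ℝ) := by
          simpa using card_nsmul_le_sum (Red L r) _ ((Fintype.card F : ℝ) / 2) fun l hl => by
            have a4 : (cov univ (L.erase l) l : ℝ) + kk (L.erase l) l = Fintype.card F := by
              exact_mod_cast cov_add_kk _ _
            linarith [red_kk hL hr (mem_Red.1 hl).2]
      _ ≤ ∑ l ∈ L, (cov univ (L.erase l) l : ℝ) :=
          sum_le_sum_of_subset_of_nonneg (fun l hl => (mem_Red.1 hl).1)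
            fun _ _ _ => Nat.cast_nonneg _
      _ ≤ _ := (sum_cov _ _).trans (by nlinarith)
  refine le_of_mul_le_mul_right (this.trans (le_of_eq ?_))
    (by positivity : 0 < (Fintype.card F : ℝ) / 2)
  rw [hr]; field_simp; ring

lemma ess_bound {L : Finset (Ln F)} {r : ℝ} (hr0 : 0 ≤ r) (hmu : ∀ p, (mu L p : ℝ) ≤ 2 * r + 1)
    (hnd : ∀ d, (nd L d : ℝ) ≤ 2 * r) {l : Ln F}
    (a0 : (cov univ (L.erase l) l : ℝ) ≤ 2 * r + 2) :
    (L.card : ℝ) ≤ (2 * r + 2) * (2 * r + 1) + 2 * r := by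
  have a1 := ls_mu_ge (L.erase l) l
  have a2 : (L.erase l).filter (fun l' => l'.1 ≠ l.1) = L.filter (fun l' => l'.1 ≠ l.1) := by
    ext m; simp only [mem_filter, mem_erase]
    exact ⟨fun h => ⟨h.1.2, h.2⟩, fun h => ⟨⟨fun e => h.2 (by rw [e]), h.1⟩, h.2⟩⟩
  have a3 := nd_add L l.1
  rw [a2] at a1
  have a4 : (L.card : ℝ) ≤ nd L l.1 + ((∑ x ∈ pts l, mu (L.erase l) x : ℕ) : ℝ) := by
    exact_mod_cast (by omega)
  have a5 : ((∑ x ∈ pts l, mu (L.erase l) x : ℕ) : ℝ) ≤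
      cov univ (L.erase l) l * (2 * r + 1) := by
    unfold cov
    rw [card_filter]; push_cast; rw [sum_mul]
    refine sum_le_sum fun x _ => ?_
    by_cases h : mu (L.erase l) x = 0
    · simp [h]
    · rw [if_pos ⟨mem_univ _, h⟩, one_mul]
      exact le_trans (by exact_mod_cast mu_mono (erase_subset l L) x) (hmu x)
  have a6 : (cov univ (L.erase l) l : ℝ) * (2 * r + 1) ≤ (2 * r + 2) * (2 * r + 1) := by gcongr
  linarith [hnd l.1]

lemma unc_cont_le {L 𝒞 : Finset (Ln F)} {T : Finset (F × F)} (hL : L.card ≤ Fintype.card F)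
    {r : ℝ} (hr : r = (Unc L).card / Fintype.card F) (hc : ∀ x ∈ T, mu L x ≠ 0)
    (g2 : ∀ l ∈ L, (cov univ (L.erase l) l : ℝ) ≤ 2 * r + 2 → l ∈ 𝒞) :
    ((Unc 𝒞 ∩ T).card : ℝ) ≤ (Red L r).card * (2 * r + 2 + (Red L r).card) := by
  have : Unc 𝒞 ∩ T ⊆ (Red L r).biUnion (fun l => (pts l).filter (fun x => mu (L.erase l) x = 0) ∪
      ((Red L r).erase l).biUnion (fun m => (pts l).filter (fun x => On x m))) := by
    intro x hx
    obtain ⟨hx1, hx2⟩ := mem_inter.1 hx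
    rw [mem_Unc] at hx1
    have hred : ∀ l ∈ L, On x l → l ∈ Red L r := fun l hl hon => by
      rw [mem_Red]; refine ⟨hl, ?_⟩
      by_contra h
      exact hx1 l (g2 l hl (not_lt.1 h)) hon
    have a1 := hc x hx2
    rw [Ne, mu_eq_zero] at a1
    push Not at a1
    obtain ⟨l, hl, hon⟩ := a1
    simp only [mem_biUnion, mem_union, mem_filter, mem_pts]
    refine ⟨l, hred l hl hon, ?_⟩
    by_cases h : mu (L.erase l) x = 0
    · exact Or.inl ⟨hon, h⟩
    · rw [mu_eq_zero] at h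
      push Not at h
      obtain ⟨m, hm, hon'⟩ := h
      exact Or.inr ⟨m, mem_erase.2 ⟨(mem_erase.1 hm).1, hred m (mem_erase.1 hm).2 hon'⟩,
        hon, hon'⟩
  calc ((Unc 𝒞 ∩ T).card : ℝ) ≤
        ((∑ l ∈ Red L r, (kk (L.erase l) l + (Red L r).card) : ℕ) : ℝ) := by
        refine Nat.cast_le.2 ((card_le_card this).trans (card_biUnion_le.trans
          (sum_le_sum fun l _ => (card_union_le _ _).trans (Nat.add_le_add_left ?_ _))))
        refine card_biUnion_le.trans (le_trans ?_ (card_erase_le (s := Red L r) (a := l)))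
        simpa using sum_le_card_nsmul ((Red L r).erase l) _ 1 fun m hm =>
          card_inter_le (l := l) (l' := m) (Ne.symm (mem_erase.1 hm).1)
    _ ≤ _ := by
        push_cast
        exact sum_le_card_mul _ fun l hl => by
          linarith [red_kk hL hr (mem_Red.1 hl).2]

lemma unc_cont_ge {L 𝒞 Wk : Finset (Ln F)} (hC : ∀ l ∈ 𝒞, l ∈ L ∨ l ∈ Wk) :
    ((Unc L).card : ℝ) ≤ (Unc 𝒞).card + (Wk ∩ 𝒞).card * Fintype.card F := by
  have : (Unc L).card ≤ (Unc 𝒞).card + (Wk ∩ 𝒞).card * Fintype.card F := by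
    have : Unc L ⊆ Unc 𝒞 ∪ (Wk ∩ 𝒞).biUnion pts := by
      intro x hx
      simp only [mem_Unc, mem_union, mem_biUnion, mem_inter, mem_pts] at hx ⊢
      by_contra h
      push Not at h
      obtain ⟨⟨l, hl, hx'⟩, h⟩ := h
      rcases hC l hl with h' | h'
      · exact hx l h' hx'
      · exact h l ⟨h', hl⟩ hx'
    refine (card_le_card this).trans ((card_union_le _ _).trans (Nat.add_le_add_left ?_ _))
    exact card_biUnion_le.trans (by simp [card_pts])
  exact_mod_cast this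

lemma halving (a : ℕ → ℕ) (J : ℕ) (u : ℝ) (hu : 0 ≤ u) (h0 : 3 * u / 4 ≤ a 0)
    (h : ∀ j < J, u / 2 ^ (J + 1) ≤ a j → a j ≤ 2 * a (j + 1)) :
    ∀ j ≤ J, 3 * u / 4 ≤ 2 ^ j * a j := by
  intro j hj
  induction j with
  | zero => simpa using h0
  | succ j ih =>
    have ih := ih (by omega)
    have a1 : (2:ℝ) ^ j ≤ 2 ^ J := pow_le_pow_right₀ (by norm_num) (by omega)
    have a2 := h j (by omega) (by
      rw [div_le_iff₀ (by positivity), pow_succ]
      nlinarith [mul_le_mul_of_nonneg_right a1 (Nat.cast_nonneg (a j))])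
    have a3 : (a j : ℝ) ≤ 2 * a (j + 1) := by exact_mod_cast a2
    rw [pow_succ]
    nlinarith [mul_le_mul_of_nonneg_left a3 (by positivity : (0:ℝ) ≤ 2 ^ j)]

lemma StabHyp.third (H : StabHyp Wk S J δ ρ ε τ η ε₂ C r₀) (ξ : ℝ)
    (hξδ : 2 * ξ < δ) (hξε : 3200 * ξ < ε₂) (hε₂ : ε₂ ≤ 1)
    (hξJ : 40 * 2 ^ J * ξ ≤ 1) (hr₀ : 2 ≤ r₀)
    (hr₀q : (2 * r₀ + 2) * (2 * r₀ + 1) + 2 * r₀ ≤ 3 * Fintype.card F / 4)
    (hs2 : (2 * Fintype.card (Ln F) + 1) * (2 * Real.exp (-(ε₂ ^ 3 * r₀ / 10240000))) < 1)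
    {L : Finset (Ln F)} (hL : L.card ≤ Fintype.card F)
    (hc : ∀ x ∈ S J, mu L x ≠ 0) (hL34 : 3 * (Fintype.card F : ℝ) / 4 ≤ L.card)
    {r : ℝ} (hr : r = (Unc L).card / Fintype.card F) (hrξ : r ≤ ξ * Fintype.card F)
    (hmu : ∀ p, (mu L p : ℝ) ≤ 2 * r + 1) (hnd : ∀ d, (nd L d : ℝ) ≤ 2 * r) : False := by
  have hq := card_pos' (F := F)
  have hL' : (L.card : ℝ) ≤ Fintype.card F := by exact_mod_cast hL
  have hr0 : 0 ≤ r := by rw [hr]; positivity
  have hξ0 : 0 ≤ ξ := by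
    by_contra h
    push Not at h
    linarith [mul_neg_of_neg_of_pos h hq]
  have hε₂0 : 0 < ε₂ := by linarith
  have hrQ : 3200 * r < ε₂ * Fintype.card F := by
    linarith [mul_lt_mul_of_pos_right hξε hq]
  have hrQ' : 3200 * r < Fintype.card F := by
    linarith [mul_le_mul_of_nonneg_right hε₂ hq.le]
  have hQ8 : (8:ℝ) ≤ Fintype.card F := by nlinarith
  have hRc := card_Red hL hr (by linarith)
  have hrr : r₀ ≤ r := by
    obtain ⟨l, hl, hl'⟩ : ∃ l ∈ L, l ∉ Red L r := by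
      by_contra h
      push Not at h
      have : (L.card : ℝ) ≤ (Red L r).card := by exact_mod_cast card_le_card h
      linarith
    have a0 := ess_bound hr0 hmu hnd (l := l) (not_lt.1 fun h => hl' (mem_Red.2 ⟨hl, h⟩))
    by_contra hlt
    push Not at hlt
    have : (2 * r + 2) * (2 * r + 1) < (2 * r₀ + 2) * (2 * r₀ + 1) := by gcongr
    linarith
  obtain ⟨L', g1, g2, g3⟩ := small_code L ε₂ r hr hε₂0 hε₂ (by linarith) hrQ hL34 hL hnd
    (lt_of_le_of_lt (by gcongr) hs2)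
  have hC : ∀ l ∈ Cont2 (ε₂ ^ 2 * r / 400) L', l ∈ L ∨ l ∈ Wk := by
    intro l hl
    refine (g3 l hl).imp_right fun h => ?_
    by_contra hw
    have a1 := H.dens l hw
    have a2 : sp (S J) l ≤ cov univ L l := card_le_card fun x hx => by
      simp only [mem_filter, mem_univ, true_and] at hx ⊢; exact ⟨hx.1, hc x hx.2⟩
    have a3 : (sp (S J) l : ℝ) ≤ cov univ L l := by exact_mod_cast a2
    have a4 : (cov univ L l : ℝ) + kk L l = Fintype.card F := by exact_mod_cast cov_add_kk _ _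
    linarith [mul_lt_mul_of_pos_right hξδ hq]
  have huq : (Unc L).card ∈ range (Fintype.card F ^ 2 + 1) := by
    rw [mem_range, Nat.lt_succ_iff, sq, ← Fintype.card_prod]; exact card_le_univ _
  have h5 := H.p5 _ huq (hr ▸ hrr) L' (hr ▸ g1) (by
    rw [← hr]
    have : (Cont2 (ε₂ ^ 2 * r / 400) L').card ≤ L.card + Wk.card :=
      le_trans (card_le_card fun l hl => mem_union.2 (hC l hl)) (card_union_le _ _)
    have h' : ((Cont2 (ε₂ ^ 2 * r / 400) L').card : ℝ) ≤ L.card + Wk.card := by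
      exact_mod_cast this
    linarith [H.wk])
  have h6 := H.p6 _ huq (hr ▸ hrr) L' (hr ▸ g1)
  rw [← hr] at h5 h6
  have h8 := unc_cont_le hL hr hc g2
  have hY := unc_cont_ge hC
  have hur : ((Unc L).card : ℝ) = r * Fintype.card F := by rw [hr]; field_simp
  have h9 := halving (fun j => (Unc (Cont2 (ε₂ ^ 2 * r / 400) L') ∩ S j).card) J (Unc L).card
    (Nat.cast_nonneg _) (by
      simp only [H.s0, inter_univ]
      linarith [mul_lt_mul_of_pos_right h5 hq]) h6 J le_rfl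
  generalize ((Unc (Cont2 (ε₂ ^ 2 * r / 400) L') ∩ S J).card : ℝ) = y at h8 h9
  rw [hur] at h9
  have a1 : ((Red L r).card : ℝ) * (2 * r + 2 + (Red L r).card) ≤ (4 * r) * (7 * r) :=
    mul_le_mul hRc (by linarith) (add_nonneg (by linarith) (Nat.cast_nonneg _)) (by linarith)
  have hr1 : 0 < r := by linarith
  have h10 : y ≤ 28 * ξ * (r * Fintype.card F) := by
    linarith [mul_le_mul_of_nonneg_left hrξ hr0]
  have h11 : (2:ℝ) ^ J * y ≤ 2 ^ J * (28 * ξ * (r * Fintype.card F)) := by gcongr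
  have h12 : 0 < r * Fintype.card F := by positivity
  linarith [mul_le_mul_of_nonneg_right hξJ h12.le]

theorem StabHyp.stab (H : StabHyp Wk S J δ ρ ε τ η ε₂ C r₀) (M : ℕ) (K ξ : ℝ)
    (hη : 0 ≤ η) (hη1 : η ≤ 1 / 16) (hητ : 4 * η ≤ τ) (hε : 0 < ε) (hK : 2 / ε + 2 ≤ K)
    (hKJ : 8 * K ^ J * τ ≤ ε) (hδ1 : δ ≤ 1) (hρ : 0 < ρ)
    (hρδ : 16 * ρ ≤ δ) (hρM : ρ * M ≤ 1) (hM : 1024 ≤ δ * M) (hε' : 64 * M * ε ≤ δ)
    (hs : (2 * Fintype.card F + 1) * (2 * Real.exp (-(ρ ^ 3 * Fintype.card F / 16))) < 1)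
    (hξ : K ^ J * τ + 4 * η ≤ ξ) (hξδ : 2 * ξ < δ) (hξε : 3200 * ξ < ε₂) (hε₂ : ε₂ ≤ 1)
    (hξJ : 40 * 2 ^ J * ξ ≤ 1) (hr₀ : 2 ≤ r₀)
    (hr₀q : (2 * r₀ + 2) * (2 * r₀ + 1) + 2 * r₀ ≤ 3 * Fintype.card F / 4)
    (hs2 : (2 * Fintype.card (Ln F) + 1) * (2 * Real.exp (-(ε₂ ^ 3 * r₀ / 10240000))) < 1)
    {L : Finset (Ln F)} (hL : L.card ≤ Fintype.card F) (hW : ∀ l ∈ L, l ∉ Wk)
    (hc : ∀ x ∈ S J, mu L x ≠ 0) :
    (∃ p, ((pen p \ L).card : ℝ) ≤ 2 * ξ * Fintype.card F) ∨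
      (∃ d, ((par_cl d \ L).card : ℝ) ≤ 2 * ξ * Fintype.card F) := by
  obtain ⟨f1, f2⟩ := H.first hη hL hc
  have f3 := H.second M K hη hη1 hητ hε hK hKJ hδ1 hρ hρδ hρM hM hε' hs hL hW hc J le_rfl
  rw [Nat.sub_self, H.s0] at f3
  have f4 := Xs_univ L
  have hq := card_pos' (F := F)
  obtain ⟨r, hr⟩ : ∃ r : ℝ, r = (Unc L).card / Fintype.card F := ⟨_, rfl⟩
  have hrξ : r ≤ ξ * Fintype.card F := by
    rw [hr, div_le_iff₀ hq]
    have a1 := mul_le_mul_of_nonneg_right f2 hq.le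
    have a2 := mul_le_mul_of_nonneg_right hξ (sq_nonneg (Fintype.card F : ℝ))
    linarith
  have hr0 : 0 ≤ r := by rw [hr]; positivity
  by_contra hcon
  push Not at hcon
  obtain ⟨c1, c2⟩ := hcon
  refine H.third ξ hξδ hξε hε₂ hξJ hr₀ hr₀q hs2 hL hc
    (by linarith [mul_le_mul_of_nonneg_right hη1 hq.le]) hr hrξ (fun p => ?_) (fun d => ?_)
  · by_cases hp : 1 ≤ mu L p
    · obtain ⟨a1, a2⟩ := pencil_aff L hL p hp
      have a3 : ((pen p \ L).card : ℝ) + mu L p = Fintype.card F + 1 := by exact_mod_cast a2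
      have a4 : (1:ℝ) ≤ mu L p := by exact_mod_cast hp
      rcases dich hq (Nat.cast_nonneg _) (by linarith) a1 with h | h <;> rw [← hr] at h
      · linarith [c1 p]
      · linarith
    · have : mu L p = 0 := by omega
      rw [this]; push_cast; linarith
  · obtain ⟨a1, a2⟩ := pencil_inf L hL d
    have a3 : ((par_cl d \ L).card : ℝ) + nd L d = Fintype.card F := by exact_mod_cast a2
    rcases dich hq (Nat.cast_nonneg _) (by linarith [(Nat.cast_nonneg (nd L d) : (0:ℝ) ≤ _)]) a1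
      with h | h <;> rw [← hr] at h
    · linarith [c2 d]
    · linarith

end Crest.Agent.H7.Ry
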