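import Crest.Agent.H7.RyG

set_option autoImplicit false
set_option linter.unusedSectionVars false

open Finset

namespace Crest.Agent.H7.Ry

abbrev Slot := Bool × Option (Fin 13)
abbrev Zt (F : Type*) := (F × F) × F

variable {F : Type*} [Field F] [Fintype F] [DecidableEq F]

structure DrHyp (N : ℕ) (dr : ℕ → Slot → Option F) : Prop where
  inj_t : ∀ k s t, s < N → t < N → dr s k = dr t k → s = t
  eq_iff : ∀ t k k', dr t k = dr t k' → k = k' ∨ (k.2 = none ∧ k'.2 = none)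
  none_eq : ∀ t ε, dr t (ε, none) = dr t (false, none)
  surj : ∀ d, ∃ t < N, dr t (false, none) = d

variable (dr : ℕ → Slot → Option F)

def yy (t : ℕ) (z : Zt F) (τ : F) : F × F := z.1 + τ • vv (dr t (false, none))
def bs (t : ℕ) (z : Zt F) (ε : Bool) : F × F := yy dr t z (if ε then z.2 else 0)
def row (t : ℕ) (z : Zt F) (k : Slot) : Ln F := (dr t k, ph (dr t k) (bs dr t z k.1))
def tg (t : ℕ) (z : Zt F) (ε : Bool) (j : Fin 13) (τ : F) : Ln F :=
  (dr t (ε, some j), ph (dr t (ε, some j)) (yy dr t z τ))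
noncomputable def meet (l l' : Ln F) : F × F :=
  if h : l.1 ≠ l'.1 then (exists_meet h).choose else 0
noncomputable def kap (t : ℕ) (z : Zt F) (k : Slot) (j : Fin 13) (τ : F) : F × F :=
  meet (row dr t z k) (tg dr t z k.1 j τ)
def Conf (t : ℕ) (z : Zt F) (s : ℕ) (z' : Zt F) : Prop :=
  ∃ ε ε' k, ph (dr s k) (bs dr s z' ε) = ph (dr s k) (bs dr t z ε') ∨
    ph (dr t k) (bs dr s z' ε) = ph (dr t k) (bs dr t z ε')

variable {dr}

lemma Conf.symm {t s : ℕ} {z z' : Zt F} (h : Conf dr t z s z') : Conf dr s z' t z := by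
  obtain ⟨ε, ε', k, h⟩ := h
  exact ⟨ε', ε, k, h.symm.imp Eq.symm Eq.symm⟩

lemma meet_spec {l l' : Ln F} (h : l.1 ≠ l'.1) : On (meet l l') l ∧ On (meet l l') l' := by
  unfold meet; rw [dif_pos h]; exact (exists_meet h).choose_spec

lemma bs_on_row (t : ℕ) (z : Zt F) (k : Slot) : On (bs dr t z k.1) (row dr t z k) := rfl
lemma yy_on_tg (t : ℕ) (z : Zt F) (ε : Bool) (j : Fin 13) (τ : F) :
    On (yy dr t z τ) (tg dr t z ε j τ) := rfl

variable {N : ℕ}

lemma DrHyp.ne (D : DrHyp N dr) (t : ℕ) {k : Slot} {j : Fin 13} (h : k.2 ≠ some j) (ε : Bool) :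
    dr t k ≠ dr t (ε, some j) := fun e => by
  rcases D.eq_iff t _ _ e with h1 | h1
  · exact h (by rw [h1])
  · simp at h1

lemma DrHyp.ne' (D : DrHyp N dr) (t : ℕ) {k : Slot} {j : Fin 13} {ε : Bool} (h : k.1 ≠ ε) :
    dr t k ≠ dr t (ε, some j) := fun e => by
  rcases D.eq_iff t _ _ e with h1 | h1
  · exact h (by rw [h1])
  · simp at h1

lemma DrHyp.kap_row (D : DrHyp N dr) (t : ℕ) (z : Zt F) {k : Slot} {j : Fin 13}
    (h : k.2 ≠ some j) (τ : F) : On (kap dr t z k j τ) (row dr t z k) :=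
  (meet_spec (D.ne t h k.1)).1

lemma DrHyp.kap_tg (D : DrHyp N dr) (t : ℕ) (z : Zt F) {k : Slot} {j : Fin 13}
    (h : k.2 ≠ some j) (τ : F) : On (kap dr t z k j τ) (tg dr t z k.1 j τ) :=
  (meet_spec (D.ne t h k.1)).2

lemma DrHyp.yy_row (D : DrHyp N dr) (t : ℕ) (z : Zt F) (ε : Bool) (τ : F) :
    On (yy dr t z τ) (row dr t z (ε, none)) := by
  simp only [On, row, bs, yy, D.none_eq t ε, ph_add_smul, ph_vv_self, mul_zero]

lemma DrHyp.row_none (D : DrHyp N dr) (t : ℕ) (z : Zt F) (ε ε' : Bool) :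
    row dr t z (ε, none) = row dr t z (ε', none) :=
  (D.yy_row t z ε 0).dir_eq (D.yy_row t z ε' 0) ((D.none_eq t ε).trans (D.none_eq t ε').symm)

lemma DrHyp.kap_none (D : DrHyp N dr) (t : ℕ) (z : Zt F) (ε : Bool) (j : Fin 13) (τ : F) :
    kap dr t z (ε, none) j τ = yy dr t z τ := by
  have h : ((ε, none) : Slot).2 ≠ some j := by simp
  refine on_unique (l := row dr t z (ε, none)) (l' := tg dr t z ε j τ)
    (fun e => D.ne t h ε (congrArg Prod.fst e)) (D.kap_row t z h τ) (D.kap_tg t z h τ)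
    (D.yy_row t z ε τ) (yy_on_tg _ _ _ _ _)

lemma DrHyp.not_bs_tg (D : DrHyp N dr) (t : ℕ) (z : Zt F) (ε ε' : Bool) (j : Fin 13) {τ : F}
    (h : yy dr t z τ ≠ bs dr t z ε') : ¬ On (bs dr t z ε') (tg dr t z ε j τ) := fun h' =>
  D.ne t (k := (ε', none)) (by simp) ε (congrArg Prod.fst
    (line_eq h (D.yy_row t z ε' τ) (yy_on_tg t z ε j τ) (bs_on_row t z (ε', none)) h'))

lemma DrHyp.yy_inj (t : ℕ) (z : Zt F) : Function.Injective (yy dr t z) := by
  intro τ τ' h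
  simp only [yy, add_right_inj] at h
  cases hd : dr t (false, none) <;> simp [hd, vv] at h <;> tauto

lemma DrHyp.kap_inj (D : DrHyp N dr) (t : ℕ) (z : Zt F) {k : Slot} {j : Fin 13}
    (h : k.2 ≠ some j) : Function.Injective (kap dr t z k j) := by
  intro τ τ' e
  have h1 := D.kap_tg t z h τ
  have h2 := D.kap_tg t z h τ'
  rw [← e] at h2
  have h3 := congrArg Prod.snd (h1.dir_eq h2 rfl)
  simp only [tg, yy, ph_add_smul, add_right_inj] at h3
  exact mul_right_cancel₀ (ph_vv_ne (D.ne t (k := (false, none)) (by simp) k.1).symm) h3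

lemma DrHyp.card_kap (D : DrHyp N dr) (t : ℕ) (z : Zt F) {k : Slot} {j : Fin 13}
    (h : k.2 ≠ some j) {μ : Ln F} (hμ : μ ≠ row dr t z k) :
    (univ.filter (fun τ => On (kap dr t z k j τ) μ)).card ≤ 1 := by
  rw [card_le_one]
  intro τ h1 τ' h2
  simp only [mem_filter, mem_univ, true_and] at h1 h2
  exact D.kap_inj t z h (on_unique hμ h1 (D.kap_row t z h τ) h2 (D.kap_row t z h τ'))

variable (dr)

/-- weak lines -/
def WkL (N : ℕ) (z : ℕ → Zt F) : Finset (Ln F) :=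
  (range N ×ˢ (univ : Finset Slot)).image (fun p => row dr p.1 (z p.1) p.2)

/-- surviving points -/
def Sset (n : ℕ) (z : ℕ → Zt F) : Finset (F × F) :=
  univ.filter (fun x => ∀ s ∈ range n, ∀ k, ¬ On x (row dr s (z s) k))

def pencil : (F × F) ⊕ Option F → Finset (Ln F) := Sum.elim pen par_cl

variable {dr}

lemma mem_WkL {z : ℕ → Zt F} {l : Ln F} : l ∈ WkL dr N z ↔ ∃ t < N, ∃ k, row dr t (z t) k = l := by
  simp only [WkL, mem_image, mem_product, mem_range, mem_univ, and_true]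
  exact ⟨fun ⟨p, h1, h2⟩ => ⟨p.1, h1, p.2, h2⟩, fun ⟨t, h1, k, h2⟩ => ⟨(t, k), h1, h2⟩⟩

lemma mem_Sset {n : ℕ} {z : ℕ → Zt F} {x : F × F} :
    x ∈ Sset dr n z ↔ ∀ s < n, ∀ k, ¬ On x (row dr s (z s) k) := by
  simp only [Sset, mem_filter, mem_univ, true_and, mem_range]

variable (dr)

structure Fin2 (N : ℕ) (z : ℕ → Zt F) (τ : ℕ → Fin 13 → F) : Prop where
  K0 : ∀ t < N, ∀ j ε, yy dr t (z t) (τ t j) ≠ bs dr t (z t) ε
  K1 : ∀ t < N, ∀ j (k : Slot), k.2 ≠ some j → ∀ s < N, s ≠ t → ∀ k',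
    ¬ On (kap dr t (z t) k j (τ t j)) (row dr s (z s) k')
  K1' : ∀ t < N, ∀ j ε j', j' ≠ j → ∀ k',
    ¬ On (kap dr t (z t) (ε, some j') j (τ t j)) (row dr t (z t) (!ε, k'))
  K2 : ∀ t < N, ∀ (k : Slot) j j', j ≠ j' → k.2 ≠ some j → k.2 ≠ some j' →
    kap dr t (z t) k j (τ t j) ≠ kap dr t (z t) k j' (τ t j')
  gl : ∀ t < N, ∀ ε μ, ¬ On (bs dr t (z t) ε) μ → ∃ j, ∀ k : Option (Fin 13), k ≠ some j →
    ¬ On (kap dr t (z t) (ε, k) j (τ t j)) μ
  gp : ∀ P μ, μ ∉ pencil P → ((range N).filter (fun t => ∃ k j, row dr t (z t) k ∈ pencil P ∧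
    k.2 ≠ some j ∧ On (kap dr t (z t) k j (τ t j)) μ)).card ≤ 5

def ord (x : F × F) : Option F → Option F := fun d => some (ph d x)

noncomputable def spec (z : ℕ → Zt F) (τ : ℕ → Fin 13 → F) (t : ℕ) (ε : Bool) :
    Option F → Option F := fun d =>
  if d = dr t (false, none) then none else
    some (ph d (if h : ∃ j, dr t (ε, some j) = d then yy dr t (z t) (τ t h.choose)
      else bs dr t (z t) ε))

variable {dr} {z : ℕ → Zt F} {τ : ℕ → Fin 13 → F}

lemma spec_d0 (t : ℕ) (ε : Bool) : spec dr z τ t ε (dr t (false, none)) = none := by simp [spec]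

lemma DrHyp.spec_jump (D : DrHyp N dr) (t : ℕ) (ε : Bool) (j : Fin 13) :
    spec dr z τ t ε (dr t (ε, some j)) = some (tg dr t (z t) ε j (τ t j)).2 := by
  unfold spec
  have h : ∃ j', dr t (ε, some j') = dr t (ε, some j) := ⟨j, rfl⟩
  rw [if_neg (D.ne t (k := (false, none)) (by simp) ε).symm, dif_pos h]
  have : h.choose = j := by
    rcases D.eq_iff t _ _ h.choose_spec with h1 | h1
    · simpa using h1
    · simp at h1
  rw [this]; rfl

lemma DrHyp.spec_other (D : DrHyp N dr) (t : ℕ) (ε : Bool) {d : Option F}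
    (h : ∀ k, dr t (ε, k) ≠ d) : spec dr z τ t ε d = some (ph d (bs dr t (z t) ε)) := by
  unfold spec
  rw [if_neg (fun e => h none ((D.none_eq t ε).trans e.symm)),
    dif_neg (fun ⟨j, e⟩ => h (some j) e)]

lemma DrHyp.spec_cases (D : DrHyp N dr) (t : ℕ) (ε : Bool) (d : Option F) (c : F)
    (h : spec dr z τ t ε d = some c) : (∃ j, (d, c) = tg dr t (z t) ε j (τ t j)) ∨
      ((∀ k, dr t (ε, k) ≠ d) ∧ On (bs dr t (z t) ε) (d, c)) := by
  by_cases h1 : ∀ k, dr t (ε, k) ≠ d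
  · right; rw [D.spec_other t ε h1] at h; exact ⟨h1, Option.some.inj h⟩
  · push Not at h1
    obtain ⟨k, rfl⟩ := h1
    cases k with
    | none => rw [D.none_eq, spec_d0] at h; cases h
    | some j =>
      rw [D.spec_jump] at h
      exact Or.inl ⟨j, Prod.ext rfl (Option.some.inj h).symm⟩

lemma DrHyp.meet_other (D : DrHyp N dr) (t : ℕ) (ε : Bool) {x : F × F}
    (h : ∀ k, ¬ On x (row dr t (z t) (ε, k))) : ∃ d, ord x d = spec dr z τ t ε d := by
  obtain ⟨d, hd⟩ := exists_dir x (bs dr t (z t) ε)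
  refine ⟨d, ?_⟩
  rw [D.spec_other t ε (fun k e => h k (by subst e; exact hd)), ord, hd]

lemma DrHyp.meet_tg (D : DrHyp N dr) (t : ℕ) (ε : Bool) (j : Fin 13) {x : F × F}
    (h : On x (tg dr t (z t) ε j (τ t j))) : ∃ d, ord x d = spec dr z τ t ε d :=
  ⟨dr t (ε, some j), by rw [D.spec_jump, ord]; exact congrArg some h⟩

variable (dr)

open Classical in
/-- ordinary points -/
noncomputable def Ords (N : ℕ) (z : ℕ → Zt F) (τ : ℕ → Fin 13 → F) : Finset (F × F) :=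
  univ.filter (fun x => x ∈ Sset dr N z ∨
    ∃ t < N, ∃ (k : Slot) (j : Fin 13), k.2 ≠ some j ∧ x = kap dr t (z t) k j (τ t j))

open Classical in
noncomputable def Edges (N : ℕ) (z : ℕ → Zt F) (τ : ℕ → Fin 13 → F) :
    Finset (Option F → Option F) :=
  (Ords dr N z τ).image ord ∪
    (range N ×ˢ (univ : Finset Bool)).image (fun p => spec dr z τ p.1 p.2)

variable {dr}

lemma mem_Ords {x : F × F} : x ∈ Ords dr N z τ ↔ x ∈ Sset dr N z ∨
    ∃ t < N, ∃ (k : Slot) (j : Fin 13), k.2 ≠ some j ∧ x = kap dr t (z t) k j (τ t j) := by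
  simp only [Ords, mem_filter, mem_univ, true_and]

lemma mem_Edges {e : Option F → Option F} : e ∈ Edges dr N z τ ↔
    (∃ x ∈ Ords dr N z τ, ord x = e) ∨ ∃ t < N, ∃ ε, spec dr z τ t ε = e := by
  simp only [Edges, mem_union, mem_image, mem_product, mem_range, mem_univ, and_true]
  refine or_congr Iff.rfl ⟨fun ⟨p, h1, h2⟩ => ⟨p.1, h1, p.2, h2⟩, fun ⟨t, h1, k, h2⟩ => ⟨(t, k), h1, h2⟩⟩

lemma ord_spec (D : DrHyp N dr) (K : Fin2 dr N z τ) {x : F × F} (hx : x ∈ Ords dr N z τ)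
    {t : ℕ} (ht : t < N) (ε : Bool) : ∃ d, ord x d = spec dr z τ t ε d := by
  rcases mem_Ords.1 hx with h | ⟨s, hs, ⟨ε', k⟩, j, hk, rfl⟩
  · exact D.meet_other t ε fun k => mem_Sset.1 h t ht _
  by_cases hst : t = s
  · subst hst
    by_cases he : ε' = ε
    · subst he; exact D.meet_tg t ε' j (D.kap_tg t _ hk _)
    · cases k with
      | none => rw [D.kap_none]; exact D.meet_tg t ε j (yy_on_tg _ _ _ _ _)
      | some j' =>
        have : ε = !ε' := by cases ε <;> cases ε' <;> simp_all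
        subst this
        exact D.meet_other t _ fun k' => K.K1' t ht j ε' j' (fun e => hk (by simp [e])) k'
  · exact D.meet_other t ε fun k' => K.K1 s hs j _ hk t ht hst _

lemma edges_inter (D : DrHyp N dr) (K : Fin2 dr N z τ)
    (hconf : ∀ s < N, ∀ t < N, s ≠ t → ¬ Conf dr t (z t) s (z s)) :
    ∀ e ∈ Edges dr N z τ, ∀ f ∈ Edges dr N z τ, ∃ d, e d = f d := by
  intro e he f hf
  rcases mem_Edges.1 he with ⟨x, hx, rfl⟩ | ⟨t, ht, ε, rfl⟩ <;>
    rcases mem_Edges.1 hf with ⟨y, hy, rfl⟩ | ⟨s, hs, ε', rfl⟩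
  · obtain ⟨d, hd⟩ := exists_dir x y
    exact ⟨d, congrArg some hd⟩
  · exact ord_spec D K hx hs ε'
  · obtain ⟨d, hd⟩ := ord_spec D K hy ht ε
    exact ⟨d, hd.symm⟩
  · by_cases hst : s = t
    · subst hst; exact ⟨_, (spec_d0 s ε).trans (spec_d0 s ε').symm⟩
    · obtain ⟨d, hd⟩ := exists_dir (bs dr s (z s) ε') (bs dr t (z t) ε)
      have h := hconf s hs t ht hst
      refine ⟨d, ?_⟩
      rw [D.spec_other t ε (fun k e => h ⟨ε', ε, (ε, k), Or.inr (by rw [e]; exact hd)⟩),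
        D.spec_other s ε' (fun k e => h ⟨ε', ε, (ε', k), Or.inl (by rw [e]; exact hd)⟩), hd]

lemma edges_used (D : DrHyp N dr) (hdens : ∀ l ∉ WkL dr N z, 0 < sp (Sset dr N z) l)
    (d o : Option F) : ∃ e ∈ Edges dr N z τ, e d = o := by
  cases o with
  | none =>
    obtain ⟨t, ht, rfl⟩ := D.surj d
    exact ⟨_, mem_Edges.2 (Or.inr ⟨t, ht, false, rfl⟩), spec_d0 t false⟩
  | some c =>
    by_cases h : (d, c) ∈ WkL dr N z
    · obtain ⟨t, ht, k, hk⟩ := mem_WkL.1 h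
      obtain ⟨j, hj⟩ : ∃ j : Fin 13, k.2 ≠ some j := by
        by_cases h0 : k.2 = some 0
        · exact ⟨1, by rw [h0]; simp⟩
        · exact ⟨0, h0⟩
      refine ⟨ord (kap dr t (z t) k j (τ t j)), mem_Edges.2 (Or.inl
        ⟨_, mem_Ords.2 (Or.inr ⟨t, ht, k, j, hj, rfl⟩), rfl⟩), ?_⟩
      have := D.kap_row t (z t) hj (τ t j)
      rw [hk] at this
      exact congrArg some this
    · obtain ⟨x, hx⟩ := card_pos.1 (hdens _ h)
      simp only [mem_filter, mem_pts] at hx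
      exact ⟨ord x, mem_Edges.2 (Or.inl ⟨x, mem_Ords.2 (Or.inl hx.2), rfl⟩), congrArg some hx.1⟩

end Crest.Agent.H7.Ry
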