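import Crest.Agent.H7.RyH

set_option autoImplicit false
set_option linter.unusedSectionVars false

open Finset

namespace Crest.Agent.H7.Ry

variable {F : Type*} [Field F] [Fintype F] [DecidableEq F]
variable {dr : ℕ → Slot → Option F} {N : ℕ} {z : ℕ → Zt F} {τ : ℕ → Fin 13 → F}
variable {C : Finset (Option F × Option F)}

def vx (l : Ln F) : Option F × Option F := (l.1, some l.2)

lemma vx_inj : Function.Injective (vx : Ln F → _) := fun l l' h => by
  simp only [vx, Prod.mk.injEq, Option.some.injEq] at h; exact Prod.ext h.1 h.2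

def LC (C : Finset (Option F × Option F)) : Finset (Ln F) := univ.filter (fun l => vx l ∈ C)

lemma mem_LC {l : Ln F} : l ∈ LC C ↔ vx l ∈ C := by simp [LC]

lemma card_LC : (LC C).card ≤ C.card :=
  card_le_card_of_injOn vx (fun _ hl => mem_LC.1 hl) vx_inj.injOn

lemma ord_cov (hcov : ∀ e ∈ Edges dr N z τ, ∃ d, (d, e d) ∈ C) {x : F × F}
    (hx : x ∈ Ords dr N z τ) : ∃ l ∈ LC C, On x l := by
  obtain ⟨d, hd⟩ := hcov _ (mem_Edges.2 (Or.inl ⟨x, hx, rfl⟩))
  exact ⟨(d, ph d x), mem_LC.2 hd, rfl⟩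

lemma kap_cov (hcov : ∀ e ∈ Edges dr N z τ, ∃ d, (d, e d) ∈ C) {t : ℕ} (ht : t < N) {k : Slot}
    {j : Fin 13} (hk : k.2 ≠ some j) : ∃ l ∈ LC C, On (kap dr t (z t) k j (τ t j)) l :=
  ord_cov hcov (mem_Ords.2 (Or.inr ⟨t, ht, k, j, hk, rfl⟩))

lemma pencil_P0 (P : (F × F) ⊕ Option F) : ∃ P₀ : Finset (F × F), P₀.card ≤ 1 ∧
    ∀ l ∈ pencil P, ∀ l' ∈ pencil P, l ≠ l' → ∀ x, On x l → On x l' → x ∈ P₀ := by
  cases P with
  | inl p =>
    exact ⟨{p}, by simp, fun l hl l' hl' hne x h1 h2 =>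
      mem_singleton.2 (on_unique hne h1 h2 (mem_pen.1 hl) (mem_pen.1 hl'))⟩
  | inr d =>
    exact ⟨∅, by simp, fun l hl l' hl' hne x h1 h2 =>
      absurd (h1.dir_eq h2 ((mem_par_cl.1 hl).trans (mem_par_cl.1 hl').symm)) hne⟩

lemma card_pencil (P : (F × F) ⊕ Option F) :
    Fintype.card F ≤ (pencil P).card ∧ (pencil P).card ≤ Fintype.card F + 1 := by
  cases P with
  | inl p => simp [pencil, card_pen]
  | inr d => simp [pencil, card_par_cl]

lemma extra_le (hC : C.card ≤ Fintype.card F) (P : (F × F) ⊕ Option F) :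
    (LC C \ pencil P).card ≤ (pencil P \ LC C).card := by
  have h1 := card_sdiff_add_card_inter (LC C) (pencil P)
  have h2 := card_sdiff_add_card_inter (pencil P) (LC C)
  rw [inter_comm] at h2
  have h3 := card_LC (C := C)
  have h4 := (card_pencil P).1
  omega

lemma miss_weak (hcov : ∀ e ∈ Edges dr N z τ, ∃ d, (d, e d) ∈ C) (hC : C.card ≤ Fintype.card F)
    (P : (F × F) ⊕ Option F)
    (hdens : ∀ l ∉ WkL dr N z, (pencil P \ LC C).card + 1 < sp (Sset dr N z) l) :
    ∀ l ∈ pencil P \ LC C, l ∈ WkL dr N z := by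
  intro l hl
  by_contra hw
  obtain ⟨P₀, h0, h1⟩ := pencil_P0 P
  obtain ⟨hl1, hl2⟩ := mem_sdiff.1 hl
  have a1 := kk_ge (LC C) (LC C \ pencil P) l P₀ (by simp [hl2]) fun x hx hxp l' hl' hx' => by
    refine mem_sdiff.2 ⟨hl', fun hp => hxp (h1 l hl1 l' hp (fun e => hl2 (e ▸ hl')) x hx hx')⟩
  have a2 := cov_add_kk (LC C) l
  have a3 : sp (Sset dr N z) l ≤ cov univ (LC C) l := card_le_card fun x hx => by
    simp only [mem_filter, mem_univ, true_and] at hx ⊢
    refine ⟨hx.1, fun h0 => ?_⟩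
    obtain ⟨m, hm, hon⟩ := ord_cov hcov (mem_Ords.2 (Or.inl hx.2))
    exact mu_eq_zero.1 h0 m hm hon
  have a4 := extra_le hC P
  have a5 := hdens l hw
  omega

lemma gp_case (D : DrHyp N dr) (K : Fin2 dr N z τ)
    (hcov : ∀ e ∈ Edges dr N z τ, ∃ d, (d, e d) ∈ C) (hC : C.card ≤ Fintype.card F)
    (P : (F × F) ⊕ Option F) (hw : ∀ l ∈ pencil P \ LC C, l ∈ WkL dr N z)
    (h2 : ∀ t < N, ∀ k k' : Slot, k.1 = k'.1 → row dr t (z t) k ∈ pencil P →
      row dr t (z t) k' ∈ pencil P → row dr t (z t) k = row dr t (z t) k') :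
    pencil P \ LC C = ∅ := by
  classical
  obtain ⟨P₀, h0, h1⟩ := pencil_P0 P
  let H := (range N).filter (fun t => ∃ k, row dr t (z t) k ∈ pencil P \ LC C)
  have hk : ∀ t, ∃ k, t ∈ H → row dr t (z t) k ∈ pencil P \ LC C := fun t => by
    by_cases h : t ∈ H
    · obtain ⟨k, hk⟩ := (mem_filter.1 h).2; exact ⟨k, fun _ => hk⟩
    · exact ⟨default, fun h' => absurd h' h⟩
  choose kt hkt using hk
  have a1 : (pencil P \ LC C).card ≤ H.card * 2 := by
    have : pencil P \ LC C ⊆ H.biUnion (fun t => (univ : Finset Bool).biUnion (fun ε =>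
        (pencil P).filter (fun l => ∃ k : Slot, k.1 = ε ∧ row dr t (z t) k = l))) := by
      intro l hl
      obtain ⟨t, ht, k, rfl⟩ := mem_WkL.1 (hw l hl)
      simp only [mem_biUnion, mem_univ, true_and, mem_filter]
      exact ⟨t, mem_filter.2 ⟨mem_range.2 ht, k, hl⟩, k.1, (mem_sdiff.1 hl).1, k, rfl, rfl⟩
    refine (card_le_card this).trans (card_biUnion_le_card_mul _ _ _ fun t ht => ?_)
    refine (card_biUnion_le_card_mul _ _ 1 fun ε _ => ?_).trans (by simp)
    rw [card_le_one]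
    intro l hl l' hl'
    obtain ⟨hl, k, e1, rfl⟩ := mem_filter.1 hl
    obtain ⟨hl', k', e2, rfl⟩ := mem_filter.1 hl'
    exact h2 t (mem_range.1 (mem_filter.1 ht).1) k k' (e1.trans e2.symm) hl hl'
  let R : ℕ → Ln F → Prop := fun t μ => ∃ j, (kt t).2 ≠ some j ∧
    On (kap dr t (z t) (kt t) j (τ t j)) μ
  have a2 : ∀ t ∈ H, 11 ≤ ((LC C \ pencil P).filter (R t)).card := by
    intro t ht
    have htN := mem_range.1 (mem_filter.1 ht).1
    obtain ⟨r1, r2⟩ := mem_sdiff.1 (hkt t ht)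
    let J1 : Finset (Fin 13) := univ.filter (fun j => (kt t).2 = some j)
    let J2 : Finset (Fin 13) := univ.filter (fun j => (kt t).2 ≠ some j ∧
      kap dr t (z t) (kt t) j (τ t j) ∈ P₀)
    have b1 : J1.card ≤ 1 := card_le_one.2 fun j hj j' hj' => by
      simp only [J1, mem_filter, mem_univ, true_and] at hj hj'
      exact Option.some.inj (hj.symm.trans hj')
    have b2 : J2.card ≤ 1 := card_le_one.2 fun j hj j' hj' => by
      simp only [J2, mem_filter, mem_univ, true_and] at hj hj'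
      by_contra hne
      exact K.K2 t htN _ j j' hne hj.1 hj'.1 (card_le_one.1 h0 _ hj.2 _ hj'.2)
    have b3 : (univ : Finset (Fin 13)) ⊆ J1 ∪ J2 ∪ ((LC C \ pencil P).filter (R t)).biUnion
        (fun μ => univ.filter (fun j => (kt t).2 ≠ some j ∧
          On (kap dr t (z t) (kt t) j (τ t j)) μ)) := by
      intro j _
      by_cases c1 : (kt t).2 = some j
      · simp [J1, c1]
      by_cases c2 : kap dr t (z t) (kt t) j (τ t j) ∈ P₀
      · simp [J2, c1, c2]
      obtain ⟨μ, hμ, hon⟩ := kap_cov hcov htN c1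
      refine mem_union_right _ (mem_biUnion.2 ⟨μ, mem_filter.2 ⟨mem_sdiff.2 ⟨hμ, fun hp => c2
        (h1 _ r1 μ hp (fun e => r2 (e ▸ hμ)) _ (D.kap_row t _ c1 _) hon)⟩, j, c1, hon⟩, ?_⟩)
      simp [c1, hon]
    have b4 := card_le_card b3
    have b5 := card_union_le (J1 ∪ J2) (((LC C \ pencil P).filter (R t)).biUnion
        (fun μ => univ.filter (fun j => (kt t).2 ≠ some j ∧
          On (kap dr t (z t) (kt t) j (τ t j)) μ)))
    have b6 := card_union_le J1 J2
    have b7 := card_biUnion_le_card_mul ((LC C \ pencil P).filter (R t))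
        (fun μ => univ.filter (fun j => (kt t).2 ≠ some j ∧
          On (kap dr t (z t) (kt t) j (τ t j)) μ)) 1 fun μ hμ => card_le_one.2 fun j hj j' hj' => by
      simp only [mem_filter, mem_univ, true_and] at hj hj'
      by_contra hne
      refine K.K2 t htN _ j j' hne hj.1 hj'.1 (on_unique (l := μ) (l' := row dr t (z t) (kt t))
        (fun e => (mem_sdiff.1 (mem_filter.1 hμ).1).2 (e ▸ r1)) hj.2 (D.kap_row t _ hj.1 _) hj'.2
        (D.kap_row t _ hj'.1 _))
    simp only [card_univ, Fintype.card_fin] at b4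
    omega
  have a3 : ∀ μ ∈ LC C \ pencil P, (H.filter (fun t => R t μ)).card ≤ 5 := by
    intro μ hμ
    refine le_trans (card_le_card fun t ht => ?_) (K.gp P μ (mem_sdiff.1 hμ).2)
    obtain ⟨ht, j, c1, c2⟩ := mem_filter.1 ht
    exact mem_filter.2 ⟨(mem_filter.1 ht).1, kt t, j, (mem_sdiff.1 (hkt t ht)).1, c1, c2⟩
  have a4 : ∑ t ∈ H, ((LC C \ pencil P).filter (R t)).card =
      ∑ μ ∈ LC C \ pencil P, (H.filter (fun t => R t μ)).card := by
    simp only [card_filter]; rw [sum_comm]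
  have a5 := card_nsmul_le_sum H _ 11 a2
  have a6 := sum_le_card_nsmul _ _ 5 a3
  have a7 := extra_le hC P
  simp only [smul_eq_mul] at a5 a6
  rw [← card_eq_zero]; omega

lemma special_case (D : DrHyp N dr) (K : Fin2 dr N z τ)
    (hσ : ∀ t < N, (z t).2 ≠ 0) (hconf : ∀ s < N, ∀ t < N, s ≠ t → ¬ Conf dr t (z t) s (z s))
    (hcov : ∀ e ∈ Edges dr N z τ, ∃ d, (d, e d) ∈ C) (hC : C.card ≤ Fintype.card F)
    {t : ℕ} (ht : t < N) (ε : Bool)
    (hw : ∀ l ∈ pen (bs dr t (z t) ε) \ LC C, l ∈ WkL dr N z) : False := by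
  classical
  set b := bs dr t (z t) ε with hb
  have hbb : ∀ ε', ε' ≠ ε → bs dr t (z t) ε' ≠ b := by
    intro ε' h e
    have := DrHyp.yy_inj t (z t) e
    have h0 := hσ t ht
    cases ε <;> cases ε' <;> simp at this h
    exacts [h0 this, h0 this.symm]
  let R : Finset (Option (Fin 13)) := univ.filter (fun k => row dr t (z t) (ε, k) ∉ LC C)
  let Jm : Finset (Fin 13) := univ.filter (fun j => tg dr t (z t) ε j (τ t j) ∉ LC C)
  have hR : (pen b \ LC C).card ≤ R.card := by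
    refine le_trans (card_le_card fun l hl => ?_) (card_image_le (s := R)
      (f := fun k => row dr t (z t) (ε, k)))
    obtain ⟨s, hs, ⟨ε', k⟩, rfl⟩ := mem_WkL.1 (hw l hl)
    obtain ⟨h1, h2⟩ := mem_sdiff.1 hl
    rw [mem_pen] at h1
    have hst : s = t := by
      by_contra hne
      exact hconf s hs t ht hne ⟨ε', ε, (ε', k), Or.inl h1.symm⟩
    subst hst
    by_cases he : ε' = ε
    · subst he; exact mem_image.2 ⟨k, by simp [R, h2], rfl⟩
    · have e : row dr s (z s) (ε', k) = row dr s (z s) (ε, none) :=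
        line_eq (hbb ε' he) (bs_on_row s (z s) (ε', k)) (D.yy_row s _ ε _) h1
          (bs_on_row s (z s) (ε, none))
      exact mem_image.2 ⟨none, by simp [R, ← e, h2], e.symm⟩
  let A1 := (pen b ∩ LC C).image vx
  let A2 := ((univ \ Jm).image (fun j => tg dr t (z t) ε j (τ t j))).image vx
  let Rest := C \ (A1 ∪ A2)
  have hn : Rest.card + 14 ≤ R.card + Jm.card := by
    have c1 : A1.card = (pen b ∩ LC C).card := card_image_of_injective _ vx_inj
    have c2 : A2.card = (univ \ Jm).card := by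
      rw [card_image_of_injective _ vx_inj, card_image_of_injective]
      intro j j' e
      rcases D.eq_iff t _ _ (congrArg Prod.fst e) with h | h
      · simpa using h
      · simp at h
    have c3 : Disjoint A1 A2 := by
      rw [disjoint_left]
      intro v h1 h2
      obtain ⟨l, hl, rfl⟩ := mem_image.1 h1
      obtain ⟨l', hl', e⟩ := mem_image.1 h2
      obtain ⟨j, -, rfl⟩ := mem_image.1 hl'
      rw [← vx_inj e] at hl
      exact D.not_bs_tg t _ ε ε j (K.K0 t ht j ε) (mem_pen.1 (mem_inter.1 hl).1)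
    have c4 : A1 ∪ A2 ⊆ C := by
      intro v hv
      rcases mem_union.1 hv with h | h
      · obtain ⟨l, hl, rfl⟩ := mem_image.1 h; exact mem_LC.1 (mem_inter.1 hl).2
      · obtain ⟨l', hl', rfl⟩ := mem_image.1 h
        obtain ⟨j, hj, rfl⟩ := mem_image.1 hl'
        simpa [Jm, mem_LC] using hj
    have c5 := card_sdiff_add_card_eq_card c4
    rw [card_union_of_disjoint c3, c1, c2] at c5
    have c6 := card_sdiff_add_card_inter (pen b) (LC C)
    rw [card_pen] at c6
    have c7 := card_sdiff_add_card_eq_card (subset_univ Jm)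
    simp only [card_univ, Fintype.card_fin] at c7
    simp only [Rest]; omega
  have hmate : 1 ≤ Rest.card := by
    obtain ⟨d, hd⟩ := hcov _ (mem_Edges.2 (Or.inr ⟨t, ht, !ε, rfl⟩))
    refine card_pos.2 ⟨_, mem_sdiff.2 ⟨hd, fun hv => ?_⟩⟩
    have hne : (!ε) ≠ ε := by cases ε <;> simp
    rcases mem_union.1 hv with h | h
    · obtain ⟨l, hl, e⟩ := mem_image.1 h
      have hl' := mem_pen.1 (mem_inter.1 hl).1
      simp only [vx, Prod.mk.injEq] at e
      rcases D.spec_cases t (!ε) d l.2 e.2.symm with ⟨j, h⟩ | ⟨h1, h2⟩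
      · rw [← e.1] at h
        exact D.not_bs_tg t _ (!ε) ε j (K.K0 t ht j ε) (h ▸ hl')
      · rw [← e.1] at h1 h2
        have := line_eq (hbb _ hne) h2 (bs_on_row t (z t) (!ε, none)) hl' (D.yy_row t _ _ _)
        exact h1 none (congrArg Prod.fst this).symm
    · obtain ⟨l', hl', e⟩ := mem_image.1 h
      obtain ⟨j, -, rfl⟩ := mem_image.1 hl'
      simp only [vx, Prod.mk.injEq] at e
      rcases D.spec_cases t (!ε) d _ e.2.symm with ⟨j', h⟩ | ⟨h1, h2⟩
      · rw [← e.1] at h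
        exact D.ne' t (k := (ε, some j)) hne.symm (congrArg Prod.fst h)
      · rw [← e.1] at h2
        exact D.not_bs_tg t _ ε (!ε) j (K.K0 t ht j _) h2
  let Pr : Finset (Option (Fin 13) × Fin 13) := (R ×ˢ Jm).filter (fun p => p.1 ≠ some p.2)
  have hP1 : R.card * Jm.card ≤ Pr.card + Jm.card := by
    rw [← card_product, ← card_filter_add_card_filter_not (s := R ×ˢ Jm) (fun p => p.1 ≠ some p.2)]
    refine Nat.add_le_add_left (card_le_card_of_injOn Prod.snd (fun p hp => ?_) ?_) _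
    · exact (mem_product.1 (mem_filter.1 hp).1).2
    · intro p hp p' hp' e
      simp only [coe_filter, not_not, Set.mem_ofPred_eq] at hp hp'
      exact Prod.ext (by rw [hp.2, hp'.2, e]) e
  have hkb : ∀ (k : Option (Fin 13)) j, k ≠ some j → kap dr t (z t) (ε, k) j (τ t j) ≠ b :=
    fun k j h e => D.not_bs_tg t _ ε ε j (K.K0 t ht j ε) (hb ▸ e ▸ D.kap_tg t (z t) (k := (ε, k)) h _)
  have hP2 : Pr.card ≤ Rest.card * 12 := by
    have : Pr ⊆ Rest.biUnion (fun v => Pr.filter (fun p => ∃ μ, vx μ = v ∧ ¬ On b μ ∧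
        On (kap dr t (z t) (ε, p.1) p.2 (τ t p.2)) μ)) := by
      rintro ⟨k, j⟩ hp
      obtain ⟨hp1, hp2⟩ := mem_filter.1 hp
      obtain ⟨hk, hj⟩ := mem_product.1 hp1
      simp only [R, Jm, mem_filter, mem_univ, true_and] at hk hj hp2
      obtain ⟨μ, hμ, hon⟩ := kap_cov hcov ht (k := (ε, k)) hp2
      have hnb : ¬ On b μ := fun h => hk (line_eq (hkb k j hp2) hon
        (D.kap_row t (z t) (k := (ε, k)) hp2 _) h (bs_on_row t (z t) (ε, k)) ▸ hμ)
      refine mem_biUnion.2 ⟨vx μ, mem_sdiff.2 ⟨mem_LC.1 hμ, fun hv => ?_⟩,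
        mem_filter.2 ⟨hp, μ, rfl, hnb, hon⟩⟩
      rcases mem_union.1 hv with h | h
      · obtain ⟨l, hl, e⟩ := mem_image.1 h
        exact hnb (vx_inj e ▸ mem_pen.1 (mem_inter.1 hl).1)
      · obtain ⟨l', hl', e⟩ := mem_image.1 h
        obtain ⟨j', hj', rfl⟩ := mem_image.1 hl'
        have e' := vx_inj e
        subst e'
        have hjj : j ≠ j' := fun h => hj (h ▸ hμ)
        by_cases hkj : k = some j'
        · subst hkj
          exact hk (hon.dir_eq (D.kap_row t (z t) (k := (ε, some j')) hp2 _) rfl ▸ hμ)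
        · refine K.K2 t ht (ε, k) j j' hjj hp2 hkj (on_unique (l := row dr t (z t) (ε, k))
            (fun e => hk (e ▸ hμ)) (D.kap_row t (z t) (k := (ε, k)) hp2 _) hon
            (D.kap_row t (z t) (k := (ε, k)) hkj _) (D.kap_tg t (z t) (k := (ε, k)) hkj _))
    refine (card_le_card this).trans (card_biUnion_le_card_mul _ _ _ fun v hv => ?_)
    by_cases hex : ∃ μ, vx μ = v ∧ ¬ On b μ
    swap
    · rw [filter_false_of_mem (fun p _ ⟨μ, h1, h2, _⟩ => hex ⟨μ, h1, h2⟩)]; simp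
    obtain ⟨μ, rfl, hnb⟩ := hex
    obtain ⟨j₀, hj₀⟩ := K.gl t ht ε μ hnb
    have hμ : μ ∈ LC C := mem_LC.2 (mem_sdiff.1 hv).1
    refine le_trans (card_le_card_of_injOn (t := univ.erase j₀) Prod.snd (fun p hp => ?_) ?_)
      (by simp)
    · obtain ⟨hp, μ', e, -, hon⟩ := mem_filter.1 hp
      rw [vx_inj e] at hon
      simp only [coe_erase, coe_univ, Set.mem_sdiff, Set.mem_univ, Set.mem_singleton_iff, true_and]
      rintro rfl
      exact hj₀ p.1 (mem_filter.1 hp).2 hon
    · rintro ⟨k, j⟩ hp ⟨k', j'⟩ hp' e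
      simp only at e
      subst e
      obtain ⟨hp, μ', e, -, hon⟩ := mem_filter.1 hp
      obtain ⟨hp', μ'', e', -, hon'⟩ := mem_filter.1 hp'
      rw [vx_inj e] at hon
      rw [vx_inj e'] at hon'
      have p1 := (mem_filter.1 hp).2
      have p2 := (mem_filter.1 hp').2
      have hj := (mem_product.1 (mem_filter.1 hp).1).2
      simp only [Jm, mem_filter, mem_univ, true_and] at hj p1 p2 hon hon'
      have e1 := on_unique (l := μ) (l' := tg dr t (z t) ε j (τ t j)) (fun e => hj (e ▸ hμ)) hon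
        (D.kap_tg t (z t) (k := (ε, k)) p1 _) hon' (D.kap_tg t (z t) (k := (ε, k')) p2 _)
      have e2 := line_eq (hkb k j p1) (D.kap_row t (z t) (k := (ε, k)) p1 _)
        (e1 ▸ D.kap_row t (z t) (k := (ε, k')) p2 _) (bs_on_row t (z t) (ε, k))
        (bs_on_row t (z t) (ε, k'))
      rcases D.eq_iff t _ _ (congrArg Prod.fst e2) with h | h
      · simpa using h
      · simp only at h; rw [h.1, h.2]
  have hR1 : R.card ≤ 14 := (card_le_univ _).trans (by simp)
  have hJ1 : Jm.card ≤ 13 := (card_le_univ _).trans (by simp)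
  obtain ⟨a, ha⟩ := Nat.exists_eq_add_of_le hR1
  obtain ⟨c, hc⟩ := Nat.exists_eq_add_of_le hJ1
  nlinarith [Nat.zero_le (a * c)]

theorem cover_big (D : DrHyp N dr) (K : Fin2 dr N z τ)
    (hσ : ∀ t < N, (z t).2 ≠ 0) (hconf : ∀ s < N, ∀ t < N, s ≠ t → ¬ Conf dr t (z t) s (z s))
    (β : ℝ) (hdens : ∀ l ∉ WkL dr N z, β + 1 < sp (Sset dr N z) l)
    (hstab : ∀ L : Finset (Ln F), L.card ≤ Fintype.card F → (∀ l ∈ L, l ∉ WkL dr N z) →
      (∀ x ∈ Sset dr N z, mu L x ≠ 0) → ∃ P, ((pencil P \ L).card : ℝ) ≤ β)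
    (hcov : ∀ e ∈ Edges dr N z τ, ∃ d, (d, e d) ∈ C) : Fintype.card F + 1 ≤ C.card := by
  by_contra hC
  have hC : C.card ≤ Fintype.card F := by omega
  obtain ⟨P, hP⟩ := hstab (LC C \ WkL dr N z) ((card_le_card sdiff_subset).trans (card_LC.trans hC))
    (fun l hl => (mem_sdiff.1 hl).2) fun x hx h0 => by
      obtain ⟨m, hm, hon⟩ := ord_cov hcov (mem_Ords.2 (Or.inl hx))
      refine mu_eq_zero.1 h0 m (mem_sdiff.2 ⟨hm, fun hw => ?_⟩) hon
      obtain ⟨t, ht, k, rfl⟩ := mem_WkL.1 hw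
      exact mem_Sset.1 hx t ht k hon
  have hw := miss_weak hcov hC P fun l hl => by
    have h1 := hdens l hl
    have h2 : (pencil P \ LC C).card ≤ (pencil P \ (LC C \ WkL dr N z)).card :=
      card_le_card (sdiff_subset_sdiff Subset.rfl sdiff_subset)
    have h3 : ((pencil P \ LC C).card : ℝ) ≤ (pencil P \ (LC C \ WkL dr N z)).card := by
      exact_mod_cast h2
    exact_mod_cast (by linarith : ((pencil P \ LC C).card : ℝ) + 1 < sp (Sset dr N z) l)
  cases P with
  | inl p =>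
    by_cases hp : ∃ t < N, ∃ ε, bs dr t (z t) ε = p
    · obtain ⟨t, ht, ε, rfl⟩ := hp
      exact special_case D K hσ hconf hcov hC ht ε hw
    · push Not at hp
      have := gp_case D K hcov hC _ hw fun t ht k k' e h1 h2 =>
        line_eq (hp t ht k.1) (bs_on_row t (z t) k) (e ▸ bs_on_row t (z t) k') (mem_pen.1 h1)
          (mem_pen.1 h2)
      have h1 := card_le_card (sdiff_eq_empty_iff_subset.1 this)
      have h2 := card_LC (C := C)
      simp only [pencil, Sum.elim_inl, card_pen] at h1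
      omega
  | inr d =>
    have := gp_case D K hcov hC _ hw fun t ht k k' e h1 h2 =>
      (bs_on_row t (z t) k).dir_eq (e ▸ bs_on_row t (z t) k')
        ((mem_par_cl.1 h1).trans (mem_par_cl.1 h2).symm)
    have h1 : par_cl d ⊆ LC C := sdiff_eq_empty_iff_subset.1 this
    obtain ⟨t, ht, rfl⟩ := D.surj d
    obtain ⟨d', hd⟩ := hcov _ (mem_Edges.2 (Or.inr ⟨t, ht, false, rfl⟩))
    have h2 : (par_cl (dr t (false, none))).image vx = C := by
      refine eq_of_subset_of_card_le (fun v hv => ?_) ?_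
      · obtain ⟨l, hl, rfl⟩ := mem_image.1 hv; exact mem_LC.1 (h1 hl)
      · rw [card_image_of_injective _ vx_inj, card_par_cl]; exact hC
    rw [← h2] at hd
    obtain ⟨l, hl, e⟩ := mem_image.1 hd
    simp only [vx, Prod.mk.injEq] at e
    rw [← e.1, mem_par_cl.1 hl, spec_d0] at e
    exact absurd e.2 (by simp)

end Crest.Agent.H7.Ry
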