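import Crest.Agent.H7.RyI

set_option autoImplicit false
set_option linter.unusedSectionVars false

open Finset

namespace Crest.Agent.H7.Ry

lemma prod_avoid {Y κ : Type*} [DecidableEq Y] [Inhabited Y] (N : ℕ) (G : ℕ → Finset Y) (g₀ m : ℝ)
    (hg : 0 < g₀) (hm : 0 ≤ m) (hG : ∀ t < N, g₀ ≤ (G t).card) (Cs : Finset κ) (T : κ → Finset ℕ)
    (n : ℕ) (hT : ∀ c ∈ Cs, T c ⊆ range N ∧ (T c).card = n) (B : κ → ℕ → Finset Y)
    (hB : ∀ c ∈ Cs, ∀ t, ((B c t).card : ℝ) ≤ m) (H : Cs.card * (m / g₀) ^ n < 1) :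
    ∃ τ : ℕ → Y, (∀ t < N, τ t ∈ G t) ∧ ∀ c ∈ Cs, ∃ t ∈ T c, τ t ∉ B c t := by
  classical
  let A := Fintype.piFinset (fun t : Fin N => G t)
  let Bad : κ → Finset (Fin N → Y) := fun c =>
    Fintype.piFinset (fun t : Fin N => if t.1 ∈ T c then G t ∩ B c t else G t)
  have hA : (A.card : ℝ) = ∏ t : Fin N, ((G t).card : ℝ) := by
    simp only [A, Fintype.card_piFinset]; push_cast; rfl
  have hA0 : (0:ℝ) < A.card := by
    rw [hA]; exact prod_pos fun t _ => hg.trans_le (hG t t.2)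
  have hBad : ∀ c ∈ Cs, ((Bad c).card : ℝ) ≤ A.card * (m / g₀) ^ n := by
    intro c hc
    have e : (m / g₀) ^ n = ∏ t : Fin N, (if t.1 ∈ T c then m / g₀ else 1) := by
      rw [Fin.prod_univ_eq_prod_range (fun t => if t ∈ T c then m / g₀ else 1) N, prod_ite_mem,
        inter_eq_right.2 (hT c hc).1, prod_const, (hT c hc).2]
    rw [hA, e, ← prod_mul_distrib]
    simp only [Bad, Fintype.card_piFinset]; push_cast
    refine prod_le_prod (fun _ _ => Nat.cast_nonneg _) fun t _ => ?_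
    split_ifs with h
    · have h1 : ((G t ∩ B c t).card : ℝ) ≤ (B c t).card := by
        exact_mod_cast card_le_card inter_subset_right
      have h2 := hG t t.2
      have h3 : m ≤ (G t).card * (m / g₀) := by
        rw [← mul_div_assoc, le_div_iff₀ hg]; nlinarith
      linarith [hB c hc t]
    · simp
  have hlt : (Cs.biUnion Bad).card < A.card := by
    have h1 : ((Cs.biUnion Bad).card : ℝ) ≤ ∑ c ∈ Cs, ((Bad c).card : ℝ) := by
      exact_mod_cast card_biUnion_le
    have h2 := sum_le_card_mul _ hBad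
    have : ((Cs.biUnion Bad).card : ℝ) < A.card := by nlinarith
    exact_mod_cast this
  obtain ⟨f, hf1, hf2⟩ := exists_mem_notMem_of_card_lt_card hlt
  refine ⟨fun t => if h : t < N then f ⟨t, h⟩ else default, fun t ht => ?_, fun c hc => ?_⟩
  · simp only [dif_pos ht]; exact Fintype.mem_piFinset.1 hf1 ⟨t, ht⟩
  · by_contra hcon
    push Not at hcon
    refine hf2 (mem_biUnion.2 ⟨c, hc, Fintype.mem_piFinset.2 fun t => ?_⟩)
    have h1 := Fintype.mem_piFinset.1 hf1 t
    split_ifs with h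
    · have := hcon t h
      simp only [dif_pos t.2] at this
      exact mem_inter.2 ⟨h1, this⟩
    · exact h1

variable {F : Type*} [Field F] [Fintype F] [DecidableEq F]

lemma card_det (S : Finset (Fin 13 → F)) (i₀ : Fin 13)
    (h : ∀ τ ∈ S, ∀ τ' ∈ S, (∀ i, i ≠ i₀ → τ i = τ' i) → τ i₀ = τ' i₀) :
    S.card ≤ Fintype.card F ^ 12 := by
  have := card_le_card_of_injOn (s := S) (t := (univ : Finset ({i : Fin 13 // i ≠ i₀} → F)))
    (fun τ i => τ i.1) (fun _ _ => mem_univ _) fun τ h1 τ' h2 e => by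
      have e' : ∀ i, i ≠ i₀ → τ i = τ' i := fun i hi => congrFun e ⟨i, hi⟩
      funext i
      by_cases hi : i = i₀
      · subst hi; exact h τ h1 τ' h2 e'
      · exact e' i hi
  simpa using this

variable {dr : ℕ → Slot → Option F} {N : ℕ} {z : ℕ → Zt F}

variable (dr) in
open Classical in
/-- the offsets that survive the other gadgets -/
noncomputable def A4 (N : ℕ) (z : ℕ → Zt F) (t : ℕ) (z₀ : Zt F) (j : Fin 13) : Finset F :=
  univ.filter (fun τ => ∀ s < N, ¬ (s ≠ t ∧ ∃ k : Slot, k.2 ≠ some j ∧ ∃ k',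
    On (kap dr t z₀ k j τ) (row dr s (z s) k')))

variable (dr) in
open Classical in
noncomputable def Gs (N : ℕ) (z : ℕ → Zt F) (P : (F × F) ⊕ Option F) : Finset ℕ :=
  (range N).filter (fun t => ∃ k, row dr t (z t) k ∈ pencil P)

def GoodP (dr : ℕ → Slot → Option F) (N : ℕ) (z : ℕ → Zt F) (t : ℕ) (τ : Fin 13 → F) : Prop :=
  (∀ j ε, yy dr t (z t) (τ j) ≠ bs dr t (z t) ε) ∧
  (∀ j, τ j ∈ A4 dr N z t (z t) j) ∧
  (∀ j ε j', j' ≠ j → ∀ k',
    ¬ On (kap dr t (z t) (ε, some j') j (τ j)) (row dr t (z t) (!ε, k'))) ∧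
  (∀ (k : Slot) j j', j ≠ j' → k.2 ≠ some j → k.2 ≠ some j' →
    kap dr t (z t) k j (τ j) ≠ kap dr t (z t) k j' (τ j')) ∧
  (∀ ε μ, ¬ On (bs dr t (z t) ε) μ → ∃ j, ∀ k : Option (Fin 13), k ≠ some j →
    ¬ On (kap dr t (z t) (ε, k) j (τ j)) μ)

open Classical in
lemma card_good (D : DrHyp N dr) (t : ℕ) (a : ℝ) (ha : 0 ≤ a)
    (h4 : ∀ j, a + 366 ≤ (A4 dr N z t (z t) j).card) :
    a ^ 13 ≤ (univ.filter (GoodP dr N z t)).card + 4732 * (Fintype.card F : ℝ) ^ 12 +
      2 * Fintype.card (Ln F) * 14 ^ 13 := by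
  let G : Fin 13 → Finset F := fun j => (A4 dr N z t (z t) j).filter (fun τ =>
    (∀ ε, yy dr t (z t) τ ≠ bs dr t (z t) ε) ∧ ∀ ε j', j' ≠ j → ∀ k',
      ¬ On (kap dr t (z t) (ε, some j') j τ) (row dr t (z t) (!ε, k')))
  have hG : ∀ j, a ≤ (G j).card := by
    intro j
    have : A4 dr N z t (z t) j ⊆ G j ∪ ((univ : Finset Bool).biUnion (fun ε => univ.filter
        (fun τ => yy dr t (z t) τ = bs dr t (z t) ε)) ∪
        (univ : Finset (Bool × Fin 13 × Option (Fin 13))).biUnion (fun p => univ.filter (fun τ =>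
          p.2.1 ≠ j ∧ On (kap dr t (z t) (p.1, some p.2.1) j τ) (row dr t (z t) (!p.1, p.2.2))))) := by
      intro τ hτ
      by_cases h : τ ∈ G j
      · exact mem_union_left _ h
      refine mem_union_right _ ?_
      simp only [G, mem_filter, hτ, true_and, not_and_or, not_forall, not_not] at h
      simp only [mem_union, mem_biUnion, mem_univ, true_and, mem_filter]
      rcases h with ⟨ε, h⟩ | ⟨ε, j', h1, k', h2⟩
      · exact Or.inl ⟨ε, h⟩
      · exact Or.inr ⟨(ε, j', k'), h1, h2⟩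
    have c1 := (card_le_card this).trans ((card_union_le _ _).trans (Nat.add_le_add_left
      ((card_union_le _ _).trans (Nat.add_le_add (card_biUnion_le_card_mul _ _ 1 fun ε _ => ?_)
        (card_biUnion_le_card_mul _ _ 1 fun p _ => ?_))) _))
    · simp only [card_univ, Fintype.card_bool, Fintype.card_prod, Fintype.card_fin,
        Fintype.card_option] at c1
      have c2 : ((A4 dr N z t (z t) j).card : ℝ) ≤ (G j).card + 366 := by exact_mod_cast c1
      linarith [h4 j]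
    · exact card_le_one.2 fun τ h1 τ' h2 => DrHyp.yy_inj t (z t)
        ((mem_filter.1 h1).2.trans (mem_filter.1 h2).2.symm)
    · by_cases hp : p.2.1 = j
      · simp [hp]
      · refine le_trans (card_le_card fun τ hτ => ?_) (D.card_kap t (z t) (k := (p.1, some p.2.1))
          (j := j) (by simpa using hp) (μ := row dr t (z t) (!p.1, p.2.2))
          (fun e => D.ne' t (k := (!p.1, p.2.2)) (by cases p.1 <;> simp) (congrArg Prod.fst e)))
        simp only [mem_filter, mem_univ, true_and] at hτ ⊢; exact hτ.2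
  have hpi : a ^ 13 ≤ ((Fintype.piFinset G).card : ℝ) := by
    rw [Fintype.card_piFinset]; push_cast
    calc a ^ 13 = ∏ _j : Fin 13, a := by simp
      _ ≤ _ := prod_le_prod (fun _ _ => ha) fun j _ => hG j
  let B2 := (univ : Finset (Slot × Fin 13 × Fin 13)).biUnion (fun p =>
    (univ : Finset (Fin 13 → F)).filter (fun τ => p.2.1 ≠ p.2.2 ∧ p.1.2 ≠ some p.2.2 ∧
      kap dr t (z t) p.1 p.2.1 (τ p.2.1) = kap dr t (z t) p.1 p.2.2 (τ p.2.2)))
  let B3 := ((univ : Finset (Bool × Ln F)).filter (fun p => ¬ On (bs dr t (z t) p.1) p.2)).biUnion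
    (fun p => Fintype.piFinset (fun j => univ.filter (fun τ => ∃ k : Option (Fin 13),
      k ≠ some j ∧ On (kap dr t (z t) (p.1, k) j τ) p.2)))
  have h2 : B2.card ≤ 4732 * Fintype.card F ^ 12 := by
    refine (card_biUnion_le_card_mul _ _ (Fintype.card F ^ 12) fun p _ => ?_).trans (by simp)
    refine card_det _ p.2.2 fun τ h1 τ' h2 e => ?_
    simp only [mem_filter, mem_univ, true_and] at h1 h2
    exact D.kap_inj t (z t) h1.2.1 (by rw [← h1.2.2, ← h2.2.2, e _ h1.1])
  have h3 : B3.card ≤ 2 * Fintype.card (Ln F) * 14 ^ 13 := by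
    refine (card_biUnion_le_card_mul _ _ (14 ^ 13) fun p hp => ?_).trans
      (Nat.mul_le_mul_right _ ((card_filter_le _ _).trans (by simp)))
    rw [Fintype.card_piFinset]
    refine (prod_le_pow_card _ _ 14 fun j _ => ?_).trans (by simp)
    have : univ.filter (fun τ => ∃ k : Option (Fin 13), k ≠ some j ∧
        On (kap dr t (z t) (p.1, k) j τ) p.2) ⊆ (univ.filter (fun k : Option (Fin 13) =>
        k ≠ some j)).biUnion (fun k => univ.filter (fun τ =>
          On (kap dr t (z t) (p.1, k) j τ) p.2)) := by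
      intro τ hτ
      simpa using hτ
    refine (card_le_card this).trans ((card_biUnion_le_card_mul _ _ 1 fun k hk => ?_).trans ?_)
    · exact D.card_kap t (z t) (k := (p.1, k)) (mem_filter.1 hk).2
        fun e => (mem_filter.1 hp).2 (e ▸ bs_on_row t (z t) (p.1, k))
    · rw [mul_one]; exact (card_filter_le _ _).trans (by simp)
  have hsub : Fintype.piFinset G ⊆ univ.filter (GoodP dr N z t) ∪ B2 ∪ B3 := by
    intro τ hτ
    have hτ' := fun j => mem_filter.1 (Fintype.mem_piFinset.1 hτ j)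
    by_cases c2 : τ ∈ B2
    · exact mem_union_left _ (mem_union_right _ c2)
    by_cases c3 : τ ∈ B3
    · exact mem_union_right _ c3
    refine mem_union_left _ (mem_union_left _ (mem_filter.2 ⟨mem_univ _,
      fun j => (hτ' j).2.1, fun j => (hτ' j).1, fun j => (hτ' j).2.2,
      fun k j j' h1 _ h3 e => c2 ?_, fun ε μ hμ => ?_⟩))
    · exact mem_biUnion.2 ⟨(k, j, j'), mem_univ _, mem_filter.2 ⟨mem_univ _, h1, h3, e⟩⟩
    · by_contra hcon
      push Not at hcon
      exact c3 (mem_biUnion.2 ⟨(ε, μ), mem_filter.2 ⟨mem_univ _, hμ⟩,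
        Fintype.mem_piFinset.2 fun j => mem_filter.2 ⟨mem_univ _, hcon j⟩⟩)
  have h5 := (card_le_card hsub).trans ((card_union_le _ _).trans (Nat.add_le_add
    ((card_union_le _ _).trans (Nat.add_le_add_left h2 _)) h3))
  refine hpi.trans ?_
  exact_mod_cast h5

theorem phase2 (D : DrHyp N dr) (a Jc : ℝ) (ha : 0 < a)
    (h4 : ∀ t < N, ∀ j, a + 366 ≤ (A4 dr N z t (z t) j).card)
    (h5 : ∀ P, ((Gs dr N z P).card : ℝ) ≤ Jc)
    (n1 : 4732 * (Fintype.card F : ℝ) ^ 12 + 2 * Fintype.card (Ln F) * 14 ^ 13 ≤ a ^ 13 / 2)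
    (n2 : Fintype.card (((F × F) ⊕ Option F) × Ln F) * Jc ^ 6 *
      (364 * (Fintype.card F : ℝ) ^ 12 / (a ^ 13 / 2)) ^ 6 < 1) :
    ∃ τ, Fin2 dr N z τ := by
  classical
  let _ : Inhabited (Fin 13 → F) := ⟨fun _ => 0⟩
  let Cs := (univ : Finset (((F × F) ⊕ Option F) × Ln F)).sigma
    (fun p => powersetCard 6 (Gs dr N z p.1))
  let B : (Σ _ : ((F × F) ⊕ Option F) × Ln F, Finset ℕ) → ℕ → Finset (Fin 13 → F) := fun c t =>
    univ.filter (fun τ => c.1.2 ∉ pencil c.1.1 ∧ ∃ k j, row dr t (z t) k ∈ pencil c.1.1 ∧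
      k.2 ≠ some j ∧ On (kap dr t (z t) k j (τ j)) c.1.2)
  obtain ⟨τ, g1, g2⟩ := prod_avoid N (fun t => univ.filter (GoodP dr N z t)) (a ^ 13 / 2)
    (364 * (Fintype.card F : ℝ) ^ 12) (by positivity) (by positivity)
    (fun t ht => by linarith [card_good D t a ha.le (h4 t ht)]) Cs (fun c => c.2) 6
    (fun c hc => by
      obtain ⟨h1, h2⟩ := mem_powersetCard.1 (mem_sigma.1 hc).2
      exact ⟨h1.trans (filter_subset _ _), h2⟩) B
    (fun c _ t => by
      have : B c t ⊆ (univ : Finset (Slot × Fin 13)).biUnion (fun p => univ.filter (fun τ =>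
          c.1.2 ≠ row dr t (z t) p.1 ∧ p.1.2 ≠ some p.2 ∧
            On (kap dr t (z t) p.1 p.2 (τ p.2)) c.1.2)) := by
        intro τ hτ
        obtain ⟨-, h1, k, j, h2, h3, h4⟩ := mem_filter.1 hτ
        exact mem_biUnion.2 ⟨(k, j), mem_univ _, mem_filter.2 ⟨mem_univ _,
          fun e => h1 (e ▸ h2), h3, h4⟩⟩
      have h := (card_le_card this).trans (card_biUnion_le_card_mul _ _ (Fintype.card F ^ 12)
        fun p _ => card_det _ p.2 fun τ h1 τ' h2 _ => by
          simp only [mem_filter, mem_univ, true_and] at h1 h2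
          exact card_le_one.1 (D.card_kap t (z t) h1.2.1 h1.1) _ (by simp [h1.2.2]) _
            (by simp [h2.2.2]))
      simp only [card_univ, Fintype.card_bool, Fintype.card_prod, Fintype.card_fin,
        Fintype.card_option] at h
      exact_mod_cast h)
    (by
      refine lt_of_le_of_lt (mul_le_mul_of_nonneg_right ?_ (by positivity)) n2
      simp only [Cs, card_sigma, card_powersetCard]
      push_cast
      rw [← card_univ]
      refine sum_le_card_mul _ fun p _ => ?_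
      calc (((Gs dr N z p.1).card.choose 6 : ℕ) : ℝ) ≤ ((Gs dr N z p.1).card : ℝ) ^ 6 := by
            exact_mod_cast Nat.choose_le_pow _ _
        _ ≤ _ := pow_le_pow_left₀ (Nat.cast_nonneg _) (h5 _) 6)
  have g : ∀ t < N, GoodP dr N z t (τ t) := fun t ht => (mem_filter.1 (g1 t ht)).2
  refine ⟨τ, fun t ht => (g t ht).1, fun t ht j k hk s hs hst k' hon => ?_,
    fun t ht => (g t ht).2.2.1, fun t ht => (g t ht).2.2.2.1, fun t ht => (g t ht).2.2.2.2,
    fun P μ hμ => ?_⟩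
  · exact (mem_filter.1 ((g t ht).2.1 j)).2 s hs ⟨hst, k, hk, k', hon⟩
  · by_contra hcon
    obtain ⟨T, hT1, hT2⟩ := exists_subset_card_eq (n := 6) (not_le.1 hcon)
    obtain ⟨t, ht, h⟩ := g2 ⟨(P, μ), T⟩ (mem_sigma.2 ⟨mem_univ _, mem_powersetCard.2
      ⟨fun t ht => by
        obtain ⟨h1, k, j, h2, -⟩ := mem_filter.1 (hT1 ht)
        exact mem_filter.2 ⟨h1, k, h2⟩, hT2⟩⟩)
    exact h (mem_filter.2 ⟨mem_univ _, hμ, (mem_filter.1 (hT1 ht)).2⟩)

end Crest.Agent.H7.Ry
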