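import Crest.Agent.H7.RyJ
import Crest.Agent.H7.RyB

set_option autoImplicit false
set_option linter.unusedSectionVars false

open Finset

namespace Crest.Agent.H7.Ry

variable {F : Type*} [Field F] [Fintype F] [DecidableEq F]

instance : Inhabited (Zt F) := ⟨0⟩

variable (dr : ℕ → Slot → Option F)

def plane (t : ℕ) (ε : Bool) (d : Option F) (c : F) : Finset (Zt F) :=
  univ.filter (fun z => ph d (bs dr t z ε) = c)

lemma card_plane (t : ℕ) (ε : Bool) (d : Option F) (c : F) :
    (plane dr t ε d c).card ≤ Fintype.card F ^ 2 := by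
  have := card_le_card_of_injOn (s := plane dr t ε d c) (t := pts (d, c) ×ˢ (univ : Finset F))
    (fun z => (bs dr t z ε, z.2)) (fun z hz => by simpa [plane, On] using hz) fun z _ z' _ e => by
      simp only [Prod.mk.injEq, bs, yy] at e
      refine Prod.ext ?_ e.2
      rw [e.2] at e; exact add_right_cancel e.1
  rwa [card_product, card_pts, card_univ, ← sq] at this

lemma card_plane_inter (t : ℕ) (ε ε' : Bool) (d d' : Option F) (c c' : F)
    (h : ¬ (d' = d ∧ c' = c)) :
    ((plane dr t ε d c).filter (fun z => c' = ph d' (bs dr t z ε'))).card ≤ Fintype.card F := by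
  by_cases hd : d' = d
  · subst hd
    have hc : c' ≠ c := fun e => h ⟨rfl, e⟩
    rw [← card_pts (d', c)]
    refine card_le_card_of_injOn (fun z => bs dr t z ε)
      (fun z hz => by simp only [coe_filter, plane, mem_filter] at hz; simpa [On] using hz.1.2)
      fun z hz z' hz' e => ?_
    simp only [coe_filter, plane, mem_filter, mem_univ, true_and, Set.mem_ofPred_eq, bs, yy,
      ph_add_smul] at hz hz' e
    have h2 : z.2 = z'.2 := by
      cases ε <;> cases ε' <;> simp only [Bool.false_eq_true, if_false, if_true] at hz hz'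
      · exact absurd (hz.2.trans hz.1) hc
      · have h0 : ph d' (vv (dr t (false, none))) ≠ 0 := fun h0 => hc (by
          rw [hz.2, ← hz.1, h0]; ring)
        exact mul_right_cancel₀ h0 (by linear_combination hz'.2 - hz.2 + hz'.1 - hz.1)
      · have h0 : ph d' (vv (dr t (false, none))) ≠ 0 := fun h0 => hc (by
          rw [hz.2, ← hz.1, h0]; ring)
        exact mul_right_cancel₀ h0 (by linear_combination hz.2 - hz'.2 + hz.1 - hz'.1)
      · exact absurd (hz.2.trans hz.1) hc
    refine Prod.ext ?_ h2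
    rw [h2] at e; exact add_right_cancel e
  · rw [← card_univ]
    refine card_le_card_of_injOn Prod.snd (fun _ _ => mem_univ _) fun z hz z' hz' e => ?_
    simp only [coe_filter, plane, mem_filter, mem_univ, true_and, Set.mem_ofPred_eq, bs, yy,
      ph_add_smul] at hz hz'
    refine Prod.ext (ph_ext hd ?_ ?_) e
    · rw [e] at hz; linear_combination hz'.2 - hz.2
    · rw [e] at hz; linear_combination hz.1 - hz'.1

def nz (F : Type*) [Field F] [Fintype F] [DecidableEq F] : Finset (Zt F) :=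
  univ.filter (fun z => z.2 ≠ 0)

lemma card_nz : ((nz F).card : ℝ) = (Fintype.card F : ℝ) ^ 3 - (Fintype.card F : ℝ) ^ 2 := by
  have : nz F = (univ : Finset (F × F)) ×ˢ (univ.erase 0) := by ext z; simp [nz]
  rw [this, card_product, card_erase_of_mem (mem_univ _), card_univ, card_univ, Fintype.card_prod]
  have : 1 ≤ Fintype.card F := Fintype.card_pos
  push_cast [Nat.cast_sub this]; ring

noncomputable def κ₀ : ℝ := 4 * Real.exp 17
noncomputable def κ₁ : ℝ := 784 * κ₀

lemma κ₀_ge : 4 ≤ κ₀ := by unfold κ₀; linarith [Real.add_one_le_exp 17]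
lemma κ₁_ge : 3136 ≤ κ₁ := by unfold κ₁; linarith [κ₀_ge]

def GoodW (t : ℕ) (w : Zt F → ℝ) : Prop :=
  (∀ z, 0 ≤ w z) ∧ (Fintype.card F : ℝ) ^ 3 / 2 ≤ ∑ z ∈ nz F, w z ∧
  (∀ ε d c, (∀ k, dr t k ≠ d) → ∑ z ∈ plane dr t ε d c, w z ≤ 2 * (Fintype.card F : ℝ) ^ 2) ∧
  (∀ ε d c, ∑ z ∈ plane dr t ε d c, w z ≤ κ₀ / 2 * (Fintype.card F : ℝ) ^ 2)

open Classical in
noncomputable def ker (t : ℕ) (w : Zt F → ℝ) (z : Zt F) : ℝ :=
  if GoodW dr t w then (if z.2 ≠ 0 then w z else 0) / ∑ z ∈ nz F, w z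
  else 1 / (Fintype.card F : ℝ) ^ 3

noncomputable def WW : List (Zt F) → ℕ → Zt F → ℝ
  | [], _, _ => 1
  | z :: h, t, y => (1 - ind (Conf dr t y h.length z)) * WW h t y /
      (1 - ∑ z', ker dr h.length (WW h h.length) z' * ind (Conf dr t y h.length z'))

noncomputable def π1 (h : List (Zt F)) : Zt F → ℝ := ker dr h.length (WW dr h h.length)

lemma WW_eq (t : ℕ) (h : List (Zt F)) (y : Zt F) : WW dr h t y = Wt (π1 dr) (Conf dr t) h y := by
  induction h with
  | nil => rfl
  | cons z h ih => simp only [WW, Wt, ih, pk, π1]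

lemma ker_nonneg (t : ℕ) (w : Zt F → ℝ) (z : Zt F) : 0 ≤ ker dr t w z := by
  unfold ker
  split_ifs with h1 h2
  · exact div_nonneg (h1.1 z) (sum_nonneg fun z _ => h1.1 z)
  · simp
  · positivity

lemma ker_sum (t : ℕ) (w : Zt F → ℝ) : ∑ z, ker dr t w z = 1 := by
  have hq := card_pos' (F := F)
  unfold ker
  split_ifs with h1
  · rw [← sum_div, ← sum_filter]
    exact div_self (lt_of_lt_of_le (by positivity) h1.2.1).ne'
  · simp only [sum_const, card_univ, Fintype.card_prod, nsmul_eq_mul]; push_cast; field_simp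

lemma isK_π1 : IsK (π1 dr) := ⟨fun _ _ => ker_nonneg _ _ _ _, fun _ => ker_sum _ _ _⟩

lemma ker_plane (t : ℕ) (w : Zt F → ℝ) (ε : Bool) (d : Option F) (c : F) (a : ℝ) (ha : 1 ≤ a)
    (H : GoodW dr t w → ∑ z ∈ plane dr t ε d c, w z ≤ a / 2 * (Fintype.card F : ℝ) ^ 2) :
    ∑ z, ker dr t w z * ind (ph d (bs dr t z ε) = c) ≤ a / Fintype.card F := by
  have hq := card_pos' (F := F)
  have e : ∑ z, ker dr t w z * ind (ph d (bs dr t z ε) = c) =
      ∑ z ∈ plane dr t ε d c, ker dr t w z := by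
    rw [plane, sum_filter]
    refine sum_congr rfl fun z _ => ?_
    split_ifs with h
    · rw [ind_true h, mul_one]
    · rw [ind_false h, mul_zero]
  rw [e]
  unfold ker
  split_ifs with h1
  · rw [← sum_div, div_le_div_iff₀ (lt_of_lt_of_le (by positivity) h1.2.1) hq]
    have h2 : ∑ z ∈ plane dr t ε d c, (if z.2 ≠ 0 then w z else 0) ≤
        a / 2 * (Fintype.card F : ℝ) ^ 2 :=
      le_trans (sum_le_sum fun z _ => by split_ifs; exacts [le_rfl, h1.1 z]) (H h1)
    nlinarith [mul_le_mul_of_nonneg_right h2 hq.le,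
      mul_le_mul_of_nonneg_left h1.2.1 (by linarith : 0 ≤ a)]
  · have h2 : ((plane dr t ε d c).card : ℝ) ≤ (Fintype.card F : ℝ) ^ 2 := by
      exact_mod_cast card_plane dr t ε d c
    rw [sum_const, nsmul_eq_mul, mul_one_div, div_le_div_iff₀ (by positivity) hq]
    nlinarith [mul_le_mul_of_nonneg_right h2 hq.le, pow_pos hq 3]

lemma pl_le (h : List (Zt F)) (ε : Bool) (d : Option F) (c : F) :
    ∑ z, π1 dr h z * ind (ph d (bs dr h.length z ε) = c) ≤ κ₀ / Fintype.card F :=
  ker_plane dr _ _ ε d c κ₀ (by linarith [κ₀_ge]) fun H => H.2.2.2 ε d c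

lemma pl_le_gen (h : List (Zt F)) (ε : Bool) (d : Option F) (c : F)
    (hd : ∀ k, dr h.length k ≠ d) :
    ∑ z, π1 dr h z * ind (ph d (bs dr h.length z ε) = c) ≤ 4 / Fintype.card F :=
  ker_plane dr _ _ ε d c 4 (by norm_num) fun H => by
    have := H.2.2.1 ε d c hd; linarith

lemma pr_union {Z ι : Type*} [Fintype Z] [Fintype ι] (w : Z → ℝ) (hw : ∀ z, 0 ≤ w z)
    (E : Z → Prop) (p : ι → Z → Prop) (h : ∀ z, E z → ∃ i, p i z) :
    ∑ z, w z * ind (E z) ≤ ∑ i, ∑ z, w z * ind (p i z) := by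
  rw [sum_comm]
  refine sum_le_sum fun z _ => ?_
  rw [← mul_sum]
  refine mul_le_mul_of_nonneg_left (le_trans (ind_mono fun hz => ?_)
    (ind_exists_le univ (fun i => p i z))) (hw z)
  simpa using h z hz

lemma cnt_union {α ι : Type*} [Fintype ι] (Y : Finset α) (E : α → Prop) (p : ι → α → Prop)
    (h : ∀ y ∈ Y, E y → ∃ i, p i y) : ∑ y ∈ Y, ind (E y) ≤ ∑ i, ∑ y ∈ Y, ind (p i y) := by
  rw [sum_comm]
  refine sum_le_sum fun y hy => le_trans (ind_mono fun hz => ?_)
    (ind_exists_le univ (fun i => p i y))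
  simpa using h y hy hz

abbrev CI := Bool × Bool × Slot × Bool

def dd (t s : ℕ) (p : CI) : Option F := if p.2.2.2 then dr s p.2.2.1 else dr t p.2.2.1

variable {dr}

lemma Conf.ex {t s : ℕ} {y z : Zt F} (h : Conf dr t y s z) :
    ∃ p : CI, ph (dd dr t s p) (bs dr s z p.1) = ph (dd dr t s p) (bs dr t y p.2.1) := by
  obtain ⟨ε, ε', k, h | h⟩ := h
  · exact ⟨(ε, ε', k, true), h⟩
  · exact ⟨(ε, ε', k, false), h⟩

lemma pk_conf (t : ℕ) (y : Zt F) (h : List (Zt F)) :
    pk (π1 dr) (Conf dr t) h y ≤ κ₁ / Fintype.card F := by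
  have hq := card_pos' (F := F)
  refine (pr_union _ ((isK_π1 dr).nonneg h) _ _ fun z hz => hz.ex).trans ?_
  refine (sum_le_card_mul _ fun p _ => pl_le dr h _ _ _).trans ?_
  simp only [card_univ, Fintype.card_bool, Fintype.card_prod, Fintype.card_fin,
    Fintype.card_option, κ₁]
  rw [← mul_div_assoc]
  refine div_le_div_of_nonneg_right ?_ hq.le
  push_cast; linarith [κ₀_ge]

variable {N : ℕ}

lemma tailHyp_nz (hq : 2 * κ₁ ≤ Fintype.card F) (t : ℕ) :
    TailHyp (π1 dr) (Conf dr t) (nz F) (fun _ _ => False) κ₁ (Fintype.card F)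
      ((Fintype.card F : ℝ) ^ 3) := by
  have hq0 := card_pos' (F := F)
  refine ⟨by linarith [κ₁_ge], hq, fun y _ h => pk_conf t y h, by rw [card_nz]; nlinarith,
    by positivity, fun s z _ => ?_⟩
  refine (cnt_union _ _ _ fun y _ hy => hy.ex).trans ?_
  refine (sum_le_card_mul ((Fintype.card F : ℝ) ^ 2) fun p _ => ?_).trans ?_
  · rw [sum_ind]
    refine le_trans (Nat.cast_le.2 (card_le_card fun y hy => ?_))
      (by exact_mod_cast card_plane dr t p.2.1 (dd dr t s p) (ph (dd dr t s p) (bs dr s z p.1)))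
    simp only [plane, mem_filter, mem_univ, true_and] at hy ⊢; exact hy.2.symm
  · simp only [card_univ, Fintype.card_bool, Fintype.card_prod, Fintype.card_fin,
      Fintype.card_option]
    have : κ₁ / Fintype.card F * (Fintype.card F : ℝ) ^ 3 = κ₁ * (Fintype.card F : ℝ) ^ 2 := by
      field_simp
    rw [this]; gcongr; norm_num; linarith [κ₁_ge]

lemma tailHyp_plane (hq : 2 * κ₁ ≤ Fintype.card F) (t : ℕ) (ε : Bool) (d : Option F) (c : F) :
    TailHyp (π1 dr) (Conf dr t) (plane dr t ε d c)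
      (fun s z => (∃ k, dr s k = d ∨ dr t k = d) ∧ ∃ ε', ph d (bs dr s z ε') = c)
      κ₁ (Fintype.card F) ((Fintype.card F : ℝ) ^ 2) := by
  have hq0 := card_pos' (F := F)
  refine ⟨by linarith [κ₁_ge], hq, fun y _ h => pk_conf t y h,
    by exact_mod_cast card_plane dr t ε d c, by positivity, fun s z hx => ?_⟩
  refine (cnt_union _ _ _ fun y _ hy => hy.ex).trans ?_
  refine (sum_le_card_mul (Fintype.card F : ℝ) fun p _ => ?_).trans ?_
  · rw [sum_ind]
    refine Nat.cast_le.2 (card_plane_inter dr t ε p.2.1 d _ c _ fun e => hx ⟨⟨p.2.2.1, ?_⟩, p.1, ?_⟩)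
    · have := e.1; unfold dd at this; split_ifs at this
      exacts [Or.inl this, Or.inr this]
    · rw [← e.1]; exact e.2
  · simp only [card_univ, Fintype.card_bool, Fintype.card_prod, Fintype.card_fin,
      Fintype.card_option]
    have : κ₁ / Fintype.card F * (Fintype.card F : ℝ) ^ 2 = κ₁ * (Fintype.card F : ℝ) := by
      field_simp
    rw [this]; gcongr; norm_num; linarith [κ₁_ge]

lemma DrHyp.sum_dir (D : DrHyp N dr) (d : Option F) (n : ℕ) (hn : n ≤ N) (a : ℝ) (ha : 0 ≤ a) :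
    ∑ s ∈ range n, ∑ k : Slot, (if dr s k = d then a else 0) ≤ 28 * a := by
  rw [sum_comm]
  refine (sum_le_card_mul a fun k _ => ?_).trans (by simp)
  rw [← sum_filter, sum_const, nsmul_eq_mul]
  have : ((range n).filter (fun s => dr s k = d)).card ≤ 1 := card_le_one.2 fun s hs s' hs' => by
    simp only [mem_filter, mem_range] at hs hs'
    exact D.inj_t k s s' (by omega) (by omega) (hs.2.trans hs'.2.symm)
  have : (((range n).filter (fun s => dr s k = d)).card : ℝ) ≤ 1 := by exact_mod_cast this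
  nlinarith

noncomputable def eT (η Q : ℝ) : ℝ :=
  Real.exp (-(η ^ 2 * Q / (128 * Real.exp (4 * κ₁) ^ 2 * κ₁ ^ 2)))

lemma pr_plane (D : DrHyp N dr) (hN : N = Fintype.card F + 1) (hq : 2 * κ₁ ≤ Fintype.card F)
    {t : ℕ} (ht : t < N) (ε : Bool) (d : Option F) (c : F) :
    Pr (π1 dr) t [] (fun g => Real.exp (if ∃ k, dr t k = d then 17 else 1 / 4) *
      ((1 + 1 / 4) * (Fintype.card F : ℝ) ^ 2) ≤ Mass (π1 dr) (Conf dr t) (plane dr t ε d c) g) ≤
      eT (1 / 4) (Fintype.card F) := by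
  classical
  have hq0 := card_pos' (F := F)
  have hk := κ₀_ge
  have htq : (t : ℝ) ≤ Fintype.card F := by exact_mod_cast (by omega)
  refine tail_upper (isK_π1 dr) (tailHyp_plane hq t ε d c) t (by linarith) (1 / 4) (by norm_num)
    (by norm_num) (fun s => ∑ k : Slot, (if dr s k = d then 2 * κ₀ / Fintype.card F else 0) +
      if ∃ k, dr t k = d then (8:ℝ) / Fintype.card F else 0) (fun s => ?_) (fun g => ?_) _ ?_
  · refine add_nonneg (sum_nonneg fun k _ => ?_) ?_ <;> split_ifs <;> positivity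
  · have h0 : 0 ≤ ∑ k : Slot, (if dr g.length k = d then 2 * κ₀ / Fintype.card F else 0) :=
      sum_nonneg fun k _ => by split_ifs <;> positivity
    by_cases h1 : ∃ k, dr g.length k = d
    · obtain ⟨k, hk⟩ := h1
      have a1 := single_le_sum (f := fun k : Slot =>
        (if dr g.length k = d then 2 * κ₀ / Fintype.card F else 0))
        (fun k _ => by split_ifs <;> positivity) (mem_univ k)
      simp only [hk, if_true] at a1
      have a2 := (pr_union _ ((isK_π1 dr).nonneg g) (fun z => (∃ k, dr g.length k = d ∨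
        dr t k = d) ∧ ∃ ε', ph d (bs dr g.length z ε') = c) _ fun z hz => hz.2).trans
        (sum_le_card_mul _ fun p _ => pl_le dr g p d c)
      simp only [card_univ, Fintype.card_bool, Nat.cast_ofNat] at a2
      have a3 : (0:ℝ) ≤ if ∃ k, dr t k = d then (8:ℝ) / Fintype.card F else 0 := by
        split_ifs <;> positivity
      rw [← mul_div_assoc] at a2
      linarith
    · by_cases h2 : ∃ k, dr t k = d
      · have a2 := (pr_union _ ((isK_π1 dr).nonneg g) (fun z => (∃ k, dr g.length k = d ∨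
          dr t k = d) ∧ ∃ ε', ph d (bs dr g.length z ε') = c) _ fun z hz => hz.2).trans
          (sum_le_card_mul _ fun p _ => pl_le_gen dr g p d c (not_exists.1 h1))
        simp only [card_univ, Fintype.card_bool, Nat.cast_ofNat] at a2
        rw [if_pos h2]
        rw [← mul_div_assoc] at a2
        linarith
      · rw [if_neg h2, add_zero]
        refine le_trans (le_of_eq (sum_eq_zero fun z _ => ?_)) h0
        rw [ind_false, mul_zero]
        rintro ⟨⟨k, hk | hk⟩, -⟩
        exacts [h1 ⟨k, hk⟩, h2 ⟨k, hk⟩]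
  · rw [sum_add_distrib]
    have a1 := D.sum_dir d t ht.le (2 * κ₀ / Fintype.card F) (by positivity)
    have a2 : 28 * (2 * κ₀ / Fintype.card F) ≤ 1 / 4 := by
      rw [← mul_div_assoc, div_le_iff₀ hq0]; unfold κ₁ at hq; linarith
    split_ifs
    · simp only [sum_const, card_range, nsmul_eq_mul]
      have : (t : ℝ) * (8 / Fintype.card F) ≤ 8 := by
        rw [← mul_div_assoc, div_le_iff₀ hq0]; linarith
      linarith
    · simp only [sum_const_zero]; linarith

lemma pr_good (D : DrHyp N dr) (hN : N = Fintype.card F + 1) (hq : 2 * κ₁ ≤ Fintype.card F)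
    {t : ℕ} (ht : t < N) :
    Pr (π1 dr) t [] (fun g => ¬ GoodW dr t (WW dr g t)) ≤
      (1 + 2 * N * Fintype.card F) * eT (1 / 4) (Fintype.card F) := by
  classical
  have hq0 := card_pos' (F := F)
  have htq : (t : ℝ) ≤ Fintype.card F := by exact_mod_cast (by omega)
  have h1 := tail_lower (isK_π1 dr) (tailHyp_nz hq t) t (by linarith) (1 / 4) (by norm_num)
    (by norm_num)
  have h2 := Pr_exists_le (isK_π1 dr) t [] (univ : Finset (Bool × Option F × F)) _ _
    fun p _ => pr_plane D hN hq ht p.1 p.2.1 p.2.2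
  refine le_trans (Pr_mono (isK_π1 dr) t [] fun l _ hE => ?_)
    ((Pr_or (isK_π1 dr) t [] _ _).trans ((add_le_add h1 h2).trans (le_of_eq ?_)))
  · by_contra hcon
    push Not at hcon
    obtain ⟨c1, c2⟩ := hcon
    have c1 := c1 (by simp)
    have e : ∀ Y : Finset (Zt F), ∑ z ∈ Y, WW dr (l ++ []) t z =
        Mass (π1 dr) (Conf dr t) Y (l ++ []) := fun Y => sum_congr rfl fun z _ => WW_eq _ _ _ _
    have hq4 : (4:ℝ) ≤ Fintype.card F := by linarith [κ₁_ge]
    refine hE ⟨fun z => ?_, ?_, fun ε d c hd => ?_, fun ε d c => ?_⟩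
    · rw [WW_eq]
      exact (Wt_bounds (isK_π1 dr) (tailHyp_nz (dr := dr) hq t).alpha (pk_conf t z) _).1
    · rw [e]; rw [card_nz] at c1
      nlinarith [mul_le_mul_of_nonneg_right hq4 (sq_nonneg (Fintype.card F : ℝ))]
    · have := c2 (ε, d, c) (mem_univ _)
      rw [if_neg (not_exists.2 hd)] at this
      rw [e]
      have h3 : Real.exp (1 / 4) ≤ 1 + 1 / 4 + (1 / 4) ^ 2 := exp_le_quad (by norm_num [abs_of_pos])
      nlinarith [pow_pos hq0 2]
    · have := c2 (ε, d, c) (mem_univ _)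
      rw [e]
      have h3 : Real.exp (if ∃ k, dr t k = d then 17 else 1 / 4) ≤ Real.exp 17 :=
        Real.exp_le_exp.2 (by split_ifs <;> norm_num)
      unfold κ₀
      nlinarith [pow_pos hq0 2, Real.exp_pos 17,
        mul_le_mul_of_nonneg_right h3 (sq_nonneg (Fintype.card F : ℝ))]
  · simp only [card_univ, Fintype.card_bool, Fintype.card_prod, Fintype.card_option, hN, eT]
    push_cast; ring

def Bad1 (dr : ℕ → Slot → Option F) (N : ℕ) (h : List (Zt F)) : Prop :=
  ∃ t ∈ range N, ¬ GoodW dr t (WW dr (h.drop (N - t)) t)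

lemma pr_bad1 (D : DrHyp N dr) (hN : N = Fintype.card F + 1) (hq : 2 * κ₁ ≤ Fintype.card F) :
    Pr (π1 dr) N [] (Bad1 dr N) ≤
      N * ((1 + 2 * N * Fintype.card F) * eT (1 / 4) (Fintype.card F)) := by
  have := Pr_exists_le (isK_π1 dr) N [] (range N)
    (fun t g => ¬ GoodW dr t (WW dr (g.drop (N - t)) t)) _ fun t ht => by
      rw [Pr_tail (isK_π1 dr) t N (mem_range.1 ht).le (fun g => ¬ GoodW dr t (WW dr g t))]
      exact pr_good D hN hq (mem_range.1 ht)
  rwa [card_range] at this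

lemma not_bad1 {h : List (Zt F)} (hl : h.length = N) (hs : Supp (π1 dr) h) (hb : ¬ Bad1 dr N h) :
    (∀ t < N, (toF h t).2 ≠ 0) ∧
      ∀ s < N, ∀ t < N, s ≠ t → ¬ Conf dr t (toF h t) s (toF h s) := by
  have key : ∀ t < N, (toF h t).2 ≠ 0 ∧ ∀ s < t, ¬ Conf dr t (toF h t) s (toF h s) := by
    intro t ht
    have h1 := Supp_step h hs (hl ▸ ht)
    have h2 : GoodW dr t (WW dr (h.drop (N - t)) t) := by
      by_contra hc; exact hb ⟨t, mem_range.2 ht, hc⟩
    have h3 : (h.drop (N - t)).length = t := by simp; omega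
    rw [hl] at h1
    unfold π1 ker at h1
    rw [h3, if_pos h2] at h1
    by_cases h4 : (toF h t).2 ≠ 0
    · refine ⟨h4, fun s hst => ?_⟩
      rw [if_pos h4] at h1
      have h5 : WW dr (h.drop (N - t)) t (toF h t) ≠ 0 := fun e => by simp [e] at h1
      rw [WW_eq] at h5
      have := Wt_alive h5 s (by omega)
      rwa [toF_drop _ _ (by omega)] at this
    · rw [if_neg h4] at h1; simp at h1
  refine ⟨fun t ht => (key t ht).1, fun s hs t ht hne => ?_⟩
  rcases lt_or_gt_of_ne hne with h1 | h1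
  · exact (key t ht).2 s h1
  · exact fun hc => (key s hs).2 t h1 hc.symm

end Crest.Agent.H7.Ry
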