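import Crest.Agent.H7.RyK

set_option autoImplicit false
set_option linter.unusedSectionVars false

open Finset

namespace Crest.Agent.H7.Ry

variable {F : Type*} [Field F] [Fintype F] [DecidableEq F]
variable {dr : ℕ → Slot → Option F} {N : ℕ}

lemma card_slot : ((univ : Finset Slot).card : ℝ) = 28 := by simp

lemma pr_on_row (h : List (Zt F)) (x : F × F) (k : Slot) :
    ∑ z, π1 dr h z * ind (On x (row dr h.length z k)) ≤ κ₀ / Fintype.card F :=
  le_trans (sum_le_sum fun z _ => mul_le_mul_of_nonneg_left (ind_mono fun e => Eq.symm e)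
    ((isK_π1 dr).nonneg h z)) (pl_le dr h k.1 (dr h.length k) (ph (dr h.length k) x))

lemma pr_row_eq (h : List (Zt F)) (l : Ln F) (k : Slot) :
    ∑ z, π1 dr h z * ind (row dr h.length z k = l) ≤
      if dr h.length k = l.1 then κ₀ / Fintype.card F else 0 := by
  split_ifs with e
  · refine le_trans (sum_le_sum fun z _ => mul_le_mul_of_nonneg_left (ind_mono fun e' => ?_)
      ((isK_π1 dr).nonneg h z)) (pl_le dr h k.1 (dr h.length k) l.2)
    exact congrArg Prod.snd e'
  · exact le_of_eq (sum_eq_zero fun z _ => by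
      rw [ind_false (fun e' => e (congrArg Prod.fst e')), mul_zero])

variable (dr) in
def kP (x : F × F) (s : ℕ) (z : Zt F) : Prop := ∃ k, On x (row dr s z k)

lemma pk_kP (x : F × F) (h : List (Zt F)) : pk (π1 dr) (kP dr) h x ≤ κ₁ / Fintype.card F := by
  have hq := card_pos' (F := F)
  refine (pr_union _ ((isK_π1 dr).nonneg h) _ _ fun z hz => hz).trans ?_
  refine (sum_le_card_mul _ fun k _ => pr_on_row h x k).trans ?_
  rw [card_slot, ← mul_div_assoc]
  refine div_le_div_of_nonneg_right ?_ hq.le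
  unfold κ₁; linarith [κ₀_ge]

lemma tailHyp_line (hq : 2 * κ₁ ≤ Fintype.card F) (l : Ln F) :
    TailHyp (π1 dr) (kP dr) (pts l) (fun s z => ∃ k, row dr s z k = l) κ₁ (Fintype.card F)
      (Fintype.card F) := by
  have hq0 := card_pos' (F := F)
  refine ⟨by linarith [κ₁_ge], hq, fun y _ h => pk_kP y h, by rw [card_pts], hq0,
    fun s z hx => ?_⟩
  refine (cnt_union _ _ _ fun y _ hy => hy).trans ?_
  refine (sum_le_card_mul 1 fun k _ => ?_).trans ?_
  · rw [sum_ind]
    exact_mod_cast card_inter_le fun e => hx ⟨k, e.symm⟩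
  · rw [card_slot, div_mul_cancel₀ _ hq0.ne']; linarith [κ₁_ge]

def Bad3 (dr : ℕ → Slot → Option F) (η : ℝ) (h : List (Zt F)) : Prop :=
  ∃ l ∈ (univ : Finset (Ln F)), Real.exp (28 * (κ₀ / Fintype.card F)) *
    ((1 + η) * Fintype.card F) ≤ Mass (π1 dr) (kP dr) (pts l) h

def Bad4 (dr : ℕ → Slot → Option F) (η : ℝ) (h : List (Zt F)) : Prop :=
  ∃ l ∈ (univ : Finset (Ln F)), (∀ s < h.length, ¬ ∃ k, row dr s (toF h s) k = l) ∧
    Mass (π1 dr) (kP dr) (pts l) h ≤ (pts l).card - η * Fintype.card F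

lemma N_le (hN : N = Fintype.card F + 1) : (N : ℝ) ≤ 2 * Fintype.card F := by
  have : 1 ≤ Fintype.card F := Fintype.card_pos
  exact_mod_cast (by omega)

lemma pr_bad3 (D : DrHyp N dr) (hN : N = Fintype.card F + 1) (hq : 2 * κ₁ ≤ Fintype.card F)
    {η : ℝ} (h0 : 0 ≤ η) (h1 : η ≤ 1) :
    Pr (π1 dr) N [] (Bad3 dr η) ≤ Fintype.card (Ln F) * eT η (Fintype.card F) := by
  have hq0 := card_pos' (F := F)
  have hk := κ₀_ge
  refine Pr_exists_le (isK_π1 dr) N [] univ _ _ fun l _ => ?_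
  refine tail_upper (isK_π1 dr) (tailHyp_line hq l) N (N_le hN) η h0 h1
    (fun s => ∑ k : Slot, if dr s k = l.1 then κ₀ / Fintype.card F else 0)
    (fun s => sum_nonneg fun k _ => by split_ifs <;> positivity) (fun g => ?_) _
    (D.sum_dir l.1 N le_rfl _ (by positivity))
  exact (pr_union _ ((isK_π1 dr).nonneg g) _ _ fun z hz => hz).trans
    (sum_le_sum fun k _ => pr_row_eq g l k)

lemma pr_bad4 (hN : N = Fintype.card F + 1) (hq : 2 * κ₁ ≤ Fintype.card F)
    {η : ℝ} (h0 : 0 ≤ η) (h1 : η ≤ 1) :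
    Pr (π1 dr) N [] (Bad4 dr η) ≤ Fintype.card (Ln F) * eT η (Fintype.card F) :=
  Pr_exists_le (isK_π1 dr) N [] univ _ _ fun l _ =>
    tail_lower (isK_π1 dr) (tailHyp_line hq l) N (N_le hN) η h0 h1

noncomputable def δ₀ : ℝ := 1 / (2 * Real.exp (4 * κ₁))

lemma mass_le_alive {ι : Type*} {kill : ι → ℕ → Zt F → Prop} {Y : Finset ι}
    {Exc : ℕ → Zt F → Prop} {y₀ : ℝ} (T : TailHyp (π1 dr) kill Y Exc κ₁ (Fintype.card F) y₀)
    {h : List (Zt F)} (hl : (h.length : ℝ) ≤ 2 * Fintype.card F) (p : ι → Prop) [DecidablePred p]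
    (hp : ∀ y ∈ Y, (∀ s < h.length, ¬ kill y s (toF h s)) → p y)
    (hM : (Fintype.card F : ℝ) / 2 ≤ Mass (π1 dr) kill Y h) :
    δ₀ * Fintype.card F ≤ (Y.filter p).card := by
  have hU := Real.exp_pos (4 * κ₁)
  have : Mass (π1 dr) kill Y h ≤ Real.exp (4 * κ₁) * (Y.filter p).card := by
    rw [← sum_ind, mul_sum]
    refine sum_le_sum fun y hy => ?_
    by_cases h0 : Wt (π1 dr) kill h y = 0
    · rw [h0]; exact mul_nonneg hU.le (ind_nonneg _)
    · rw [ind_true (hp y hy (Wt_alive h0)), mul_one]; exact (T.W (isK_π1 dr) hy h hl).2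
  unfold δ₀
  rw [div_mul_eq_mul_div, div_le_iff₀ (by positivity)]; linarith

lemma DrHyp.weak_dir (D : DrHyp N dr) (z : ℕ → Zt F) (d : Option F) :
    ((univ.filter (fun c : F => (d, c) ∈ WkL dr N z)).card : ℝ) ≤ 28 := by
  have h1 := D.sum_dir d N le_rfl 1 zero_le_one
  rw [← sum_product', ← sum_filter, sum_const, nsmul_eq_mul, mul_one, mul_one] at h1
  refine le_trans (Nat.cast_le.2 (le_trans (card_le_card fun c hc => ?_) (card_image_le
    (f := fun p : ℕ × Slot => (row dr p.1 (z p.1) p.2).2)))) h1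
  obtain ⟨t, ht, k, e⟩ := mem_WkL.1 (mem_filter.1 hc).2
  exact mem_image.2 ⟨(t, k), mem_filter.2 ⟨mem_product.2 ⟨mem_range.2 ht, mem_univ _⟩,
    congrArg Prod.fst e⟩, congrArg Prod.snd e⟩

lemma sum_lines (v : F × F → ℝ) (d : Option F) : ∑ x, v x = ∑ c : F, ls v (d, c) := by
  rw [← sum_fiberwise (s := univ) (g := ph d)]; rfl

lemma not_bad34 (D : DrHyp N dr) (hN : N = Fintype.card F + 1) (hq : 2 * κ₁ ≤ Fintype.card F)
    {η : ℝ} (h1 : η ≤ 1 / 2) (hη : 56 * κ₀ ≤ η * Fintype.card F) {h : List (Zt F)}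
    (hl : h.length = N) (b3 : ¬ Bad3 dr η h) (b4 : ¬ Bad4 dr η h) :
    (∃ v : F × F → ℝ, (∀ x ∈ Sset dr N (toF h), 1 ≤ v x) ∧ (∀ x ∉ Sset dr N (toF h), v x = 0) ∧
      (∀ l, ls v l ≤ (1 + η) ^ 2 * Fintype.card F) ∧
      (1 - η) ^ 2 * (Fintype.card F : ℝ) ^ 2 ≤ ∑ x, v x) ∧
    ∀ l ∉ WkL dr N (toF h), δ₀ * Fintype.card F ≤ sp (Sset dr N (toF h)) l := by
  have hq0 := card_pos' (F := F)
  have hk := κ₀_ge
  have hα := (tailHyp_line (dr := dr) hq (none, 0)).alpha
  have hη0 : 0 ≤ η := by nlinarith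
  have low : ∀ l ∉ WkL dr N (toF h), (1 - η) * Fintype.card F ≤ Mass (π1 dr) (kP dr) (pts l) h := by
    intro l hw
    by_contra hc
    refine b4 ⟨l, mem_univ _, fun s hs ⟨k, e⟩ => hw (mem_WkL.2 ⟨s, hl ▸ hs, k, e⟩), ?_⟩
    rw [card_pts]; linarith
  refine ⟨⟨Wt (π1 dr) (kP dr) h, fun x hx => ?_, fun x hx => ?_, fun l => ?_, ?_⟩, fun l hw => ?_⟩
  · exact Wt_ge_one (isK_π1 dr) hα (pk_kP x) h fun s hs ⟨k, e⟩ => mem_Sset.1 hx s (hl ▸ hs) k e
  · by_contra h0
    exact hx (mem_Sset.2 fun s hs k e => Wt_alive h0 s (hl ▸ hs) ⟨k, e⟩)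
  · have a1 : Mass (π1 dr) (kP dr) (pts l) h < _ := not_le.1 fun hc => b3 ⟨l, mem_univ _, hc⟩
    have a2 : 28 * (κ₀ / Fintype.card F) ≤ η / 2 := by
      rw [← mul_div_assoc, div_le_iff₀ hq0]; linarith
    have a3 : 0 ≤ 28 * (κ₀ / Fintype.card F) := by positivity
    have a4 := exp_le_quad (y := 28 * (κ₀ / Fintype.card F)) (by rw [abs_of_nonneg a3]; linarith)
    have a5 : Real.exp (28 * (κ₀ / Fintype.card F)) ≤ 1 + η := by nlinarith
    calc _ ≤ _ := a1.le
      _ ≤ (1 + η) * ((1 + η) * Fintype.card F) := by gcongr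
      _ = _ := by ring
  · rw [sum_lines _ none]
    have a1 := D.weak_dir (toF h) none
    have a2 := card_filter_add_card_filter_not (s := (univ : Finset F))
      (fun c => (none, c) ∈ WkL dr N (toF h))
    have a3 : ((univ.filter (fun c : F => (none, c) ∈ WkL dr N (toF h))).card : ℝ) +
        (univ.filter (fun c : F => ¬ (none, c) ∈ WkL dr N (toF h))).card = Fintype.card F := by
      exact_mod_cast a2
    calc _ ≤ (univ.filter (fun c : F => ¬ (none, c) ∈ WkL dr N (toF h))).card *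
          ((1 - η) * Fintype.card F) := by
          have : (1 - η) * Fintype.card F ≤
            (univ.filter (fun c : F => ¬ (none, c) ∈ WkL dr N (toF h))).card := by linarith
          nlinarith [mul_le_mul_of_nonneg_right this
            (mul_nonneg (by linarith : 0 ≤ 1 - η) hq0.le)]
      _ ≤ ∑ c ∈ univ.filter (fun c : F => ¬ (none, c) ∈ WkL dr N (toF h)),
          ls (Wt (π1 dr) (kP dr) h) (none, c) :=
          card_mul_le_sum _ fun c hc => low _ (mem_filter.1 hc).2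
      _ ≤ _ := sum_le_sum_of_subset_of_nonneg (subset_univ _) fun c _ _ =>
          (tailHyp_line hq (none, c)).mass_nonneg (isK_π1 dr) h
  · refine mass_le_alive (tailHyp_line hq l) (hl ▸ N_le hN) _
      (fun x _ hx => mem_Sset.2 fun s hs k e => hx s (hl ▸ hs) ⟨k, e⟩) ?_
    nlinarith [low l hw]

variable (dr) in
def kA (t : ℕ) (z₀ : Zt F) (j : Fin 13) (τ : F) (s : ℕ) (z : Zt F) : Prop :=
  s ≠ t ∧ ∃ k : Slot, k.2 ≠ some j ∧ ∃ k', On (kap dr t z₀ k j τ) (row dr s z k')

lemma tailHyp_pat (D : DrHyp N dr) (hq : 2 * κ₁ ≤ Fintype.card F) (t : ℕ) (z₀ : Zt F)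
    (j : Fin 13) : TailHyp (π1 dr) (kA dr t z₀ j) univ
      (fun s z => s ≠ t ∧ ∃ k k', row dr s z k' = row dr t z₀ k) κ₁ (Fintype.card F)
      (Fintype.card F) := by
  have hq0 := card_pos' (F := F)
  have hc : ((univ : Finset (Slot × Slot)).card : ℝ) = 784 := by simp
  refine ⟨by linarith [κ₁_ge], hq, fun τ _ h => ?_, by rw [card_univ], hq0, fun s z hx => ?_⟩
  · refine (pr_union _ ((isK_π1 dr).nonneg h) _
      (fun (p : Slot × Slot) z => On (kap dr t z₀ p.1 j τ) (row dr h.length z p.2))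
      fun z ⟨_, k, _, k', e⟩ => ⟨(k, k'), e⟩).trans ?_
    refine (sum_le_card_mul _ fun p _ => pr_on_row h _ _).trans ?_
    rw [hc, ← mul_div_assoc]; rfl
  · refine (cnt_union _ _ (fun (p : Slot × Slot) τ => s ≠ t ∧ p.1.2 ≠ some j ∧
      On (kap dr t z₀ p.1 j τ) (row dr s z p.2))
      fun τ _ ⟨h1, k, h2, k', e⟩ => ⟨(k, k'), h1, h2, e⟩).trans ?_
    refine (sum_le_card_mul 1 fun p _ => ?_).trans ?_
    · rw [sum_ind]
      by_cases h : s ≠ t ∧ p.1.2 ≠ some j
      · refine le_trans (Nat.cast_le.2 (card_le_card fun τ hτ => ?_)) (by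
          exact_mod_cast D.card_kap t z₀ h.2 (μ := row dr s z p.2) fun e => hx ⟨h.1, _, _, e⟩)
        simp only [mem_filter, mem_univ, true_and] at hτ ⊢; exact hτ.2.2
      · rw [filter_false_of_mem fun τ _ h' => h ⟨h'.1, h'.2.1⟩]; simp
    · rw [hc, div_mul_cancel₀ _ hq0.ne']; linarith [κ₁_ge]

def Bad5 (dr : ℕ → Slot → Option F) (N : ℕ) (h : List (Zt F)) : Prop :=
  ∃ p ∈ range N ×ˢ (univ : Finset (Zt F × Fin 13)),
    (∀ s < h.length, ¬ (s ≠ p.1 ∧ ∃ k k', row dr s (toF h s) k' = row dr p.1 p.2.1 k)) ∧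
    Mass (π1 dr) (kA dr p.1 p.2.1 p.2.2) univ h ≤ (univ : Finset F).card - 1 / 2 * Fintype.card F

lemma pr_bad5 (D : DrHyp N dr) (hN : N = Fintype.card F + 1) (hq : 2 * κ₁ ≤ Fintype.card F) :
    Pr (π1 dr) N [] (Bad5 dr N) ≤
      N * (Fintype.card F : ℝ) ^ 3 * 13 * eT (1 / 2) (Fintype.card F) := by
  refine (Pr_exists_le (isK_π1 dr) N [] _ _ _ fun p _ =>
    tail_lower (isK_π1 dr) (tailHyp_pat D hq p.1 p.2.1 p.2.2) N (N_le hN) (1 / 2)
      (by norm_num) (by norm_num)).trans (le_of_eq ?_)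
  simp only [card_product, card_range, card_univ, Fintype.card_prod, Fintype.card_fin, eT]
  push_cast; ring

lemma not_bad5 (D : DrHyp N dr) (hN : N = Fintype.card F + 1) (hq : 2 * κ₁ ≤ Fintype.card F)
    {h : List (Zt F)} (hl : h.length = N)
    (hconf : ∀ s < N, ∀ t < N, s ≠ t → ¬ Conf dr t (toF h t) s (toF h s)) (b5 : ¬ Bad5 dr N h) :
    ∀ t < N, ∀ j, δ₀ * Fintype.card F ≤ (A4 dr N (toF h) t (toF h t) j).card := by
  classical
  intro t ht j
  unfold A4
  convert mass_le_alive (tailHyp_pat D hq t (toF h t) j) (hl ▸ N_le hN)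
    (fun τ => ∀ s < N, ¬ (s ≠ t ∧ ∃ k : Slot, k.2 ≠ some j ∧ ∃ k',
      On (kap dr t (toF h t) k j τ) (row dr s (toF h s) k'))) (fun τ _ hτ => hl ▸ hτ) ?_
  by_contra hc
  refine b5 ⟨(t, toF h t, j), by simp [ht], fun s hs ⟨h1, k, k', e⟩ => ?_, ?_⟩
  · have := bs_on_row (dr := dr) t (toF h t) k
    rw [← e] at this
    exact hconf s (hl ▸ hs) t ht h1 ⟨k'.1, k.1, k', Or.inl this.symm⟩
  · rw [card_univ]; linarith

/-- line weight lemma -/
lemma pr_lw (D : DrHyp N dr) (g : Ln F → ℝ) (h0 : ∀ l, 0 ≤ g l) (h1 : ∀ l, g l ≤ 1) (G : ℝ)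
    (hG : ∑ l, g l ≤ G) (h₀ : List (Zt F)) (m : ℕ) (hm : h₀.length + m ≤ N) (θ x : ℝ)
    (hθ : 0 ≤ θ) :
    Pr (π1 dr) m h₀ (fun h => x ≤ ∑ s ∈ Ico h₀.length (h₀.length + m),
      ∑ k, g (row dr s (toF h s) k)) ≤
      Real.exp (-(θ * x / 28) + Real.exp θ * (κ₀ * G / Fintype.card F)) := by
  have hq0 := card_pos' (F := F)
  have hk := κ₀_ge
  let b : ℕ → ℝ := fun s => (∑ k, ∑ l, (if dr s k = l.1 then κ₀ / Fintype.card F else 0) * g l) / 28
  have hb0 : ∀ s, 0 ≤ b s := fun s => div_nonneg (sum_nonneg fun k _ => sum_nonneg fun l _ =>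
    mul_nonneg (by split_ifs <;> positivity) (h0 l)) (by norm_num)
  have key := Pr_exp (isK_π1 dr) (fun s z => (∑ k, g (row dr s z k)) / 28) b h₀ m
    (fun s z => div_nonneg (sum_nonneg fun k _ => h0 _) (by norm_num))
    (fun s z => by
      rw [div_le_one (by norm_num)]
      simpa using sum_le_card_mul (s := (univ : Finset Slot)) 1 fun k _ => h1 (row dr s z k))
    (fun h => by
      simp only [b, ← mul_div_assoc, ← sum_div, mul_sum]
      refine div_le_div_of_nonneg_right ?_ (by norm_num)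
      rw [sum_comm]
      refine sum_le_sum fun k _ => ?_
      calc ∑ z, π1 dr h z * g (row dr h.length z k)
          = ∑ z, ∑ l, π1 dr h z * ind (row dr h.length z k = l) * g l := by
            refine sum_congr rfl fun z _ => ?_
            rw [sum_eq_single (row dr h.length z k) (fun l _ hl => by
              rw [ind_false (Ne.symm hl)]; simp) (by simp), ind_true rfl, mul_one]
        _ ≤ _ := by
            rw [sum_comm]
            exact sum_le_sum fun l _ => by
              rw [← sum_mul]; exact mul_le_mul_of_nonneg_right (pr_row_eq h l k) (h0 l))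
    θ (x / 28) hθ
  refine le_trans (Pr_mono (isK_π1 dr) m h₀ fun l _ hE => ?_) (key.trans (Real.exp_le_exp.2 ?_))
  · rw [← sum_div]; exact div_le_div_of_nonneg_right hE (by norm_num)
  · have a1 : ∑ s ∈ Ico h₀.length (h₀.length + m), b s ≤ κ₀ * G / Fintype.card F := by
      calc _ ≤ ∑ s ∈ range N, b s := sum_le_sum_of_subset_of_nonneg
            (fun s hs => mem_range.2 (by have := (mem_Ico.1 hs).2; omega)) fun s _ _ => hb0 s
        _ = (∑ l, (∑ s ∈ range N, ∑ k : Slot,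
              (if dr s k = l.1 then κ₀ / Fintype.card F else 0)) * g l) / 28 := by
            simp only [b, ← sum_div, sum_mul]
            congr 1
            rw [sum_comm (s := univ) (t := range N)]
            exact sum_congr rfl fun s _ => sum_comm
        _ ≤ (∑ l, 28 * (κ₀ / Fintype.card F) * g l) / 28 := by
            refine div_le_div_of_nonneg_right (sum_le_sum fun l _ => ?_) (by norm_num)
            exact mul_le_mul_of_nonneg_right (D.sum_dir l.1 N le_rfl _ (by positivity)) (h0 l)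
        _ = κ₀ * (∑ l, g l) / Fintype.card F := by rw [← mul_sum]; ring
        _ ≤ _ := by gcongr
    have a2 : 0 ≤ ∑ s ∈ Ico h₀.length (h₀.length + m), b s := sum_nonneg fun s _ => hb0 s
    have a3 := mul_le_mul_of_nonneg_left a1 (Real.exp_pos θ).le
    rw [mul_div_assoc θ x 28]
    linarith

/-- the stage lemma -/
lemma pr_stage (D : DrHyp N dr) (a : F × F → ℝ) (h0 : ∀ x, 0 ≤ a x)
    (h1 : ∀ l, ls a l ≤ Fintype.card F) (hA : 0 < ∑ x, a x) (h₀ : List (Zt F))
    (hsupp : ∀ x ∉ Sset dr h₀.length (toF h₀), a x = 0) (m n₁ : ℕ) (hm : h₀.length + m ≤ N)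
    (hn₁ : n₁ ≤ h₀.length + m) (hn : 28 * ((n₁ - h₀.length : ℕ) : ℝ) ≤ Fintype.card F / 8)
    (θ : ℝ) (hθ : 0 ≤ θ) :
    Pr (π1 dr) m h₀ (fun h => 2 * ∑ x ∈ Sset dr n₁ (toF h), a x < ∑ x, a x) ≤
      Real.exp (-(θ * (∑ x, a x) / (112 * Fintype.card F)) +
        Real.exp θ * (2 * κ₀ * (∑ x, a x ^ 2) / ∑ x, a x)) := by
  classical
  have hq0 := card_pos' (F := F)
  have hmix := mixing a
  set A := ∑ x, a x with hAdef
  set V := ∑ x, a x ^ 2
  set Q : ℝ := (Fintype.card F : ℝ) with hQ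
  have hls : ∀ l, 0 ≤ ls a l := fun l => sum_nonneg fun x _ => h0 x
  let g : Ln F → ℝ := fun l => if 2 * A / Q < ls a l then ls a l / Q else 0
  have hg0 : ∀ l, 0 ≤ g l := fun l => by
    simp only [g]; split_ifs; exacts [div_nonneg (hls l) hq0.le, le_rfl]
  have hG : ∑ l, g l ≤ 2 * Q * V / A := by
    calc ∑ l, g l ≤ ∑ l, 2 / A * (ls a l - A / Q) ^ 2 := by
          refine sum_le_sum fun l _ => ?_
          simp only [g]; split_ifs with h
          · have e : ls a l / Q = 2 / A * (ls a l / 2 * (A / Q)) := by field_simp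
            rw [e, sq]
            have h2 : 2 * (A / Q) < ls a l := by rwa [← mul_div_assoc]
            have h3 : 0 < A / Q := by positivity
            gcongr <;> linarith
          · positivity
      _ ≤ 2 / A * (Q * V) := by rw [← mul_sum]; gcongr
      _ = _ := by ring
  refine le_trans (Pr_mono (isK_π1 dr) m h₀ fun l hl hE => ?_) ((pr_lw D g hg0
    (fun l => by
      simp only [g]; split_ifs; exacts [(div_le_one hq0).2 (h1 l), zero_le_one])
    _ hG h₀ m hm θ (A / (4 * Q)) hθ).trans (le_of_eq ?_))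
  · set h := l ++ h₀
    have e1 : A ≤ ∑ x ∈ Sset dr n₁ (toF h), a x +
        ∑ s ∈ Ico h₀.length n₁, ∑ k, ls a (row dr s (toF h s) k) := by
      simp only [ls_eq]
      rw [← sum_filter_add_sum_filter_not univ (fun x => x ∈ Sset dr n₁ (toF h)) a |>.trans
        hAdef.symm, filter_mem_eq_inter, univ_inter]
      refine add_le_add le_rfl ?_
      rw [show ∑ s ∈ Ico h₀.length n₁, ∑ k, ∑ x, (if On x (row dr s (toF h s) k) then a x else 0) =
        ∑ x, ∑ s ∈ Ico h₀.length n₁, ∑ k, (if On x (row dr s (toF h s) k) then a x else 0) by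
          rw [sum_comm (s := univ)]; exact sum_congr rfl fun s _ => sum_comm]
      rw [sum_filter]
      refine sum_le_sum fun x _ => ?_
      have nn : ∀ s k, 0 ≤ (if On x (row dr s (toF h s) k) then a x else 0) := fun s k => by
        split_ifs; exacts [h0 x, le_rfl]
      split_ifs with hx
      · exact sum_nonneg fun s _ => sum_nonneg fun k _ => nn s k
      · by_cases hx0 : x ∈ Sset dr h₀.length (toF h₀)
        · rw [mem_Sset] at hx hx0
          push Not at hx
          obtain ⟨s, hs, k, hon⟩ := hx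
          have hs' : h₀.length ≤ s := by
            by_contra hc
            rw [toF_append _ _ (not_le.1 hc)] at hon
            exact hx0 s (not_le.1 hc) k hon
          refine le_trans ?_ (single_le_sum (f := fun s => ∑ k,
            (if On x (row dr s (toF h s) k) then a x else 0))
            (fun s _ => sum_nonneg fun k _ => nn s k) (mem_Ico.2 ⟨hs', hs⟩))
          refine le_trans ?_ (single_le_sum (f := fun k =>
            (if On x (row dr s (toF h s) k) then a x else 0)) (fun k _ => nn s k) (mem_univ k))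
          simp only [if_pos hon, le_refl]
        · rw [hsupp x hx0]; exact sum_nonneg fun s _ => sum_nonneg fun k _ => by simp
    have e2 : ∑ s ∈ Ico h₀.length n₁, ∑ k, ls a (row dr s (toF h s) k) ≤
        ∑ s ∈ Ico h₀.length n₁, (28 * (2 * A / Q) + Q * ∑ k, g (row dr s (toF h s) k)) := by
      refine sum_le_sum fun s _ => ?_
      rw [← card_slot, ← nsmul_eq_mul, ← sum_const, mul_sum _ _ Q, ← sum_add_distrib]
      refine sum_le_sum fun k _ => ?_
      simp only [g]; split_ifs with h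
      · rw [mul_div_cancel₀ _ hq0.ne']
        have : 0 ≤ 2 * A / Q := by positivity
        linarith
      · linarith
    rw [sum_add_distrib, sum_const, Nat.card_Ico, nsmul_eq_mul, ← mul_sum] at e2
    have e3 : ((n₁ - h₀.length : ℕ) : ℝ) * (28 * (2 * A / Q)) ≤ A / 4 := by
      calc _ = (28 * ((n₁ - h₀.length : ℕ) : ℝ)) * (2 * A / Q) := by ring
        _ ≤ Q / 8 * (2 * A / Q) := by gcongr
        _ = _ := by field_simp; ring
    have e4 : ∑ s ∈ Ico h₀.length n₁, ∑ k, g (row dr s (toF h s) k) ≤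
        ∑ s ∈ Ico h₀.length (h₀.length + m), ∑ k, g (row dr s (toF h s) k) :=
      sum_le_sum_of_subset_of_nonneg (Ico_subset_Ico_right hn₁)
        fun s _ _ => sum_nonneg fun k _ => hg0 _
    rw [div_le_iff₀ (by positivity)]
    nlinarith [mul_le_mul_of_nonneg_left e4 hq0.le]
  · congr 1; field_simp; ring

end Crest.Agent.H7.Ry
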