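import Crest.Agent.H7.RyL

set_option autoImplicit false
set_option linter.unusedSectionVars false

open Finset

namespace Crest.Agent.H7.Ry

variable {F : Type*} [Field F] [Fintype F] [DecidableEq F]
variable {dr : ℕ → Slot → Option F} {N : ℕ}

lemma sum_ind_mem (T : Finset (Ln F)) : ∑ l, ind (l ∈ T) = T.card := by
  rw [sum_ind, filter_mem_eq_inter, univ_inter]

def Bad6 (dr : ℕ → Slot → Option F) (N : ℕ) (x : ℝ) (h : List (Zt F)) : Prop :=
  ∃ P ∈ (univ : Finset ((F × F) ⊕ Option F)), x ≤ (Gs dr N (toF h) P).card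

lemma pr_bad6 (D : DrHyp N dr) (x : ℝ) :
    Pr (π1 dr) N [] (Bad6 dr N x) ≤
      Fintype.card ((F × F) ⊕ Option F) * Real.exp (-(x / 28) + 6 * κ₀) := by
  classical
  have hq0 := card_pos' (F := F)
  have hq1 : (1:ℝ) ≤ Fintype.card F := by exact_mod_cast Fintype.card_pos
  have hk := κ₀_ge
  refine Pr_exists_le (isK_π1 dr) N [] univ _ _ fun P _ => ?_
  refine le_trans (Pr_mono (isK_π1 dr) N [] fun l _ hE => ?_) ((pr_lw D (fun l => ind (l ∈ pencil P))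
    (fun _ => ind_nonneg _) (fun _ => ind_le_one _) (2 * Fintype.card F) ?_ [] N (by simp) 1 x
    zero_le_one).trans (Real.exp_le_exp.2 ?_))
  · refine hE.trans ?_
    simp only [List.length_nil, zero_add, Nat.Ico_zero_eq_range]
    unfold Gs
    rw [← sum_ind]
    exact sum_le_sum fun s _ => le_trans (ind_mono fun h => by simpa using h)
      (ind_exists_le univ fun k => row dr s (toF (l ++ []) s) k ∈ pencil P)
  · rw [sum_ind_mem]
    have : ((pencil P).card : ℝ) ≤ Fintype.card F + 1 := by exact_mod_cast (card_pencil P).2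
    linarith
  · have : κ₀ * (2 * Fintype.card F) / Fintype.card F = 2 * κ₀ := by field_simp
    rw [this]
    nlinarith [Real.exp_one_lt_d9]

/-- small families of lines -/
noncomputable def Small (F : Type*) [Fintype F] [DecidableEq F] (k : ℝ) : Finset (Finset (Ln F)) :=
  (univ : Finset (Ln F)).powerset.filter (fun B => B.card ≤ ⌊k⌋₊)

lemma mem_Small {k : ℝ} {B : Finset (Ln F)} (h : (B.card : ℝ) ≤ k) : B ∈ Small F k :=
  mem_filter.2 ⟨mem_powerset.2 (subset_univ _), Nat.le_floor h⟩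

lemma card_Small {k θ : ℝ} (hk : 0 ≤ k) (hθ : 0 ≤ θ)
    (hL : (Fintype.card (Ln F) : ℝ) + 1 ≤ Real.exp (12 * θ)) :
    ((Small F k).card : ℝ) ≤ Real.exp (12 * θ * k) := by
  have h1 := card_small_subsets (univ : Finset (Ln F)) ⌊k⌋₊
  rw [card_univ] at h1
  calc ((Small F k).card : ℝ) ≤ ((Fintype.card (Ln F) : ℝ) + 1) ^ ⌊k⌋₊ := by exact_mod_cast h1
    _ ≤ Real.exp (12 * θ) ^ ⌊k⌋₊ := by gcongr
    _ = Real.exp (12 * θ * ⌊k⌋₊) := by rw [← Real.exp_nat_mul, mul_comm]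
    _ ≤ _ := by gcongr; exact Nat.floor_le hk

def nj (b N j : ℕ) : ℕ := min (j * b) N

lemma nj_le (b N j : ℕ) : nj b N j ≤ N := min_le_right _ _
lemma nj_mono (b N j : ℕ) : nj b N j ≤ nj b N (j + 1) :=
  min_le_min_right _ (Nat.mul_le_mul_right _ (Nat.le_succ j))
lemma nj_sub (b N j : ℕ) : nj b N (j + 1) - nj b N j ≤ b := by
  unfold nj; rw [Nat.succ_mul]; omega

lemma Sset_append (l h₀ : List (Zt F)) :
    Sset dr h₀.length (toF (l ++ h₀)) = Sset dr h₀.length (toF h₀) := by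
  ext x; simp only [mem_Sset]
  exact forall₂_congr fun s hs => by rw [toF_append _ _ hs]

lemma Sset_mono {n n' : ℕ} (h : n ≤ n') (z : ℕ → Zt F) : Sset dr n' z ⊆ Sset dr n z :=
  fun _ hx => mem_Sset.2 fun s hs => mem_Sset.1 hx s (by omega)

lemma sum_if_mem (S T : Finset (F × F)) (h : T ⊆ S) (f : F × F → ℝ) :
    ∑ x ∈ T, (if x ∈ S then f x else 0) = ∑ x ∈ T, f x :=
  sum_congr rfl fun _ hx => if_pos (h hx)

lemma sum_if_univ (S : Finset (F × F)) (f : F × F → ℝ) :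
    ∑ x, (if x ∈ S then f x else 0) = ∑ x ∈ S, f x := by
  rw [← sum_filter, filter_mem_eq_inter, univ_inter]

def Bad7 (dr : ℕ → Slot → Option F) (N b : ℕ) (δ ρ τ C₁ : ℝ) (j : ℕ) (h : List (Zt F)) : Prop :=
  ∃ L' : Finset (Ln F), (L'.card : ℝ) ≤ 2 * ρ * Fintype.card F ∧
    ((Cont (Sset dr (nj b N j) (toF h)) δ ρ L').card : ℝ) ≤ C₁ * Fintype.card F ∧
    ∃ B ⊆ Cont (Sset dr (nj b N j) (toF h)) δ ρ L', B.card ≤ Fintype.card F ∧
    τ * (Fintype.card F : ℝ) ^ 2 ≤ Xs (Sset dr (nj b N j) (toF h)) B ∧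
    2 * Xs (Sset dr (nj b N (j + 1)) (toF h)) B < Xs (Sset dr (nj b N j) (toF h)) B

lemma pr_bad7 (D : DrHyp N dr) (b : ℕ) (hb : 28 * (b : ℝ) ≤ Fintype.card F / 8)
    (δ ρ τ C₁ θ : ℝ) (hρ : 0 ≤ ρ) (hτ : 0 < τ) (hθ : 0 ≤ θ)
    (hL : (Fintype.card (Ln F) : ℝ) + 1 ≤ Real.exp (12 * θ)) (j : ℕ) :
    Pr (π1 dr) N [] (Bad7 dr N b δ ρ τ C₁ j) ≤
      Real.exp (12 * θ * (2 * ρ * Fintype.card F) + C₁ * Fintype.card F +
        (-(θ * τ * Fintype.card F / 112) + Real.exp θ * (2 * κ₀ / τ))) := by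
  classical
  have hq0 := card_pos' (F := F)
  have hk := κ₀_ge
  obtain ⟨m, hm⟩ := Nat.exists_eq_add_of_le (nj_le b N j)
  conv_lhs => rw [show Pr (π1 dr) N = Pr (π1 dr) (nj b N j + m) by rw [← hm]]
  refine Pr_cond (isK_π1 dr) _ _ _ _ fun h₀ hl => ?_
  set S₀ := Sset dr h₀.length (toF h₀)
  let Fam := (((Small F (2 * ρ * Fintype.card F)).filter (fun L' =>
    ((Cont S₀ δ ρ L').card : ℝ) ≤ C₁ * Fintype.card F)).biUnion
      (fun L' => (Cont S₀ δ ρ L').powerset)).filter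
      (fun B => B.card ≤ Fintype.card F ∧ τ * (Fintype.card F : ℝ) ^ 2 ≤ Xs S₀ B)
  let a : Finset (Ln F) → F × F → ℝ := fun B x => if x ∈ S₀ then ((mu B x - 1 : ℕ) : ℝ) else 0
  have ha : ∀ B, ∑ x, a B x = Xs S₀ B := fun B => sum_if_univ _ _
  refine le_trans (Pr_mono (isK_π1 dr) m h₀ (E' := fun h => ∃ B ∈ Fam,
    2 * ∑ x ∈ Sset dr (nj b N (j + 1)) (toF h), a B x < ∑ x, a B x) fun l _ hE => ?_)
    ((Pr_exists_le (isK_π1 dr) m h₀ Fam _ (Real.exp (-(θ * τ * Fintype.card F / 112) +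
      Real.exp θ * (2 * κ₀ / τ))) fun B hB => ?_).trans ?_)
  · obtain ⟨L', h1, h2, B, h3, h4, h5, h6⟩ := hE
    rw [← hl, Sset_append] at h2 h3 h5 h6
    refine ⟨B, mem_filter.2 ⟨mem_biUnion.2 ⟨L', mem_filter.2 ⟨mem_Small h1, h2⟩,
      mem_powerset.2 h3⟩, h4, h5⟩, ?_⟩
    rw [ha, sum_if_mem]
    · exact h6
    · rw [show S₀ = _ from (Sset_append l h₀).symm, hl]; exact Sset_mono (nj_mono _ _ _) _
  · obtain ⟨-, h4, h5⟩ := mem_filter.1 hB
    have h4' : (B.card : ℝ) ≤ Fintype.card F := by exact_mod_cast h4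
    have hA : 0 < ∑ x, a B x := by rw [ha]; exact lt_of_lt_of_le (by positivity) h5
    refine (pr_stage D (a B) (fun x => by simp only [a]; split_ifs <;> positivity) (fun l => ?_) hA
      h₀ (fun x hx => if_neg hx) m (nj b N (j + 1)) (by omega) (by rw [hl, ← hm]; exact nj_le _ _ _)
      (le_trans (by rw [hl]; gcongr; exact nj_sub _ _ _) hb) θ hθ).trans (Real.exp_le_exp.2 ?_)
    · have a1 : ((∑ x ∈ pts l, mu (B.erase l) x : ℕ) : ℝ) ≤ Fintype.card F := by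
        exact_mod_cast (ls_mu_le (notMem_erase l B)).trans (card_erase_le.trans h4)
      refine le_trans ?_ a1
      push_cast
      refine sum_le_sum fun x hx => ?_
      simp only [a]; split_ifs
      · by_cases hlB : l ∈ B
        · rw [mu_erase hlB (mem_pts.1 hx)]; simp
        · rw [erase_eq_of_notMem hlB]; exact_mod_cast Nat.sub_le _ _
      · positivity
    · have a1 : ∑ x, a B x ^ 2 ≤ (Fintype.card F : ℝ) ^ 2 := by
        refine le_trans (sum_le_sum fun x _ => ?_) ((sum_mu_pred B).trans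
          (pow_le_pow_left₀ (Nat.cast_nonneg _) h4' 2))
        simp only [a]
        rcases mu B x with _ | n
        · simp
        · simp only [Nat.add_sub_cancel]; push_cast
          split_ifs <;> nlinarith [(Nat.cast_nonneg n : (0:ℝ) ≤ n)]
      rw [← ha] at h5
      have a2 : θ * τ * Fintype.card F / 112 ≤ θ * (∑ x, a B x) / (112 * Fintype.card F) := by
        rw [div_le_div_iff₀ (by norm_num) (by positivity)]
        nlinarith [mul_le_mul_of_nonneg_left h5 hθ]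
      have a3 : 2 * κ₀ * (∑ x, a B x ^ 2) / ∑ x, a B x ≤ 2 * κ₀ / τ := by
        rw [div_le_div_iff₀ hA hτ]
        nlinarith [mul_le_mul_of_nonneg_left a1 hτ.le]
      linarith [mul_le_mul_of_nonneg_left a3 (Real.exp_pos θ).le]
  · rw [Real.exp_add (_ + _), Real.exp_add (12 * θ * _)]
    refine mul_le_mul_of_nonneg_right ?_ (Real.exp_pos _).le
    refine le_trans (Nat.cast_le.2 ((card_filter_le _ _).trans card_biUnion_le)) ?_
    push_cast
    refine (sum_le_card_mul (Real.exp (C₁ * Fintype.card F)) fun L' hL' => ?_).trans ?_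
    · rw [card_powerset]; push_cast
      calc (2:ℝ) ^ (Cont S₀ δ ρ L').card ≤ Real.exp 1 ^ (Cont S₀ δ ρ L').card := by
            gcongr; linarith [Real.add_one_le_exp 1]
        _ = Real.exp (Cont S₀ δ ρ L').card := by rw [← Real.exp_nat_mul, mul_one]
        _ ≤ _ := Real.exp_le_exp.2 (mem_filter.1 hL').2
    · gcongr
      exact le_trans (Nat.cast_le.2 (card_filter_le _ _)) (card_Small (by positivity) hθ hL)

def Bad8 (dr : ℕ → Slot → Option F) (N : ℕ) (ε₂ r₀ : ℝ) (h : List (Zt F)) : Prop :=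
  ∃ u ∈ range (Fintype.card F ^ 2 + 1), r₀ ≤ (u : ℝ) / Fintype.card F ∧
    ∃ L' : Finset (Ln F), (L'.card : ℝ) ≤ 2 * ε₂ * (u / Fintype.card F) ∧
    ((Cont2 (ε₂ ^ 2 * (u / Fintype.card F) / 400) L').card : ℝ) ≤ (1 + 56) * Fintype.card F ∧
    (u : ℝ) / Fintype.card F / 4 ≤
      (WkL dr N (toF h) ∩ Cont2 (ε₂ ^ 2 * (u / Fintype.card F) / 400) L').card

lemma Pr_false {Z : Type*} [Fintype Z] {π : List Z → Z → ℝ} (hπ : IsK π) (m : ℕ) (h : List Z)
    (p : Prop) (E : List Z → Prop) (ε : ℝ) (hε : 0 ≤ ε) (H : p → Pr π m h E ≤ ε) :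
    Pr π m h (fun g => p ∧ E g) ≤ ε := by
  by_cases hp : p
  · exact (Pr_mono hπ m h fun _ _ h => h.2).trans (H hp)
  · refine le_trans ?_ hε
    rw [← Ex_const hπ m h 0]
    exact Ex_mono hπ m h fun l _ => (ind_false fun h => hp h.1).le

lemma pr_bad8 (D : DrHyp N dr) (ε₂ r₀ θ : ℝ) (hε : 0 ≤ ε₂) (hε' : 24 * 224 * ε₂ ≤ 1)
    (hr₀ : 0 ≤ r₀) (hθ : 0 ≤ θ) (hL : (Fintype.card (Ln F) : ℝ) + 1 ≤ Real.exp (12 * θ)) :
    Pr (π1 dr) N [] (Bad8 dr N ε₂ r₀) ≤ (Fintype.card F ^ 2 + 1) *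
      Real.exp (-(θ * r₀ / 224) + Real.exp θ * (57 * κ₀)) := by
  classical
  have hq0 := card_pos' (F := F)
  have hk := κ₀_ge
  refine (Pr_exists_le (isK_π1 dr) N [] _ _ _ fun u _ => Pr_false (isK_π1 dr) N [] _ _ _
    (Real.exp_pos _).le fun hu => ?_).trans (by rw [card_range]; push_cast; exact le_rfl)
  set r : ℝ := u / Fintype.card F
  have hr : 0 ≤ r := hr₀.trans hu
  refine le_trans (Pr_mono (isK_π1 dr) N [] (E' := fun h => ∃ L' ∈ Small F (2 * ε₂ * r),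
    ((Cont2 (ε₂ ^ 2 * r / 400) L').card : ℝ) ≤ (1 + 56) * Fintype.card F ∧
    r / 4 ≤ (WkL dr N (toF h) ∩ Cont2 (ε₂ ^ 2 * r / 400) L').card)
    fun l _ ⟨L', h1, h2⟩ => ⟨L', mem_Small h1, h2⟩)
    ((Pr_exists_le (isK_π1 dr) N [] _ _ (Real.exp (-(θ * (r / 4) / 28) + Real.exp θ * (57 * κ₀)))
      fun L' _ => Pr_false (isK_π1 dr) N [] _ _ _ (Real.exp_pos _).le fun hc => ?_).trans ?_)
  · refine le_trans (Pr_mono (isK_π1 dr) N [] fun l _ hE => ?_) ((pr_lw D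
      (fun l => ind (l ∈ Cont2 (ε₂ ^ 2 * r / 400) L')) (fun _ => ind_nonneg _)
      (fun _ => ind_le_one _) ((1 + 56) * Fintype.card F) (by rw [sum_ind_mem]; exact hc) [] N (by simp) θ (r / 4) hθ).trans
      (le_of_eq ?_))
    · refine hE.trans ?_
      simp only [List.length_nil, zero_add, Nat.Ico_zero_eq_range]
      rw [← sum_product', sum_ind]
      refine Nat.cast_le.2 (le_trans (card_le_card fun m hm => ?_) (card_image_le
        (f := fun p : ℕ × Slot => row dr p.1 (toF (l ++ []) p.1) p.2)))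
      obtain ⟨h1, h2⟩ := mem_inter.1 hm
      obtain ⟨t, ht, k, rfl⟩ := mem_WkL.1 h1
      exact mem_image.2 ⟨(t, k), mem_filter.2 ⟨mem_product.2 ⟨mem_range.2 ht, mem_univ _⟩, h2⟩, rfl⟩
    · congr 2; field_simp; ring
  · refine (mul_le_mul_of_nonneg_right (card_Small (by positivity) hθ hL)
      (Real.exp_pos _).le).trans ?_
    rw [← Real.exp_add]
    refine Real.exp_le_exp.2 ?_
    nlinarith [mul_le_mul_of_nonneg_left hu hθ, mul_le_mul_of_nonneg_right hε' (mul_nonneg hθ hr)]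

def Bad9 (dr : ℕ → Slot → Option F) (N b J : ℕ) (ε₂ r₀ : ℝ) (j : ℕ) (h : List (Zt F)) : Prop :=
  ∃ u ∈ range (Fintype.card F ^ 2 + 1), r₀ ≤ (u : ℝ) / Fintype.card F ∧
    ∃ L' : Finset (Ln F), (L'.card : ℝ) ≤ 2 * ε₂ * (u / Fintype.card F) ∧
    (u : ℝ) / 2 ^ (J + 1) ≤ (Unc (Cont2 (ε₂ ^ 2 * (u / Fintype.card F) / 400) L') ∩
      Sset dr (nj b N j) (toF h)).card ∧
    2 * (Unc (Cont2 (ε₂ ^ 2 * (u / Fintype.card F) / 400) L') ∩
      Sset dr (nj b N (j + 1)) (toF h)).card <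
    (Unc (Cont2 (ε₂ ^ 2 * (u / Fintype.card F) / 400) L') ∩ Sset dr (nj b N j) (toF h)).card

lemma pr_bad9 (D : DrHyp N dr) (b : ℕ) (hb : 28 * (b : ℝ) ≤ Fintype.card F / 8) (J : ℕ)
    (ε₂ r₀ θ : ℝ) (hε : 0 ≤ ε₂) (hε' : 24 * 224 * 2 ^ (J + 1) * ε₂ ≤ 1)
    (hr₀ : 0 < r₀) (hθ : 0 ≤ θ) (hL : (Fintype.card (Ln F) : ℝ) + 1 ≤ Real.exp (12 * θ)) (j : ℕ) :
    Pr (π1 dr) N [] (Bad9 dr N b J ε₂ r₀ j) ≤ (Fintype.card F ^ 2 + 1) *
      Real.exp (-(θ * r₀ / (224 * 2 ^ (J + 1))) + Real.exp θ * (2 * κ₀)) := by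
  classical
  have hq0 := card_pos' (F := F)
  have hk := κ₀_ge
  obtain ⟨m, hm⟩ := Nat.exists_eq_add_of_le (nj_le b N j)
  conv_lhs => rw [show Pr (π1 dr) N = Pr (π1 dr) (nj b N j + m) by rw [← hm]]
  refine Pr_cond (isK_π1 dr) _ _ _ _ fun h₀ hl => ?_
  set S₀ := Sset dr h₀.length (toF h₀)
  refine (Pr_exists_le (isK_π1 dr) m h₀ _ _ _ fun u _ => Pr_false (isK_π1 dr) m h₀ _ _ _
    (Real.exp_pos _).le fun hu => ?_).trans (by rw [card_range]; push_cast; exact le_rfl)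
  set r : ℝ := u / Fintype.card F with hrdef
  have hr : 0 < r := hr₀.trans_le hu
  have hur : (u : ℝ) = r * Fintype.card F := by rw [hrdef]; field_simp
  let a : Finset (Ln F) → F × F → ℝ := fun L' x =>
    if x ∈ Unc (Cont2 (ε₂ ^ 2 * r / 400) L') ∩ S₀ then 1 else 0
  have ha : ∀ L', ∑ x, a L' x = (Unc (Cont2 (ε₂ ^ 2 * r / 400) L') ∩ S₀).card := fun L' => by
    simp only [a]; rw [sum_if_univ]; simp
  refine le_trans (Pr_mono (isK_π1 dr) m h₀ (E' := fun h => ∃ L' ∈ Small F (2 * ε₂ * r),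
    (u : ℝ) / 2 ^ (J + 1) ≤ ∑ x, a L' x ∧
    2 * ∑ x ∈ Sset dr (nj b N (j + 1)) (toF h), a L' x < ∑ x, a L' x)
    fun l _ ⟨L', h1, h2, h3⟩ => ⟨L', mem_Small h1, ?_⟩)
    ((Pr_exists_le (isK_π1 dr) m h₀ _ _
      (Real.exp (-(θ * r / (112 * 2 ^ (J + 1))) + Real.exp θ * (2 * κ₀)))
      fun L' _ => Pr_false (isK_π1 dr) m h₀ _ _ _ (Real.exp_pos _).le fun hc => ?_).trans ?_)
  · rw [← hl, Sset_append] at h2 h3
    rw [ha]
    refine ⟨h2, lt_of_le_of_lt ?_ (Nat.cast_lt.2 h3)⟩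
    simp only [a]
    rw [← sum_filter, sum_const, nsmul_eq_mul, mul_one]
    have : (Sset dr (nj b N (j + 1)) (toF (l ++ h₀))).filter
        (fun x => x ∈ Unc (Cont2 (ε₂ ^ 2 * r / 400) L') ∩ S₀) ⊆
        Unc (Cont2 (ε₂ ^ 2 * r / 400) L') ∩ Sset dr (nj b N (j + 1)) (toF (l ++ h₀)) :=
      fun x hx => mem_inter.2 ⟨(mem_inter.1 (mem_filter.1 hx).2).1, (mem_filter.1 hx).1⟩
    exact_mod_cast Nat.mul_le_mul_left 2 (card_le_card this)
  · have hA : 0 < ∑ x, a L' x := lt_of_lt_of_le (by rw [hur]; positivity) hc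
    refine (pr_stage D (a L') (fun x => by simp only [a]; split_ifs <;> positivity) (fun l => ?_) hA
      h₀ (fun x hx => if_neg fun h => hx (mem_inter.1 h).2) m (nj b N (j + 1)) (by omega)
      (by rw [hl, ← hm]; exact nj_le _ _ _)
      (le_trans (by rw [hl]; gcongr; exact nj_sub _ _ _) hb) θ hθ).trans (Real.exp_le_exp.2 ?_)
    · rw [← card_pts l, ← mul_one ((pts l).card : ℝ)]
      exact sum_le_card_mul 1 fun x _ => by simp only [a]; split_ifs <;> norm_num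
    · have a1 : ∑ x, a L' x ^ 2 = ∑ x, a L' x :=
        sum_congr rfl fun x _ => by simp only [a]; split_ifs <;> norm_num
      rw [a1, mul_div_assoc (2 * κ₀), div_self hA.ne', mul_one]
      have a2 : θ * r / (112 * 2 ^ (J + 1)) ≤ θ * (∑ x, a L' x) / (112 * Fintype.card F) := by
        rw [hur, div_le_iff₀ (by positivity)] at hc
        rw [div_le_div_iff₀ (by positivity) (by positivity)]
        nlinarith [mul_le_mul_of_nonneg_left hc hθ]
      linarith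
  · refine (mul_le_mul_of_nonneg_right (card_Small (by positivity) hθ hL)
      (Real.exp_pos _).le).trans ?_
    rw [← Real.exp_add]
    refine Real.exp_le_exp.2 ?_
    have a1 : θ * r₀ / (224 * 2 ^ (J + 1)) ≤ θ * r / (224 * 2 ^ (J + 1)) := by gcongr
    have a2 : 12 * θ * (2 * ε₂ * r) ≤ θ * r / (224 * 2 ^ (J + 1)) := by
      rw [le_div_iff₀ (by positivity)]
      nlinarith [mul_le_mul_of_nonneg_right hε' (mul_nonneg hθ hr.le)]
    have a3 : θ * r / (112 * 2 ^ (J + 1)) = 2 * (θ * r / (224 * 2 ^ (J + 1))) := by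
      field_simp; ring
    linarith

end Crest.Agent.H7.Ry
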