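import Crest.Agent.H7.RyM

set_option autoImplicit false
set_option linter.unusedSectionVars false

open Finset

namespace Crest.Agent.H7.Ry

variable {F : Type*} [Field F] [Fintype F] [DecidableEq F]

def off : Slot → ℕ
  | (_, none) => 0
  | (ε, some j) => 1 + j.1 + (if ε then 13 else 0)

lemma off_lt (k : Slot) : off k < 27 := by
  obtain ⟨ε, _ | j⟩ := k
  · simp [off]
  · simp only [off]; split_ifs <;> omega

lemma off_eq {k k' : Slot} (h : off k = off k') : k = k' ∨ (k.2 = none ∧ k'.2 = none) := by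
  obtain ⟨ε, _ | j⟩ := k <;> obtain ⟨ε', _ | j'⟩ := k'
  · simp
  · simp only [off] at h; omega
  · simp only [off] at h; omega
  · left
    cases ε <;> cases ε' <;> simp only [off, Bool.false_eq_true, if_false, if_true] at h
    · rw [show j = j' from Fin.ext (by omega)]
    · omega
    · omega
    · rw [show j = j' from Fin.ext (by omega)]

lemma exists_dr (hq : 27 ≤ Fintype.card F) :
    ∃ dr : ℕ → Slot → Option F, DrHyp (Fintype.card F + 1) dr := by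
  let e : Fin (Fintype.card F + 1) ≃ Option F := (Fintype.equivFinOfCardEq (by simp)).symm
  refine ⟨fun t k => e ⟨(t + off k) % (Fintype.card F + 1), Nat.mod_lt _ (Nat.succ_pos _)⟩,
    fun k s t hs ht h => ?_, fun t k k' h => ?_, fun t ε => rfl, fun d => ?_⟩
  · have h1 : (s + off k) % (Fintype.card F + 1) = (t + off k) % (Fintype.card F + 1) :=
      congrArg Fin.val (e.injective h)
    exact (Nat.ModEq.add_right_cancel' _ h1).eq_of_lt_of_lt hs ht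
  · have h1 : (t + off k) % (Fintype.card F + 1) = (t + off k') % (Fintype.card F + 1) :=
      congrArg Fin.val (e.injective h)
    exact off_eq ((Nat.ModEq.add_left_cancel' _ h1).eq_of_lt_of_lt (by have := off_lt k; omega)
      (by have := off_lt k'; omega))
  · refine ⟨(e.symm d).1, (e.symm d).2, ?_⟩
    simp only [off, add_zero, Nat.mod_eq_of_lt (e.symm d).2, Fin.eta, Equiv.apply_symm_apply]

variable {dr : ℕ → Slot → Option F} {N : ℕ}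

lemma stage_le (z : ℕ → Zt F) (b j : ℕ) {l : Ln F} (hl : l ∉ WkL dr N z) :
    sp (Sset dr (nj b N j) z \ Sset dr (nj b N (j + 1)) z) l ≤ b * 28 := by
  have : (pts l).filter (fun x => x ∈ Sset dr (nj b N j) z \ Sset dr (nj b N (j + 1)) z) ⊆
      (Ico (nj b N j) (nj b N (j + 1)) ×ˢ (univ : Finset Slot)).biUnion
        (fun p => (pts l).filter (fun x => On x (row dr p.1 (z p.1) p.2))) := by
    intro x hx
    obtain ⟨h1, h2⟩ := mem_filter.1 hx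
    obtain ⟨h2, h3⟩ := mem_sdiff.1 h2
    rw [mem_Sset] at h2 h3
    push Not at h3
    obtain ⟨s, hs, k, hon⟩ := h3
    exact mem_biUnion.2 ⟨(s, k), mem_product.2 ⟨mem_Ico.2 ⟨not_lt.1 fun h => h2 s h k hon, hs⟩,
      mem_univ _⟩, mem_filter.2 ⟨h1, hon⟩⟩
  refine (card_le_card this).trans ((card_biUnion_le_card_mul _ _ 1 fun p hp => ?_).trans ?_)
  · exact card_inter_le fun e => hl (mem_WkL.2 ⟨p.1,
      lt_of_lt_of_le (mem_Ico.1 (mem_product.1 hp).1).2 (nj_le _ _ _), p.2, e.symm⟩)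
  · rw [mul_one, card_product, Nat.card_Ico]
    exact Nat.mul_le_mul (nj_sub _ _ _) (by simp)

structure Par (M J : ℕ) (ε K ε₂ ξ τ η ρ : ℝ) : Prop where
  hη : 0 < η
  hη1 : η ≤ 1 / 16
  hητ : 4 * η ≤ τ
  hε : 0 < ε
  hε8 : ε ≤ 1 / 8
  hK : 2 / ε + 2 ≤ K
  hKJ : 8 * K ^ J * τ ≤ ε
  hρ : 0 < ρ
  hρδ : 16 * ρ ≤ δ₀
  hρM : ρ * M ≤ 1
  hM : 1024 ≤ δ₀ * M
  hε' : 64 * M * ε ≤ δ₀
  hξ : K ^ J * τ + 4 * η ≤ ξ
  hξδ : 8 * ξ ≤ δ₀
  hξε : 3200 * ξ < ε₂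
  hξJ : 40 * 2 ^ J * ξ ≤ 1
  hε₂0 : 0 < ε₂
  hε₂ : 24 * 224 * 2 ^ (J + 1) * ε₂ ≤ 1
  hJ : 112 ≤ ε * J
  hρτ : 24 * 224 * ρ ≤ τ

lemma δ₀_pos : 0 < δ₀ := by unfold δ₀; positivity
lemma δ₀_le : δ₀ ≤ 1 := by
  unfold δ₀; rw [div_le_one (by positivity)]
  linarith [Real.one_le_exp (show 0 ≤ 4 * κ₁ by linarith [κ₁_ge])]

lemma exists_par : ∃ (M J : ℕ) (ε K ε₂ ξ τ η ρ : ℝ), Par M J ε K ε₂ ξ τ η ρ := by
  have hδ := δ₀_pos
  have hδ1 := δ₀_le
  obtain ⟨M, hM⟩ := exists_nat_ge (1024 / δ₀)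
  rw [div_le_iff₀ hδ] at hM
  have hM1 : (1:ℝ) ≤ M := by nlinarith
  obtain ⟨ε, hε⟩ : ∃ ε : ℝ, ε = δ₀ / (64 * M) := ⟨_, rfl⟩
  have hε0 : 0 < ε := by rw [hε]; positivity
  have hε1 : 64 * M * ε = δ₀ := by rw [hε]; field_simp
  have hε2 : 64 * ε ≤ δ₀ := by nlinarith
  obtain ⟨J, hJ⟩ := exists_nat_ge (112 / ε)
  rw [div_le_iff₀ hε0] at hJ
  obtain ⟨K, hK⟩ : ∃ K : ℝ, K = 2 / ε + 2 := ⟨_, rfl⟩
  have hK1 : 1 ≤ K := by rw [hK]; linarith [div_pos two_pos hε0]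
  have hKJ : 1 ≤ K ^ J := one_le_pow₀ hK1
  obtain ⟨ε₂, hε₂⟩ : ∃ ε₂ : ℝ, ε₂ = 1 / (24 * 224 * 2 ^ (J + 1)) := ⟨_, rfl⟩
  have h2J : (1:ℝ) ≤ 2 ^ J := one_le_pow₀ (by norm_num)
  have hε₂0 : 0 < ε₂ := by rw [hε₂]; positivity
  have hε₂1 : 24 * 224 * 2 ^ (J + 1) * ε₂ = 1 := by rw [hε₂]; field_simp
  have hε₂2 : 24 * 224 * 2 * (2 ^ J * ε₂) = 1 := by rw [← hε₂1]; ring
  have hε₂3 : ε₂ ≤ 1 := by nlinarith
  obtain ⟨ξ, hξ⟩ : ∃ ξ : ℝ, ξ = δ₀ * ε₂ / 6400 := ⟨_, rfl⟩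
  have hξ0 : 0 < ξ := by rw [hξ]; positivity
  have hξ1 : 6400 * ξ ≤ ε₂ := by rw [hξ]; nlinarith
  have hξ2 : 6400 * ξ ≤ δ₀ := by rw [hξ]; nlinarith
  obtain ⟨τ, hτ⟩ : ∃ τ : ℝ, τ = ε * ξ / (8 * K ^ J) := ⟨_, rfl⟩
  have hτ0 : 0 < τ := by rw [hτ]; positivity
  have hτ1 : 8 * K ^ J * τ = ε * ξ := by rw [hτ]; field_simp
  have hτ2 : τ ≤ K ^ J * τ := by nlinarith
  have hτ3 : ε * ξ ≤ ξ := by nlinarith
  have hτ4 : ε * ξ ≤ ε := by nlinarith
  have hτ5 : τ ≤ ε := by linarith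
  refine ⟨M, J, ε, K, ε₂, ξ, τ, τ / 8, τ / 5376, by positivity, by linarith, by linarith, hε0,
    by linarith, hK.ge, by linarith, by positivity, by linarith, ?_, by linarith, hε1.le,
    by linarith, by linarith, by linarith, ?_, hε₂0, hε₂1.le, by linarith, by linarith⟩
  · nlinarith
  · nlinarith [mul_le_mul_of_nonneg_left hξ1 (by positivity : (0:ℝ) ≤ 2 ^ J)]

theorem assemble {M J : ℕ} {ε K ε₂ ξ τ η ρ : ℝ} (P : Par M J ε K ε₂ ξ τ η ρ) (θ r₀ Jc : ℝ)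
    (hθ : 0 ≤ θ) (c1 : 2 * κ₁ ≤ Fintype.card F) (c2 : 56 * κ₀ ≤ η * Fintype.card F)
    (c3 : 112 ≤ ε * Fintype.card F) (c4 : 732 ≤ δ₀ * Fintype.card F)
    (c6 : (Fintype.card (Ln F) : ℝ) + 1 ≤ Real.exp (12 * θ))
    (c7 : (2 * Fintype.card F + 1) * (2 * Real.exp (-(ρ ^ 3 * Fintype.card F / 16))) < 1)
    (c8 : (2 * Fintype.card (Ln F) + 1) * (2 * Real.exp (-(ε₂ ^ 3 * r₀ / 10240000))) < 1)
    (c9 : 2 ≤ r₀) (c9' : (2 * r₀ + 2) * (2 * r₀ + 1) + 2 * r₀ ≤ 3 * Fintype.card F / 4)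
    (c10 : 4732 * (Fintype.card F : ℝ) ^ 12 + 2 * Fintype.card (Ln F) * 14 ^ 13 ≤
      (δ₀ * Fintype.card F / 2) ^ 13 / 2)
    (c11 : Fintype.card (((F × F) ⊕ Option F) × Ln F) * Jc ^ 6 *
      (364 * (Fintype.card F : ℝ) ^ 12 / ((δ₀ * Fintype.card F / 2) ^ 13 / 2)) ^ 6 < 1)
    (c12 : (Fintype.card F + 1 : ℕ) * ((1 + 2 * (Fintype.card F + 1 : ℕ) * Fintype.card F) *
        eT (1 / 4) (Fintype.card F)) +
      (Fintype.card (Ln F) * eT η (Fintype.card F) +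
      (Fintype.card (Ln F) * eT η (Fintype.card F) +
      ((Fintype.card F + 1 : ℕ) * (Fintype.card F : ℝ) ^ 3 * 13 * eT (1 / 2) (Fintype.card F) +
      (Fintype.card ((F × F) ⊕ Option F) * Real.exp (-(Jc / 28) + 6 * κ₀) +
      (J * Real.exp (12 * θ * (2 * ρ * Fintype.card F) +
        (1 + 256 / (δ₀ ^ 2 * ρ) + 1 / (2 * ρ ^ 2)) * Fintype.card F +
        (-(θ * τ * Fintype.card F / 112) + Real.exp θ * (2 * κ₀ / τ))) +
      ((Fintype.card F ^ 2 + 1) * Real.exp (-(θ * r₀ / 224) + Real.exp θ * (57 * κ₀)) +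
      J * ((Fintype.card F ^ 2 + 1) *
        Real.exp (-(θ * r₀ / (224 * 2 ^ (J + 1))) + Real.exp θ * (2 * κ₀))))))))) < 1) :
    ∃ E : Finset (Option F → Option F), (∀ e ∈ E, ∀ f ∈ E, ∃ d, e d = f d) ∧
      (∀ d o, ∃ e ∈ E, e d = o) ∧
      ∀ C : Finset (Option F × Option F), (∀ e ∈ E, ∃ d, (d, e d) ∈ C) →
        Fintype.card F + 1 ≤ C.card := by
  have hq0 := card_pos' (F := F)
  have hδ := δ₀_pos
  obtain ⟨dr, D⟩ := exists_dr (F := F) (by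
    have : (27:ℝ) ≤ Fintype.card F := by linarith [κ₁_ge]
    exact_mod_cast this)
  set N := Fintype.card F + 1 with hN
  have hτ : 0 < τ := by linarith [P.hη, P.hητ]
  have hJ0 : 0 < J := by
    rcases Nat.eq_zero_or_pos J with h | h
    · have := P.hJ; rw [h] at this; norm_num at this
    · exact h
  have hε₂1 : 24 * 224 * ε₂ ≤ 1 := by
    have : (1:ℝ) ≤ 2 ^ (J + 1) := one_le_pow₀ (by norm_num)
    nlinarith [P.hε₂, P.hε₂0]
  set b := N / J + 1 with hb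
  have hb1 : N ≤ J * b := by rw [hb]; exact (Nat.lt_mul_div_succ N hJ0).le
  have hb2 : 28 * (b : ℝ) ≤ ε * Fintype.card F := by
    have a1 : ((N / J : ℕ) : ℝ) ≤ N / J := Nat.cast_div_le
    have a2 : (N : ℝ) / J ≤ ε * Fintype.card F / 56 := by
      rw [div_le_div_iff₀ (by exact_mod_cast hJ0) (by norm_num)]
      nlinarith [N_le (F := F) hN, mul_le_mul_of_nonneg_right P.hJ hq0.le]
    rw [hb]; push_cast; linarith
  have hb3 : 28 * (b : ℝ) ≤ Fintype.card F / 8 := by nlinarith [P.hε8]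
  have hπ := isK_π1 dr
  have p7 := Pr_exists_le hπ N [] (range J) _ _ fun j _ => pr_bad7 D b hb3 δ₀ ρ τ
    (1 + 256 / (δ₀ ^ 2 * ρ) + 1 / (2 * ρ ^ 2)) θ P.hρ.le hτ hθ c6 j
  have p9 := Pr_exists_le hπ N [] (range J) _ _ fun j _ => pr_bad9 D b hb3 J ε₂ r₀ θ P.hε₂0.le
    P.hε₂ (by linarith) hθ c6 j
  rw [card_range] at p7 p9
  have hη1 : η ≤ 1 := by linarith [P.hη1]
  have total := (Pr_or hπ N [] _ _).trans (add_le_add (pr_bad1 D hN c1)
    ((Pr_or hπ N [] _ _).trans (add_le_add (pr_bad3 D hN c1 P.hη.le hη1)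
    ((Pr_or hπ N [] _ _).trans (add_le_add (pr_bad4 hN c1 P.hη.le hη1)
    ((Pr_or hπ N [] _ _).trans (add_le_add (pr_bad5 D hN c1)
    ((Pr_or hπ N [] _ _).trans (add_le_add (pr_bad6 D Jc)
    ((Pr_or hπ N [] _ _).trans (add_le_add p7
    ((Pr_or hπ N [] _ _).trans (add_le_add
      (pr_bad8 D ε₂ r₀ θ P.hε₂0.le hε₂1 (by linarith) hθ c6) p9)))))))))))))
  obtain ⟨h, hl, hs, hbad⟩ := exists_path hπ N _ (total.trans_lt c12)
  simp only [not_or] at hbad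
  obtain ⟨b1, b3, b4, b5, b6, b7, b8, b9⟩ := hbad
  obtain ⟨hσ, hconf⟩ := not_bad1 hl hs b1
  obtain ⟨hwt, hdens⟩ := not_bad34 D hN c1 (by linarith [P.hη1]) c2 hl b3 b4
  have h4 := not_bad5 D hN c1 hl hconf b5
  obtain ⟨τ', K2⟩ := phase2 (z := toF h) D (δ₀ * Fintype.card F / 2) Jc (by positivity)
    (fun t ht j => by linarith [h4 t ht j])
    (fun P => (not_le.1 fun hc => b6 ⟨P, mem_univ _, hc⟩).le) c10 c11
  have hJ : nj b N J = N := min_eq_right hb1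
  have H : StabHyp (WkL dr N (toF h)) (fun j => Sset dr (nj b N j) (toF h)) J
      δ₀ ρ ε τ η ε₂ 56 r₀ :=
    { s0 := by ext x; simp [nj, mem_Sset]
      smono := fun j => Sset_mono (nj_mono _ _ _) _
      wt := by simp only [hJ]; exact hwt
      dens := by simp only [hJ]; exact hdens
      stage := fun j _ l hl => by
        have : (sp (Sset dr (nj b N j) (toF h) \ Sset dr (nj b N (j + 1)) (toF h)) l : ℝ) ≤
            b * 28 := by exact_mod_cast stage_le (toF h) b j hl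
        linarith
      p4 := fun j hj L' h1 h2 B h3 h4 h5 => not_lt.1 fun hc =>
        b7 ⟨j, mem_range.2 hj, L', h1, h2, B, h3, h4, h5, hc⟩
      wk := by
        have a1 : (WkL dr N (toF h)).card ≤ N * 28 := card_image_le.trans (by simp)
        have a2 : ((WkL dr N (toF h)).card : ℝ) ≤ N * 28 := by exact_mod_cast a1
        linarith [N_le (F := F) hN]
      p5 := fun u hu hr L' h1 h2 => not_le.1 fun hc => b8 ⟨u, hu, hr, L', h1, h2, hc⟩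
      p6 := fun u hu hr L' h1 j hj h2 => not_lt.1 fun hc =>
        b9 ⟨j, mem_range.2 hj, u, hu, hr, L', h1, h2, hc⟩ }
  refine ⟨Edges dr N (toF h) τ', edges_inter D K2 hconf, edges_used D fun l hl => ?_,
    fun C hC => cover_big D K2 hσ hconf (2 * ξ * Fintype.card F) (fun l hl => ?_)
      (fun L h1 h2 h3 => ?_) hC⟩
  · have : (0:ℝ) < sp (Sset dr N (toF h)) l := by linarith [hdens l hl]
    exact_mod_cast this
  · linarith [hdens l hl, mul_le_mul_of_nonneg_right P.hξδ hq0.le]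
  · have hξ0 : 0 < ξ := by
      have : 0 ≤ K ^ J * τ := by
        have : 0 ≤ K := by linarith [P.hK, div_pos two_pos P.hε]
        positivity
      linarith [P.hξ, P.hη]
    rcases H.stab M K ξ P.hη.le P.hη1 P.hητ P.hε P.hK P.hKJ δ₀_le P.hρ P.hρδ P.hρM P.hM P.hε' c7
      P.hξ (by linarith [P.hξδ]) P.hξε (by linarith) P.hξJ c9 c9' c8 h1 h2
      (by simp only [hJ]; exact h3) with ⟨p, hp⟩ | ⟨d, hd⟩
    exacts [⟨Sum.inl p, hp⟩, ⟨Sum.inr d, hd⟩]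

end Crest.Agent.H7.Ry
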