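import Crest.Agent.H7.RyN

set_option autoImplicit false
set_option linter.unusedSectionVars false

open Finset Filter

namespace Crest.Agent.H7.Ry

lemma ev_lin {c : ℝ} (hc : 0 < c) (a : ℝ) : ∀ᶠ x : ℝ in atTop, a ≤ c * x :=
  (tendsto_id.const_mul_atTop hc).eventually_ge_atTop a

lemma ev_log {c : ℝ} (hc : 0 < c) (a : ℝ) : ∀ᶠ x : ℝ in atTop, a ≤ c * Real.log x :=
  (Real.tendsto_log_atTop.const_mul_atTop hc).eventually_ge_atTop a

lemma ev_exp (C : ℝ) : ∀ᶠ x : ℝ in atTop, C * (x ^ 16 * Real.exp (-(x / 56))) < 1 := by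
  have h1 := (Real.tendsto_pow_mul_exp_neg_atTop_nhds_zero 16).comp
    (tendsto_id.atTop_div_const (show (0:ℝ) < 56 by norm_num))
  have h2 := h1.const_mul (C * 56 ^ 16)
  rw [mul_zero] at h2
  filter_upwards [h2.eventually_lt_const zero_lt_one] with x hx
  simp only [Function.comp, id] at hx
  refine lt_of_eq_of_lt ?_ hx
  field_simp

lemma eT_le {η x : ℝ} (hx : 1 ≤ x)
    (h : 1 ≤ η ^ 2 / (128 * Real.exp (4 * κ₁) ^ 2 * κ₁ ^ 2) * x) :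
    eT η (x ^ 4) ≤ Real.exp (-(x / 56)) := by
  unfold eT
  refine Real.exp_le_exp.2 (neg_le_neg ?_)
  rw [mul_div_right_comm]
  generalize η ^ 2 / (128 * Real.exp (4 * κ₁) ^ 2 * κ₁ ^ 2) = c at h
  have h3 : x ≤ x ^ 3 := le_self_pow₀ hx (by norm_num)
  nlinarith [mul_le_mul_of_nonneg_right h (by positivity : 0 ≤ x ^ 3)]

lemma cT_pos {η : ℝ} (h : 0 < η) : 0 < η ^ 2 / (128 * Real.exp (4 * κ₁) ^ 2 * κ₁ ^ 2) := by
  have := κ₁_ge
  have : 0 < κ₁ := by linarith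
  positivity

lemma num12 {Q E J t1 t2 t3 t4 t5 t6 t7 : ℝ} (hQ : 4 ≤ Q) (hJ : 0 ≤ J) (hE : 0 < E)
    (h1 : t1 ≤ E) (h2 : t2 ≤ E) (h3 : t3 ≤ E) (h4 : t4 ≤ E) (h5 : t5 ≤ E) (h6 : t6 ≤ E)
    (h7 : t7 ≤ E) (H : 45 * (J + 1) * (Q ^ 4 * E) < 1) :
    (Q + 1) * ((1 + 2 * (Q + 1) * Q) * t1) + ((Q + 1) * Q * t2 + ((Q + 1) * Q * t2 +
      ((Q + 1) * Q ^ 3 * 13 * t3 + ((Q * Q + (Q + 1)) * t4 + (J * t5 + ((Q ^ 2 + 1) * t6 +
      J * ((Q ^ 2 + 1) * t7))))))) < 1 := by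
  have hQ0 : 0 < Q := by linarith
  have q2 : Q ≤ Q ^ 2 := by nlinarith
  have q3 : Q ^ 2 ≤ Q ^ 3 := pow_le_pow_right₀ (by linarith) (by norm_num)
  have q4 : Q ^ 3 ≤ Q ^ 4 := pow_le_pow_right₀ (by linarith) (by norm_num)
  calc _ ≤ (Q + 1) * ((1 + 2 * (Q + 1) * Q) * E) + ((Q + 1) * Q * E + ((Q + 1) * Q * E +
      ((Q + 1) * Q ^ 3 * 13 * E + ((Q * Q + (Q + 1)) * E + (J * E + ((Q ^ 2 + 1) * E +
      J * ((Q ^ 2 + 1) * E))))))) := by gcongr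
    _ = (13 * Q ^ 4 + 15 * Q ^ 3 + 8 * Q ^ 2 + 6 * Q + 3) * E + J * E * (Q ^ 2 + 2) := by ring
    _ ≤ (45 * Q ^ 4) * E + J * E * (45 * Q ^ 4) := by gcongr <;> linarith
    _ = 45 * (J + 1) * (Q ^ 4 * E) := by ring
    _ < 1 := H

lemma num11 {x Q A : ℝ} (hx : 4 ≤ x) (hQ : Q = x ^ 4) (h : 6 * A ^ 6 + 1 ≤ x) :
    (Q * Q + (Q + 1)) * ((Q + 1) * Q) * x ^ 6 * (A / Q) ^ 6 < 1 := by
  have hxQ : x ≤ Q := hQ ▸ le_self_pow₀ (by linarith) (by norm_num)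
  have hx0 : 0 < x := by linarith
  have q2 : Q ≤ Q ^ 2 := by nlinarith
  have hA : 0 ≤ (A / Q) ^ 6 := by positivity
  have b1 : Q * Q + (Q + 1) ≤ 3 * Q ^ 2 := by linarith
  have b2 : (Q + 1) * Q ≤ 2 * Q ^ 2 := by linarith
  have b3 : 0 ≤ (Q + 1) * Q := by nlinarith
  calc _ ≤ (3 * Q ^ 2) * (2 * Q ^ 2) * x ^ 6 * (A / Q) ^ 6 := by gcongr
    _ = 6 * A ^ 6 / x ^ 2 := by rw [hQ]; field_simp; ring
    _ < 1 := by rw [div_lt_one (by positivity)]; nlinarith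

lemma num7 {x Q c E a : ℝ} (hx : 1 ≤ x) (hQ : x ≤ Q) (hE : E = Real.exp (-(x / 56)))
    (h : 1 ≤ c * x) (ha : c * (x * x) ≤ a) : Real.exp (-a) ≤ E := by
  rw [hE]; refine Real.exp_le_exp.2 (neg_le_neg ?_)
  nlinarith [mul_le_mul_of_nonneg_right h (by linarith : 0 ≤ x)]

theorem main : ∃ q₀ : ℕ, ∀ (F : Type) [Field F] [Fintype F] [DecidableEq F],
    q₀ ≤ Fintype.card F → ∃ E : Finset (Option F → Option F),
      (∀ e ∈ E, ∀ f ∈ E, ∃ d, e d = f d) ∧ (∀ d o, ∃ e ∈ E, e d = o) ∧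
      ∀ C : Finset (Option F × Option F), (∀ e ∈ E, ∃ d, (d, e d) ∈ C) →
        Fintype.card F + 1 ≤ C.card := by
  obtain ⟨M, J, ε, K, ε₂, ξ, τ, η, ρ, P⟩ := exists_par
  have hδ := δ₀_pos
  have hk := κ₀_ge
  have hτ : 0 < τ := by linarith [P.hη, P.hητ]
  have hρ := P.hρ
  have hε₂ := P.hε₂0
  obtain ⟨c, hc⟩ : ∃ c : ℝ, c = (δ₀ / 2) ^ 13 / 2 := ⟨_, rfl⟩
  have hc0 : 0 < c := by rw [hc]; positivity
  obtain ⟨C₁, hC₁⟩ : ∃ C₁ : ℝ, C₁ = 1 + 256 / (δ₀ ^ 2 * ρ) + 1 / (2 * ρ ^ 2) := ⟨_, rfl⟩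
  have ev : ∀ᶠ x : ℝ in atTop, 4 ≤ x ∧ 2 * κ₁ ≤ x ∧ 56 * κ₀ ≤ η * x ∧ 112 ≤ ε * x ∧
      732 ≤ δ₀ * x ∧ 45 * (J + 1) * (x ^ 16 * Real.exp (-(x / 56))) < 1 ∧
      1 ≤ (1 / 4) ^ 2 / (128 * Real.exp (4 * κ₁) ^ 2 * κ₁ ^ 2) * x ∧
      1 ≤ η ^ 2 / (128 * Real.exp (4 * κ₁) ^ 2 * κ₁ ^ 2) * x ∧
      1 ≤ (1 / 2) ^ 2 / (128 * Real.exp (4 * κ₁) ^ 2 * κ₁ ^ 2) * x ∧
      336 * κ₀ ≤ x ∧ C₁ + 2 * κ₀ / τ + 1 ≤ τ / 224 * Real.log x ∧ 1 ≤ 1 * Real.log x ∧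
      57 * κ₀ + 1 ≤ 1 / 1792 * x ∧ 2 * κ₀ + 1 ≤ 1 / (1792 * 2 ^ (J + 1)) * x ∧
      1 ≤ ρ ^ 3 / 16 * x ∧ 1 ≤ ε₂ ^ 3 / 81920000 * x ∧ 4732 + 4 * 14 ^ 13 ≤ c * x ∧
      6 * (364 / c) ^ 6 + 1 ≤ x := by
    filter_upwards [eventually_ge_atTop 4, eventually_ge_atTop (2 * κ₁), ev_lin P.hη (56 * κ₀),
      ev_lin P.hε 112, ev_lin hδ 732, ev_exp (45 * (J + 1)),
      ev_lin (cT_pos (η := 1 / 4) (by norm_num)) 1, ev_lin (cT_pos P.hη) 1,
      ev_lin (cT_pos (η := 1 / 2) (by norm_num)) 1, eventually_ge_atTop (336 * κ₀),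
      ev_log (c := τ / 224) (by positivity) (C₁ + 2 * κ₀ / τ + 1), ev_log one_pos 1,
      ev_lin (c := 1 / 1792) (by positivity) (57 * κ₀ + 1),
      ev_lin (c := 1 / (1792 * 2 ^ (J + 1))) (by positivity) (2 * κ₀ + 1),
      ev_lin (c := ρ ^ 3 / 16) (by positivity) 1, ev_lin (c := ε₂ ^ 3 / 81920000) (by positivity) 1,
      ev_lin hc0 (4732 + 4 * 14 ^ 13), eventually_ge_atTop (6 * (364 / c) ^ 6 + 1)]
      with x a1 a2 a3 a4 a5 a6 a7 a8 a9 a10 a11 a12 a13 a14 a15 a16 a17 a18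
    exact ⟨a1, a2, a3, a4, a5, a6, a7, a8, a9, a10, a11, a12, a13, a14, a15, a16, a17, a18⟩
  obtain ⟨x₀, hx₀⟩ := eventually_atTop.1 ev
  refine ⟨⌈x₀ ^ 4⌉₊, fun F _ _ _ hq => ?_⟩
  obtain ⟨x, hx0, hx⟩ : ∃ x : ℝ, 0 ≤ x ∧ (Fintype.card F : ℝ) = x ^ 4 :=
    ⟨√(√(Fintype.card F)), Real.sqrt_nonneg _, by
      rw [show 4 = 2 * 2 from rfl, pow_mul, Real.sq_sqrt (Real.sqrt_nonneg _),
        Real.sq_sqrt (Nat.cast_nonneg _)]⟩
  have hxx : x₀ ≤ x := by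
    have := Nat.ceil_le.1 hq
    rw [hx] at this
    exact le_of_pow_le_pow_left₀ (by norm_num) hx0 this
  obtain ⟨a1, a2, a3, a4, a5, a6, a7, a8, a9, a10, a11, a12, a13, a14, a15, a16, a17, a18⟩ :=
    hx₀ x hxx
  clear ev hx₀ hxx hq
  have hx1 : 1 ≤ x := by linarith
  have hxp : 0 < x := by linarith
  obtain ⟨Q, hQ⟩ : ∃ Q : ℝ, Q = x ^ 4 := ⟨_, rfl⟩
  have hxQ : x ≤ Q := hQ ▸ le_self_pow₀ hx1 (by norm_num)
  have hQ1 : 4 ≤ Q := by linarith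
  have hQ0 : 0 < Q := by linarith
  have hx16 : x ^ 16 = Q ^ 4 := by rw [hQ]; ring
  have hexp : Real.exp (Real.log x) = x := Real.exp_log hxp
  have hF : (Fintype.card F : ℝ) = Q := hx.trans hQ.symm
  have hLn : (Fintype.card (Ln F) : ℝ) = (Q + 1) * Q := by rw [card_Ln]; push_cast; rw [hF]
  have hPn : (Fintype.card ((F × F) ⊕ Option F) : ℝ) = Q * Q + (Q + 1) := by
    simp only [Fintype.card_sum, Fintype.card_prod, Fintype.card_option]; push_cast; rw [hF]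
  obtain ⟨E, hE⟩ : ∃ E : ℝ, E = Real.exp (-(x / 56)) := ⟨_, rfl⟩
  have hE0 : 0 < E := hE ▸ Real.exp_pos _
  rw [← hE, hx16] at a6
  have hJ0 : (0:ℝ) ≤ J := Nat.cast_nonneg _
  have hQE0 : 0 < Q ^ 4 * E := mul_pos (pow_pos hQ0 4) hE0
  have hQE : 45 * (Q ^ 4 * E) < 1 := by linarith [mul_nonneg hJ0 hQE0.le]
  have q2 : Q ≤ Q ^ 2 := le_self_pow₀ (by linarith) (by norm_num)
  have q3 : Q ^ 2 ≤ Q ^ 3 := pow_le_pow_right₀ (by linarith) (by norm_num)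
  have q4 : Q ^ 3 ≤ Q ^ 4 := pow_le_pow_right₀ (by linarith) (by norm_num)
  have hx16' : 16 ≤ x ^ 2 := by linarith [mul_le_mul a1 a1 (by norm_num) hx0]
  have hxxQ : x * x ≤ Q := by
    rw [hQ, ← sq]; exact pow_le_pow_right₀ hx1 (by norm_num)
  refine assemble P (Real.log x) (x ^ 2 / 8) x (by linarith) (by rw [hF]; linarith)
    (hF ▸ a3.trans (mul_le_mul_of_nonneg_left hxQ P.hη.le))
    (hF ▸ a4.trans (mul_le_mul_of_nonneg_left hxQ P.hε.le))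
    (hF ▸ a5.trans (mul_le_mul_of_nonneg_left hxQ hδ.le))
    ?_ ?_ ?_ (by linarith) ?_ ?_ ?_ ?_
  · have : Real.exp (12 * Real.log x) = Q ^ 3 := by
      rw [show (12:ℝ) = (12:ℕ) by norm_num, Real.exp_nat_mul, hexp, hQ]; ring
    rw [this, hLn]
    linarith [mul_le_mul_of_nonneg_right hQ1 (sq_nonneg Q)]
  · rw [hF]
    have : Real.exp (-(ρ ^ 3 * Q / 16)) ≤ E := num7 hx1 hxQ hE a15 (by
      linarith [mul_le_mul_of_nonneg_left hxxQ (pow_pos hρ 3).le])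
    calc _ ≤ (3 * Q ^ 4) * (2 * E) :=
          mul_le_mul (by linarith) (by linarith) (by positivity) (by positivity)
      _ < 1 := by linarith
  · rw [hLn]
    have : Real.exp (-(ε₂ ^ 3 * (x ^ 2 / 8) / 10240000)) ≤ E :=
      num7 hx1 hxQ hE a16 (le_of_eq (by ring))
    calc _ ≤ (5 * Q ^ 4) * (2 * E) :=
          mul_le_mul (by linarith) (by linarith) (by positivity) (by positivity)
      _ < 1 := by linarith
  · rw [hx]
    linarith [mul_le_mul_of_nonneg_right hx16' (sq_nonneg x)]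
  · rw [hF, hLn]
    have e : (δ₀ * Q / 2) ^ 13 / 2 = c * Q * Q ^ 12 := by rw [hc]; ring
    have b1 : Q ^ 2 ≤ Q ^ 12 := pow_le_pow_right₀ (by linarith) (by norm_num)
    have b2 : 4732 + 4 * 14 ^ 13 ≤ c * Q := a17.trans (mul_le_mul_of_nonneg_left hxQ hc0.le)
    rw [e]
    have b3 := mul_le_mul_of_nonneg_right b2 (pow_pos hQ0 12).le
    linarith
  · rw [Fintype.card_prod, Nat.cast_mul, hF, hLn, hPn]
    have e : 364 * Q ^ 12 / ((δ₀ * Q / 2) ^ 13 / 2) = 364 / c / Q := by rw [hc]; field_simp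
    rw [e]
    exact num11 a1 hQ a18
  · rw [hLn, hPn, hexp, ← hC₁]
    push_cast
    rw [hF]
    have e1 := eT_le hx1 a7
    have e2 := eT_le hx1 a8
    have e3 := eT_le hx1 a9
    rw [← hE, ← hQ] at e1 e2 e3
    refine num12 hQ1 hJ0 hE0 e1 e2 e3 ?_ ?_ ?_ ?_ a6
    · rw [hE]; exact Real.exp_le_exp.2 (by linarith)
    · rw [hE]; refine Real.exp_le_exp.2 ?_
      have b1 := mul_le_mul_of_nonneg_right a11 hQ0.le
      have b2 := mul_le_mul_of_nonneg_right P.hρτ (mul_nonneg (by linarith : 0 ≤ Real.log x) hQ0.le)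
      have b3 : x * (2 * κ₀ / τ) ≤ Q * (2 * κ₀ / τ) :=
        mul_le_mul_of_nonneg_right hxQ (div_nonneg (by linarith) hτ.le)
      linarith
    · rw [hE]; refine Real.exp_le_exp.2 ?_
      have b1 := mul_le_mul_of_nonneg_right a13 hx0
      have b2 := mul_le_mul_of_nonneg_right a12 (sq_nonneg x)
      linarith
    · rw [hE]; refine Real.exp_le_exp.2 ?_
      have b1 := mul_le_mul_of_nonneg_right a14 hx0
      have b2 : 1 / (1792 * 2 ^ (J + 1)) * x * x ≤ Real.log x * (x ^ 2 / 8) / (224 * 2 ^ (J + 1)) := by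
        rw [show 1 / (1792 * 2 ^ (J + 1)) * x * x = 1 * (x ^ 2 / 8) / (224 * 2 ^ (J + 1)) by
          field_simp; ring]
        exact div_le_div_of_nonneg_right (mul_le_mul_of_nonneg_right (by linarith)
          (by positivity)) (by positivity)
      linarith

theorem transfer {F : Type} [Field F] [Fintype F] [DecidableEq F] {q : ℕ} (hq : Fintype.card F = q)
    (E : Finset (Option F → Option F)) (h1 : ∀ e ∈ E, ∀ f ∈ E, ∃ d, e d = f d)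
    (h2 : ∀ d o, ∃ e ∈ E, e d = o)
    (h3 : ∀ C : Finset (Option F × Option F), (∀ e ∈ E, ∃ d, (d, e d) ∈ C) →
      Fintype.card F + 1 ≤ C.card) :
    ∃ (N : ℕ) (part : Fin N → Fin (q + 1)) (E : Finset (Finset (Fin N))),
        E.Nonempty ∧
        (∀ e ∈ E, ∀ i : Fin (q + 1), (e.filter (fun v => part v = i)).card = 1) ∧
        (∀ e ∈ E, ∀ f ∈ E, (e ∩ f).Nonempty) ∧
        (∀ i : Fin (q + 1), (Finset.univ.filter (fun v => part v = i)).card = q + 1) ∧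
        (∀ v : Fin N, ∃ e ∈ E, v ∈ e) ∧
        (∀ S : Finset (Fin N), (∀ e ∈ E, (e ∩ S).Nonempty) → q + 1 ≤ S.card) := by
  classical
  let ev := Fintype.equivFin (Option F × Option F)
  let ed : Option F ≃ Fin (q + 1) := Fintype.equivFinOfCardEq (by simp [hq])
  let g : (Option F → Option F) → Finset (Fin (Fintype.card (Option F × Option F))) :=
    fun e => univ.image (fun d => ev (d, e d))
  have hg : ∀ e d o, ev (d, o) ∈ g e ↔ e d = o := fun e d o => by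
    simp only [g, mem_image, mem_univ, true_and, ev.apply_eq_iff_eq, Prod.mk.injEq]
    exact ⟨fun ⟨_, h, h'⟩ => h ▸ h', fun h => ⟨d, rfl, h⟩⟩
  refine ⟨_, fun v => ed (ev.symm v).1, E.image g, ?_, ?_, ?_, fun i => ?_, fun v => ?_,
    fun S hS => ?_⟩
  · obtain ⟨e, he, -⟩ := h2 none none
    exact ⟨_, mem_image_of_mem g he⟩
  · intro e' he' i
    obtain ⟨e, -, rfl⟩ := mem_image.1 he'
    rw [card_eq_one]
    refine ⟨ev (ed.symm i, e (ed.symm i)), ?_⟩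
    ext v
    obtain ⟨⟨d, o⟩, rfl⟩ := ev.surjective v
    simp only [mem_filter, hg, Equiv.symm_apply_apply, mem_singleton, ev.apply_eq_iff_eq,
      Prod.mk.injEq]
    constructor
    · rintro ⟨rfl, rfl⟩; simp
    · rintro ⟨rfl, rfl⟩; simp
  · intro e' he' f' hf'
    obtain ⟨e, he, rfl⟩ := mem_image.1 he'
    obtain ⟨f, hf, rfl⟩ := mem_image.1 hf'
    obtain ⟨d, hd⟩ := h1 e he f hf
    exact ⟨ev (d, e d), mem_inter.2 ⟨(hg _ _ _).2 rfl, (hg _ _ _).2 hd.symm⟩⟩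
  · have : univ.filter (fun v => ed (ev.symm v).1 = i) =
        univ.image (fun o : Option F => ev (ed.symm i, o)) := by
      ext v
      obtain ⟨⟨d, o⟩, rfl⟩ := ev.surjective v
      simp only [mem_filter, mem_univ, true_and, Equiv.symm_apply_apply, mem_image,
        ev.apply_eq_iff_eq, Prod.mk.injEq]
      constructor
      · rintro rfl; simp
      · rintro ⟨_, rfl, -⟩; simp
    rw [this, card_image_of_injective _ (fun o o' h => congrArg Prod.snd (ev.injective h))]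
    simp [hq]
  · obtain ⟨⟨d, o⟩, rfl⟩ := ev.surjective v
    obtain ⟨e, he, h⟩ := h2 d o
    exact ⟨_, mem_image_of_mem g he, (hg _ _ _).2 h⟩
  · have := h3 (S.image ev.symm) fun e he => by
      obtain ⟨v, hv⟩ := hS _ (mem_image_of_mem g he)
      obtain ⟨⟨d, o⟩, rfl⟩ := ev.surjective v
      obtain ⟨h4, h5⟩ := mem_inter.1 hv
      exact ⟨d, mem_image.2 ⟨_, h5, by rw [(hg _ _ _).1 h4]; simp⟩⟩
    rw [hq] at this
    exact this.trans card_image_le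

end Crest.Agent.H7.Ry
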